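import Crest.Agent.R165.BC.Osc

/-! # R165/BC/BH (owner helper57).  The function `H` near the boundary. -/

set_option autoImplicit false
noncomputable section
open Classical Filter Topology Metric ComplexConjugate

namespace Crest.Agent.R165

/-- `exists_H_box`; subtract `Hb 0`; `Reg.loc` with `r = 4 l`; `IsH.black` (weight `0`) along a `FrozenStep` -/
theorem exists_H0 {E : Set Edge} {ρ : ℝ} {S : Finset Site} {l : ℕ} {s : Fn} (hE : Reg E ρ) (h0 : FrozenB E 0)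
    (hl : 2 ≤ l) (hρ : (400 * l : ℝ) ≤ ρ) (hs : SolOn (wOf E S) (box 0 (50 * l)) s) :
    ∃ Hw Hb, IsH (wOf E S) s (box 0 (50 * l)) Hw Hb ∧ ∀ b ∈ box 0 (4 * l), FrozenB E b → Hb b = 0 := by
  obtain ⟨Hw, Hb, hH⟩ := exists_H_box _ s 0 (50 * l) hs
  refine ⟨fun y => Hw y - Hb 0, fun y => Hb y - Hb 0, fun x hx α => (sub_sub_sub_cancel_right _ _ _).trans (hH x hx α),
    fun b hb hf => sub_eq_zero.2 ?_⟩
  have h := hE.loc 0 b (4 * l) h0 hf (by rw [mem_box_iff] at hb; unfold supd at *; omega) (by push_cast; linarith)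
  clear hb hf
  induction h with
  | refl => rfl
  | tail _ h ih =>
    obtain ⟨h1, h2, e, he, h3⟩ := h
    have h4 : edgeB1 e ∈ box 0 (10 * (4 * l) + 10) := h3.elim (fun h => h.2 ▸ h2) fun h => h.2 ▸ h1
    have h5 := hH.black hs (e := e) (Finset.mem_coe.2 (mem_box_iff.2 (by
      rw [mem_box_iff] at h4
      simp only [supd, edgeB1, Prod.fst_add, Prod.snd_add, Prod.fst_zero, Prod.snd_zero] at h4 ⊢
      omega)))
    rw [wOf, if_neg he, zero_mul, zero_mul, abs_zero, mul_zero, abs_eq_zero, sub_eq_zero] at h5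
    rcases h3 with ⟨rfl, rfl⟩ | ⟨rfl, rfl⟩
    · exact h5.trans ih
    · exact h5.symm.trans ih

theorem bh_mem (b : Site) : b - (1, 1) ∈ box b 2 := mem_box_iff.2 (by simp [supd])

theorem bh_corner {E : Set Edge} {S : Finset Site} {s : Fn} {W : Set Site} {Hw Hb : Site → ℝ} {M : ℝ} {b : Site}
    (hH : IsH (wOf E S) s W Hw Hb) (hW : ↑(box b 2) ⊆ W) (hM : SB (box b 2) M s) (h0 : Hb b = 0) :
    |Hw (b - (1, 1))| ≤ 4 * M ^ 2 := by
  have h1 : box (b - (1, 1)) 1 ⊆ box b 2 := box_sub (t := 1) (mem_box_iff.2 (by simp [supd])) le_rfl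
  have h := hH.corner_le (hW (bh_mem b)) (fun x hx => hM x (Finset.mem_coe.2 (h1 (Finset.mem_coe.1 hx)))) 0
  simpa [cB, h0] using h

/-- `H` is linear in the distance to the frozen sites: `|Hw| ≤ C M² m` on `box p (3 m)` (`IsH.corner_le` at the white site
`b' - (1, 1)`, whose corner `0` is `b'`; `osc_box`, `IsH.step_le`), then `barrier` -/
theorem H_lin : ∃ (C : ℝ) (K : ℕ), ∀ (E : Set Edge) (ρ : ℝ) (S : Finset Site) (p : Site) (m : ℕ) (s : Fn)
    (Hw Hb : Site → ℝ) (M : ℝ), Reg E ρ → K ≤ m → (K * m : ℝ) ≤ ρ → (∀ v ∈ S, v ∉ box p (4 * m)) →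
    SolOn (wOf E S) (box p (4 * m)) s → IsH (wOf E S) s (box p (4 * m)) Hw Hb →
    (∀ b ∈ box p (3 * m), FrozenB E b → Hb b = 0) → SB (box p (4 * m)) M s →
    ∀ b ∈ box p m, FrozenB E b → |Hw p| ≤ C * M ^ 2 * (supd p b + 1) := by
  obtain ⟨C, K, h⟩ := barrier
  refine ⟨16 * C, K + 1, fun E ρ S p m s Hw Hb M hE hK hρ hS hs hH h0 hM b hb hf => ?_⟩
  have hm : (1 : ℝ) ≤ m := by exact_mod_cast (by omega : 1 ≤ m)
  have h1 : box b 2 ⊆ box p (3 * m) := box_sub hb (by omega)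
  have h2 : box p (3 * m) ⊆ box p (4 * m) := fun x hx => mem_box_iff.2 ((mem_box_iff.1 hx).trans (by omega))
  have h3 := bh_corner hH (fun x hx => h2 (h1 hx)) (fun x hx => hM x (h2 (h1 hx)))
    (h0 b (mem_box_iff.2 ((mem_box_iff.1 hb).trans (by omega))) hf)
  have h4 := (h E ρ S p m s Hw Hb (16 * M ^ 2 * m) hE (by omega) (by push_cast at hρ; linarith) hS hs hH h0
    fun x hx => ?_).2 p (mem_box_iff.2 (by simp [supd])) b hb hf
  · convert h4 using 1
    field_simp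
  have h5 := osc_box Hw p (3 * m) (sq_nonneg M)
    (fun q hq j hq' => hH.step_le hs subset_rfl hM (h2 hq) (h2 hq')) hx (h1 (bh_mem b))
  have h6 : (supd x (b - (1, 1)) : ℝ) ≤ 6 * m := by
    have := mem_box_iff.1 (h1 (bh_mem b))
    rw [mem_box_iff] at hx
    exact_mod_cast (by unfold supd at *; omega : supd x (b - (1, 1)) ≤ 6 * m)
  have h7 := abs_sub_abs_le_abs_sub (Hw x) (Hw (b - (1, 1)))
  rw [Real.norm_eq_abs] at h5
  nlinarith [sq_nonneg M, mul_le_mul_of_nonneg_left h6 (sq_nonneg M), mul_le_mul_of_nonneg_left hm (sq_nonneg M)]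

/-- `|Hw| ≤ C M² R` on a frame that contains `box b 2` for a frozen `b` with `Hb b = 0` (`osc_frame`) -/
theorem H_frame {E : Set Edge} {S : Finset Site} {s : Fn} {W : Set Site} {Hw Hb : Site → ℝ} {M : ℝ} {x b : Site}
    {r R : ℕ} (hH : IsH (wOf E S) s W Hw Hb) (hs : SolOn (wOf E S) W s) (hW : ↑(frame x r R) ⊆ W)
    (hM : SB (frame x r R) M s) (hb : box b 2 ⊆ frame x r R) (h0 : Hb b = 0) :
    ∀ p ∈ frame x r R, |Hw p| ≤ M ^ 2 * (16 * R + 4) := by
  intro p hp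
  have h1 := bh_corner hH (fun y hy => hW (hb hy)) (fun y hy => hM y (hb hy)) h0
  have h2 := osc_frame Hw x r R (sq_nonneg M) (fun q hq j hq' => hH.step_le hs hW hM hq hq') hp (hb (bh_mem b))
  have h3 := abs_sub_abs_le_abs_sub (Hw p) (Hw (b - (1, 1)))
  rw [Real.norm_eq_abs] at h2
  linarith

end Crest.Agent.R165
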