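import Crest.Agent.R165.BC.Defs

/-! # R165/BC/Cx (owner helper57).  One complex variable: removable singularities, residues, Schwarz reflection. -/

set_option autoImplicit false
noncomputable section
open Classical Filter Topology Metric ComplexConjugate

namespace Crest.Agent.R165

theorem cx_nre_apply (c w : ℂ) : nre c w = -(c * w).re := by
  simp [nre]

theorem cx_norm_nre (c : ℂ) : ‖nre c‖ ≤ ‖c‖ := by
  refine ContinuousLinearMap.opNorm_le_bound _ (norm_nonneg _) fun w => ?_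
  rw [cx_nre_apply, Real.norm_eq_abs, abs_neg, ← norm_mul]
  exact Complex.abs_re_le_norm _

theorem cx_schwarz {G : ℂ → ℂ} {M : ℝ} (hG : DifferentiableOn ℂ G (ball 0 1)) (hM : ∀ z ∈ ball (0 : ℂ) 1, ‖G z‖ ≤ M) :
    ∀ z ∈ ball (0 : ℂ) 1, ‖G z - G 0‖ ≤ 2 * M * ‖z‖ := by
  intro z hz
  have h := Complex.dist_le_div_mul_dist_of_mapsTo_ball (R₂ := 2 * M) hG (fun w hw => by
    rw [mem_closedBall, dist_eq_norm]
    have h1 := hM w hw
    have h2 := hM 0 (mem_ball_self one_pos)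
    calc ‖G w - G 0‖ ≤ ‖G w‖ + ‖G 0‖ := norm_sub_le _ _
      _ ≤ 2 * M := by linarith) hz
  simpa [dist_eq_norm] using h

/-- part a.  `Complex.differentiableOn_update_limUnder_of_isLittleO`, `Complex.norm_le_of_forall_mem_frontier_norm_le` -/
theorem remov_max {f : ℂ → ℂ} {R r C M : ℝ} (hr : 0 < r) (hR : r < R) (hf : DifferentiableOn ℂ f (ball 0 R \ {0}))
    (hC : ∀ z, z ≠ 0 → ‖z‖ ≤ r → ‖f z‖ ^ 2 * ‖z‖ ≤ C) (hM : ∀ z, ‖z‖ = r → ‖f z‖ ≤ M) :
    ∀ z, z ≠ 0 → ‖z‖ ≤ r → ‖f z‖ ≤ M := by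
  have ho : (fun z => f z - f 0) =o[𝓝[≠] (0 : ℂ)] fun z => (z - 0)⁻¹ := by
    have h1 : f =o[𝓝[≠] (0 : ℂ)] fun z => (z - 0)⁻¹ := by
      rw [Asymptotics.isLittleO_iff]
      intro ε hε
      have hδ : 0 < min r (ε ^ 2 / (|C| + 1)) := lt_min hr (by positivity)
      have : ∀ᶠ z in 𝓝[≠] (0 : ℂ), ‖z‖ < min r (ε ^ 2 / (|C| + 1)) := by
        apply nhdsWithin_le_nhds
        have := ball_mem_nhds (0 : ℂ) hδ
        filter_upwards [this] with z hz
        simpa using hz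
      filter_upwards [this, self_mem_nhdsWithin] with z hz hz0
      have hz0' : z ≠ 0 := hz0
      have hn : 0 < ‖z‖ := norm_pos_iff.2 hz0'
      have h2 := hC z hz0' (hz.trans_le (min_le_left _ _)).le
      have h3 : ‖z‖ * (|C| + 1) < ε ^ 2 := (lt_div_iff₀ (by positivity)).1 (hz.trans_le (min_le_right _ _))
      rw [sub_zero, norm_inv, ← div_eq_mul_inv, le_div_iff₀ hn]
      refine abs_le_of_sq_le_sq' ?_ hε.le |>.2
      have h4 : C ≤ |C| := le_abs_self C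
      nlinarith [mul_le_mul_of_nonneg_right h2 hn.le]
    have h2 : (fun _ : ℂ => f 0) =o[𝓝[≠] (0 : ℂ)] fun z => (z - 0)⁻¹ := by
      rw [Asymptotics.isLittleO_const_left]
      right
      simpa [Function.comp_def] using (tendsto_norm_inv_nhdsNE_zero_atTop (α := ℂ))
    exact h1.sub h2
  have hd := Complex.differentiableOn_update_limUnder_of_isLittleO (ball_mem_nhds (0 : ℂ) (hr.trans hR)) hf ho
  intro z hz0 hz
  have hcl : closure (ball (0 : ℂ) r) ⊆ ball 0 R := by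
    rw [closure_ball _ hr.ne']
    exact closedBall_subset_ball hR
  have := Complex.norm_le_of_forall_mem_frontier_norm_le (U := ball (0 : ℂ) r) isBounded_ball (hd.mono hcl).diffContOnCl (C := M)
    (fun w hw => by
      rw [frontier_ball _ hr.ne', mem_sphere_zero_iff_norm] at hw
      have hw0 : w ≠ 0 := by
        rintro rfl
        simp at hw
        linarith
      rw [Function.update_of_ne hw0]
      exact hM w hw) (z := z) (by rw [closure_ball _ hr.ne']; simpa using hz)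
  rwa [Function.update_of_ne hz0] at this

/-- part a.  `t ↦ h (circleMap 0 r t)` has derivative `Im (G (circleMap 0 r t))`; mean value property of `G` -/
theorem res_real {G : ℂ → ℂ} {h : ℂ → ℝ} (hG : DifferentiableOn ℂ G (ball 0 1))
    (hh : ∀ z ∈ ball (0 : ℂ) 1 \ {0}, HasFDerivAt h (nre (G z / z)) z) : (G 0).im = 0 := by
  have hsub : closedBall (0 : ℂ) |(1 / 2 : ℝ)| ⊆ ball 0 1 := closedBall_subset_ball (by rw [abs_of_pos] <;> norm_num)
  have hmem : ∀ t : ℝ, circleMap 0 (1 / 2) t ∈ ball (0 : ℂ) 1 := fun t => hsub (sphere_subset_closedBall (circleMap_mem_sphere' _ _ _))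
  have hne : ∀ t : ℝ, circleMap 0 (1 / 2) t ≠ 0 := fun t => circleMap_ne_center (by norm_num)
  have hcont : Continuous fun t : ℝ => G (circleMap 0 (1 / 2) t) :=
    hG.continuousOn.comp_continuous (continuous_circleMap _ _) hmem
  have hder : ∀ t : ℝ, HasDerivAt (fun t => h (circleMap 0 (1 / 2) t)) (G (circleMap 0 (1 / 2) t)).im t := by
    intro t
    have h1 := (hh _ ⟨hmem t, hne t⟩).comp_hasDerivAt t (hasDerivAt_circleMap 0 (1 / 2) t)
    refine h1.congr_deriv ?_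
    rw [cx_nre_apply, ← mul_assoc, div_mul_cancel₀ _ (hne t)]
    simp
  have hint := intervalIntegral.integral_eq_sub_of_hasDerivAt (a := 0) (b := 2 * Real.pi) (fun t _ => hder t)
    ((Complex.continuous_im.comp hcont).intervalIntegrable _ _)
  have hper : circleMap 0 (1 / 2) (2 * Real.pi) = circleMap 0 (1 / 2) 0 := by
    simpa using periodic_circleMap 0 (1 / 2) 0
  simp only [hper, sub_self] at hint
  have hav := circleAverage_of_differentiable_on_off_countable (f := G) (c := 0) (R := 1 / 2) Set.countable_empty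
    (hG.continuousOn.mono hsub) (fun z hz => hG.differentiableAt (isOpen_ball.mem_nhds (hsub (ball_subset_closedBall hz.1))))
  rw [← hav, Real.circleAverage_def, Complex.smul_im]
  have := Complex.imCLM.intervalIntegral_comp_comm (μ := MeasureTheory.volume) (a := 0) (b := 2 * Real.pi) (hcont.intervalIntegrable _ _)
  simp only [Complex.imCLM_apply] at this
  rw [← this, hint, smul_zero]

/-- part a.  Removable singularity, Schwarz lemma (`Complex.dist_le_div_mul_dist_of_mapsTo_ball`), `res_real` for the square -/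
theorem branch_cx {g : ℂ → ℂ} {h : ℂ → ℝ} {M : ℝ} (hg : DifferentiableOn ℂ g (ball 0 1 \ {0}))
    (hM : ∀ z ∈ ball (0 : ℂ) 1 \ {0}, ‖g z‖ ≤ M) (hh : ∀ z ∈ ball (0 : ℂ) 1 \ {0}, HasFDerivAt h (nre (g z ^ 2 / z)) z) :
    ∃ A : ℂ, (A ^ 2).im = 0 ∧ ∀ z ∈ ball (0 : ℂ) 1 \ {0}, ‖g z - A‖ ≤ 2 * M * ‖z‖ := by
  have hd := Complex.differentiableOn_update_limUnder_of_bddAbove (ball_mem_nhds (0 : ℂ) one_pos) hg
    ⟨M, by rintro _ ⟨z, hz, rfl⟩; exact hM z hz⟩
  set G := Function.update g 0 (limUnder (𝓝[≠] (0 : ℂ)) g) with hGdef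
  have hG : ∀ z, z ≠ 0 → G z = g z := fun z hz => Function.update_of_ne hz _ _
  have h0 : ‖G 0‖ ≤ M := by
    have hc : ContinuousAt G 0 := hd.continuousOn.continuousAt (ball_mem_nhds _ one_pos)
    refine le_of_tendsto (x := 𝓝[≠] (0 : ℂ)) ((hc.norm.tendsto).mono_left nhdsWithin_le_nhds) ?_
    filter_upwards [nhdsWithin_le_nhds (ball_mem_nhds (0 : ℂ) one_pos), self_mem_nhdsWithin] with z hz hz0
    rw [hG z hz0]
    exact hM z ⟨hz, hz0⟩
  have hb : ∀ z ∈ ball (0 : ℂ) 1, ‖G z‖ ≤ M := by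
    intro z hz
    by_cases hz0 : z = 0
    · rw [hz0]; exact h0
    · rw [hG z hz0]; exact hM z ⟨hz, hz0⟩
  refine ⟨G 0, res_real (G := fun z => G z ^ 2) (h := h) (hd.pow 2) fun z hz => ?_, fun z hz => ?_⟩
  · simp only [hG z hz.2]
    exact hh z hz
  · rw [← hG z hz.2]
    exact cx_schwarz hd hb z hz.1

/-- part a.  A real quadratic form with zero discriminant has a null vector (`A = 0`, or `B / A` is real) -/
theorem null_vec {A B D ν : ℂ} (hν : ν ≠ 0) (hA : (A * ν).im = 0) (hB : (B * ν).im = 0) (h : B ^ 2 = A * D) :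
    ∃ c₁ c₂ : ℝ, |c₁| + |c₂| = 1 ∧ (c₁ : ℂ) ^ 2 * A + 2 * c₁ * c₂ * B + (c₂ : ℂ) ^ 2 * D = 0 := by
  by_cases hA0 : A = 0
  · refine ⟨1, 0, by simp, ?_⟩
    simp [hA0]
  · have h1 : A * ν = ((A * ν).re : ℂ) := Complex.ext (by simp) (by simpa using hA)
    have h2 : B * ν = ((B * ν).re : ℂ) := Complex.ext (by simp) (by simpa using hB)
    have h3 : ((A * ν).re : ℂ) ≠ 0 := by rw [← h1]; exact mul_ne_zero hA0 hν
    obtain ⟨t, ht⟩ : ∃ t : ℝ, B = t * A := by
      refine ⟨(B * ν).re / (A * ν).re, ?_⟩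
      apply mul_right_cancel₀ hν
      rw [mul_assoc, Complex.ofReal_div]
      conv_rhs => rw [h1]
      rw [Complex.ofReal_re, div_mul_cancel₀ _ h3]
      exact h2
    have hD : D = t ^ 2 * A := by
      apply mul_left_cancel₀ hA0
      rw [← h, ht]
      ring
    have hp : 0 < 1 + |t| := by positivity
    refine ⟨-t / (1 + |t|), 1 / (1 + |t|), ?_, ?_⟩
    · rw [abs_div, abs_div, abs_neg, abs_one, abs_of_pos hp]
      field_simp
      ring
    · rw [hD, ht]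
      push_cast
      ring

theorem isOpen_HD (ν : ℂ) (R : ℝ) : IsOpen (HD ν R) :=
  (isOpen_lt continuous_norm continuous_const).inter
    (isOpen_lt continuous_const (Complex.continuous_re.comp (continuous_id.mul continuous_const)))

theorem convex_HD (ν : ℂ) (R : ℝ) : Convex ℝ (HD ν R) := by
  have h1 : HD ν R = ball 0 R ∩ {z | 0 < (z * conj ν).re} := by
    ext z
    simp [HD]
  rw [h1]
  refine (convex_ball 0 R).inter (convex_halfSpace_gt ⟨fun x y => ?_, fun c x => ?_⟩ 0)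
  · rw [add_mul, Complex.add_re]
  · rw [smul_mul_assoc, Complex.smul_re]

theorem cx_rect {U : Set ℂ} {f : ℂ → ℂ} (hc : ContinuousOn f U) (hd : ∀ z ∈ U, z.im ≠ 0 → DifferentiableAt ℂ f z) (z w : ℂ)
    (hzw : Complex.Rectangle z w ⊆ U) (h0 : (0 : ℝ) ∉ Set.Ioo (min z.im w.im) (max z.im w.im)) :
    (∫ x : ℝ in z.re..w.re, f (x + z.im * Complex.I)) - (∫ x : ℝ in z.re..w.re, f (x + w.im * Complex.I)) +
      Complex.I • (∫ y : ℝ in z.im..w.im, f (w.re + y * Complex.I)) -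
      Complex.I • (∫ y : ℝ in z.im..w.im, f (z.re + y * Complex.I)) = 0 := by
  refine Complex.integral_boundary_rect_eq_zero_of_continuousOn_of_differentiableOn f z w (hc.mono hzw) fun u hu => ?_
  refine (hd u (hzw ⟨Set.Ioo_subset_Icc_self hu.1, Set.Ioo_subset_Icc_self hu.2⟩) fun h => h0 ?_).differentiableWithinAt
  rw [← h]
  exact hu.2

/-- part b: Morera across the real line.  Locally on a ball: `Complex.IsConservativeOn` (split a rectangle along `Im = 0`, each part by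
`Complex.integral_boundary_rect_eq_zero_of_continuousOn_of_differentiableOn`), `isConservativeOn_and_continuousOn_iff_isDifferentiableOn`. -/
theorem morera_line {U : Set ℂ} (hU : IsOpen U) {f : ℂ → ℂ} (hc : ContinuousOn f U)
    (hd : ∀ z ∈ U, z.im ≠ 0 → DifferentiableAt ℂ f z) : DifferentiableOn ℂ f U := by
  refine (Complex.isConservativeOn_and_continuousOn_iff_isDifferentiableOn hU).1 ⟨fun z w hzw => ?_, hc⟩
  rw [← add_eq_zero_iff_eq_neg, Complex.wedgeIntegral_add_wedgeIntegral_eq]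
  by_cases h0 : (0 : ℝ) ∈ Set.Ioo (min z.im w.im) (max z.im w.im)
  · have h0' : (0 : ℝ) ∈ Set.uIcc z.im w.im := Set.Ioo_subset_Icc_self h0
    have s1 : Set.uIcc z.im 0 ⊆ Set.uIcc z.im w.im := Set.uIcc_subset_uIcc Set.left_mem_uIcc h0'
    have s2 : Set.uIcc 0 w.im ⊆ Set.uIcc z.im w.im := Set.uIcc_subset_uIcc h0' Set.right_mem_uIcc
    have e1 := cx_rect hc hd z (w.re : ℂ) (fun u hu => hzw ⟨by simpa using hu.1, s1 (by simpa using hu.2)⟩) (by
      simp only [Complex.ofReal_im, Set.mem_Ioo, not_and, not_lt]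
      intro h
      rcases le_total z.im 0 with h1 | h1
      · rw [max_eq_right h1]
      · rw [min_eq_right h1] at h
        exact absurd h (lt_irrefl _))
    have e2 := cx_rect hc hd (z.re : ℂ) w (fun u hu => hzw ⟨by simpa using hu.1, s2 (by simpa using hu.2)⟩) (by
      simp only [Complex.ofReal_im, Set.mem_Ioo, not_and, not_lt]
      intro h
      rcases le_total w.im 0 with h1 | h1
      · rw [max_eq_left h1]
      · rw [min_eq_left h1] at h
        exact absurd h (lt_irrefl _))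
    simp only [Complex.ofReal_re, Complex.ofReal_im] at e1 e2
    have hi : ∀ x ∈ Set.uIcc z.re w.re, ∀ a b : ℝ, Set.uIcc a b ⊆ Set.uIcc z.im w.im →
        IntervalIntegrable (fun y : ℝ => f (x + y * Complex.I)) MeasureTheory.volume a b := by
      intro x hx a b hab
      refine ContinuousOn.intervalIntegrable (hc.comp (by fun_prop) fun y hy => hzw ⟨?_, ?_⟩)
      · simpa using hx
      · simpa using hab hy
    rw [← intervalIntegral.integral_add_adjacent_intervals (hi _ Set.right_mem_uIcc _ _ s1) (hi _ Set.right_mem_uIcc _ _ s2),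
      ← intervalIntegral.integral_add_adjacent_intervals (hi _ Set.left_mem_uIcc _ _ s1) (hi _ Set.left_mem_uIcc _ _ s2)]
    simp only [smul_eq_mul] at e1 e2 ⊢
    linear_combination e1 + e2
  · exact cx_rect hc hd z w hzw h0

theorem cxc_HD : HD Complex.I 1 = ball 0 1 ∩ {z | 0 < z.im} := by
  ext z
  simp [HD]

theorem cxc_ne {z : ℂ} (h1 : z ∈ ball (0 : ℂ) 1) (h2 : 0 ≤ z.im) : (𝓝[HD Complex.I 1] z).NeBot := by
  rw [← mem_closure_iff_nhdsWithin_neBot, cxc_HD]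
  exact isOpen_ball.inter_closure ⟨h1, by rwa [Complex.closure_setOfPred_lt_im]⟩

theorem cxc_conj {z : ℂ} (h : z ∈ ball (0 : ℂ) 1 \ {0}) : conj z ∈ ball (0 : ℂ) 1 \ {0} := by simpa using h

/-- the primitive and its boundary values -/
theorem cxc_prim {F : ℂ → ℂ} {h : ℂ → ℝ} {C₁ : ℝ} (hF : DifferentiableOn ℂ F (HD Complex.I 1))
    (hh : ∀ z ∈ HD Complex.I 1, HasFDerivAt h (nre (F z)) z)
    (h0 : ∀ ε > 0, ∃ C : ℝ, ∀ z ∈ HD Complex.I 1, ε ≤ ‖z‖ → |h z| ≤ C * z.im)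
    (hC : ∀ z ∈ HD Complex.I 1, ‖F z‖ * ‖z‖ ≤ C₁) :
    ∃ Φ : ℂ → ℂ, (∀ z ∈ HD Complex.I 1, HasDerivAt Φ (F z) z) ∧
      ContinuousOn Φ ((ball 0 1 \ {0}) ∩ {z | 0 ≤ z.im}) ∧
      ∀ z ∈ ball (0 : ℂ) 1 \ {0}, z.im = 0 → (Φ z).re = 0 := by
  have hU := isOpen_HD Complex.I 1
  obtain ⟨Φ₁, h1⟩ := (convex_HD Complex.I 1).exists_forall_hasDerivWithinAt hF
  replace h1 : ∀ z ∈ HD Complex.I 1, HasDerivAt Φ₁ (F z) z := fun z hz => (h1 z hz).hasDerivAt (hU.mem_nhds hz)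
  have h2 : ∀ z ∈ HD Complex.I 1, HasFDerivAt (fun z => (Φ₁ z).re + h z) (0 : ℂ →L[ℝ] ℝ) z := fun z hz => by
    refine ((Complex.reCLM.hasFDerivAt.comp z ((h1 z hz).hasFDerivAt.restrictScalars ℝ)).add (hh z hz)).congr_fderiv ?_
    ext1 y
    simp [mul_comm]
  obtain ⟨c, hc⟩ := hU.exists_is_const_of_fderiv_eq_zero (convex_HD Complex.I 1).isPreconnected
    (fun z hz => (h2 z hz).differentiableAt.differentiableWithinAt) fun z hz => (h2 z hz).fderiv
  have h3 : ∀ z ∈ HD Complex.I 1, HasDerivAt (fun z => Φ₁ z - c) (F z) z := fun z hz => (h1 z hz).sub_const _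
  have h4 : ∀ ξ : ℂ, ξ ≠ 0 → ∀ z ∈ ball ξ (‖ξ‖ / 2), ‖ξ‖ / 2 ≤ ‖z‖ := fun ξ _ z hz => by
    have := norm_sub_norm_le ξ z
    rw [mem_ball', dist_eq_norm] at hz
    linarith
  have h5 : ∀ ξ ∈ (ball (0 : ℂ) 1 \ {0}) ∩ {z | 0 ≤ z.im},
      ∃ y, Tendsto (fun z => Φ₁ z - c) (𝓝[HD Complex.I 1] ξ) (𝓝 y) := fun ξ hξ => by
    have hp : 0 < ‖ξ‖ / 2 := half_pos (norm_pos_iff.2 hξ.1.2)
    obtain ⟨g, hg, e⟩ := (((convex_HD Complex.I 1).inter (convex_ball ξ (‖ξ‖ / 2))).lipschitzOnWith_of_nnnorm_hasDerivWithin_le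
      (C := (C₁ / (‖ξ‖ / 2)).toNNReal) (fun z hz => (h3 z hz.1).hasDerivWithinAt) fun z hz => by
        rw [← NNReal.coe_le_coe, coe_nnnorm]
        refine le_trans ?_ (Real.le_coe_toNNReal _)
        rw [le_div_iff₀ hp]
        exact (mul_le_mul_of_nonneg_left (h4 ξ hξ.1.2 z hz.2) (norm_nonneg _)).trans (hC z hz.1)).extend_finite_dimension
    exact ⟨g ξ, (hg.continuous.continuousAt.tendsto.mono_left nhdsWithin_le_nhds).congr'
      (e.eventuallyEq_of_mem (inter_mem_nhdsWithin _ (ball_mem_nhds ξ hp))).symm⟩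
  refine ⟨extendFrom (HD Complex.I 1) fun z => Φ₁ z - c, fun z hz => (h3 z hz).congr_of_eventuallyEq ?_,
    continuousOn_extendFrom (fun z hz => mem_closure_iff_nhdsWithin_neBot.2 (cxc_ne hz.1.1 hz.2)) h5, fun ξ hξ hi => ?_⟩
  · filter_upwards [hU.mem_nhds hz] with y hy
    exact extendFrom_extends (fun y hy => (h3 y hy).continuousAt.continuousWithinAt) y hy
  · have := cxc_ne hξ.1 hi.ge
    have hp : 0 < ‖ξ‖ / 2 := half_pos (norm_pos_iff.2 hξ.2)
    obtain ⟨C, hC⟩ := h0 _ hp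
    refine tendsto_nhds_unique ((Complex.continuous_re.tendsto _).comp (tendsto_extendFrom (h5 ξ ⟨hξ, hi.ge⟩)))
      (squeeze_zero_norm' (a := fun z => C * z.im) ?_ ?_)
    · filter_upwards [inter_mem_nhdsWithin _ (ball_mem_nhds ξ hp)] with z hz
      have e : (Φ₁ z - c).re = -h z := by
        rw [Complex.sub_re, Complex.ofReal_re, ← hc z hz.1]
        ring
      rw [Function.comp_apply, e, norm_neg]
      exact hC z hz.1 (h4 ξ hξ.2 z hz.2)
    · have := ((Complex.continuous_im.tendsto ξ).const_mul C).mono_left (nhdsWithin_le_nhds (s := HD Complex.I 1))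
      rwa [hi, mul_zero] at this

/-- the reflected primitive -/
theorem cxc_refl {F Φ : ℂ → ℂ} (h1 : ∀ z ∈ HD Complex.I 1, HasDerivAt Φ (F z) z)
    (h2 : ContinuousOn Φ ((ball 0 1 \ {0}) ∩ {z | 0 ≤ z.im})) (h3 : ∀ z ∈ ball (0 : ℂ) 1 \ {0}, z.im = 0 → (Φ z).re = 0) :
    ∃ Ψ : ℂ → ℂ, DifferentiableOn ℂ Ψ (ball 0 1 \ {0}) ∧ Set.EqOn (deriv Ψ) F (HD Complex.I 1) ∧
      ∀ z ∈ ball (0 : ℂ) 1 \ {0}, deriv Ψ (conj z) = -conj (deriv Ψ z) := by
  have hP : IsOpen (ball (0 : ℂ) 1 \ {0}) := isOpen_ball.sdiff isClosed_singleton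
  obtain ⟨Ψ, hΨ⟩ : ∃ Ψ : ℂ → ℂ, Ψ = fun z => if 0 ≤ z.im then Φ z else -conj (Φ (conj z)) := ⟨_, rfl⟩
  have h4 : ∀ z ∈ ball (0 : ℂ) 1 \ {0}, z.im = 0 → Φ z = -conj (Φ (conj z)) := fun z hz hi => by
    rw [Complex.conj_eq_iff_im.2 hi]
    exact Complex.ext (by simp [h3 z hz hi]) (by simp)
  have h5 : ∀ z ∈ ball (0 : ℂ) 1 \ {0}, Ψ z = -conj (Ψ (conj z)) := fun z hz => by
    rcases lt_trichotomy z.im 0 with hi | hi | hi
    · simp [hΨ, hi.le, hi.not_ge]
    · simpa [hΨ, hi] using h4 z hz hi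
    · simp [hΨ, hi.le, hi.not_ge]
  have h6 : ∀ z ∈ ball (0 : ℂ) 1 \ {0}, ∀ d, HasDerivAt Ψ d z → HasDerivAt Ψ (-conj d) (conj z) := fun z hz d hd =>
    hd.conj_conj.neg.congr_of_eventuallyEq (by
      filter_upwards [hP.mem_nhds (cxc_conj hz)] with y hy
      exact h5 y hy)
  have h7 : ∀ z ∈ HD Complex.I 1, HasDerivAt Ψ (F z) z := fun z hz => (h1 z hz).congr_of_eventuallyEq (by
    filter_upwards [(isOpen_HD Complex.I 1).mem_nhds hz] with y hy
    rw [cxc_HD] at hy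
    rw [hΨ]
    exact if_pos hy.2.le)
  have h8 : DifferentiableOn ℂ Ψ (ball 0 1 \ {0}) := by
    refine morera_line hP (hΨ ▸ ContinuousOn.if (fun z hz => h4 z hz.1 ?_) (h2.mono fun z hz => ⟨hz.1, ?_⟩) ?_)
      fun z hz hi => ?_
    · simpa using hz.2
    · exact (isClosed_le continuous_const Complex.continuous_im).closure_subset hz.2
    · refine (Complex.continuous_conj.comp_continuousOn (h2.comp Complex.continuous_conj.continuousOn
        fun z hz => ⟨cxc_conj hz.1, ?_⟩)).neg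
      simpa using hz.2
    · rcases hi.lt_or_gt with hi | hi
      · have := h6 _ (cxc_conj hz) _ (h7 _ (cxc_HD ▸ ⟨(cxc_conj hz).1, by simpa using hi⟩))
        rw [Complex.conj_conj] at this
        exact this.differentiableAt
      · exact (h7 z (cxc_HD ▸ ⟨hz.1, hi⟩)).differentiableAt
  exact ⟨Ψ, h8, fun z hz => (h7 z hz).deriv, fun z hz =>
    (h6 z hz _ (h8.differentiableAt (hP.mem_nhds hz)).hasDerivAt).deriv⟩

/-- part c: reflection for the upper half disc (`(z * conj I).re = z.im`).  `Φ` = primitive of `F` on the convex `HD`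
(`Convex.exists_forall_hasDerivWithinAt`), normalised by `Re Φ = -h`.  Near a real `ξ ≠ 0`, `F` is bounded, so `Φ` is Lipschitz on
`HD ∩ ball ξ r` and has a limit `Φ₀ ξ` at the real points, `Re Φ₀ = 0`.  Glue `Ψ = Φ, Φ₀, -conj (Φ (conj z))`
(e.g. `Ψ₊ = extendFrom HD Φ`); `morera_line` on the punctured disc; `G₀ = deriv Ψ` satisfies `G₀ (conj z) = -conj (G₀ z)`,
`z * G₀ z` is bounded, hence extends; its value at `0` is `(2πi)⁻¹ ∮ deriv Ψ = 0`, so `G = dslope (z G₀) 0`. -/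
theorem reflect_upper {F : ℂ → ℂ} {h : ℂ → ℝ} {C₁ : ℝ} (hF : DifferentiableOn ℂ F (HD Complex.I 1))
    (hh : ∀ z ∈ HD Complex.I 1, HasFDerivAt h (nre (F z)) z)
    (h0 : ∀ ε > 0, ∃ C : ℝ, ∀ z ∈ HD Complex.I 1, ε ≤ ‖z‖ → |h z| ≤ C * z.im)
    (hC : ∀ z ∈ HD Complex.I 1, ‖F z‖ * ‖z‖ ≤ C₁) :
    ∃ G : ℂ → ℂ, DifferentiableOn ℂ G (ball 0 1) ∧ Set.EqOn G F (HD Complex.I 1) ∧
      ∀ z ∈ ball (0 : ℂ) 1, G (conj z) = -conj (G z) := by
  have hP : IsOpen (ball (0 : ℂ) 1 \ {0}) := isOpen_ball.sdiff isClosed_singleton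
  have hb : ball (0 : ℂ) 1 ∈ 𝓝 0 := ball_mem_nhds 0 one_pos
  obtain ⟨Φ, h1, h2, h3⟩ := cxc_prim hF hh h0 hC
  obtain ⟨Ψ, h1, h2, h3⟩ := cxc_refl h1 h2 h3
  have h4 : DifferentiableOn ℂ (fun z => z * deriv Ψ z) (ball 0 1 \ {0}) := differentiableOn_id.mul (h1.deriv hP)
  have h5 : ∀ z ∈ ball (0 : ℂ) 1 \ {0}, 0 ≤ z.im → ‖z * deriv Ψ z‖ ≤ C₁ := fun z hz hi => by
    have := cxc_ne hz.1 hi
    refine le_of_tendsto (f := fun z => ‖z * deriv Ψ z‖) (x := 𝓝[HD Complex.I 1] z)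
      ((h4.continuousOn.continuousAt (hP.mem_nhds hz)).norm.tendsto.mono_left nhdsWithin_le_nhds) ?_
    filter_upwards [self_mem_nhdsWithin] with y hy
    rw [h2 hy, norm_mul, mul_comm]
    exact hC y hy
  obtain ⟨H, h6, h7⟩ : ∃ H : ℂ → ℂ, DifferentiableOn ℂ H (ball 0 1) ∧ ∀ z, z ≠ 0 → H z = z * deriv Ψ z := by
    refine ⟨_, Complex.differentiableOn_update_limUnder_of_bddAbove hb h4 ⟨C₁, ?_⟩,
      fun z hz => Function.update_of_ne hz _ _⟩
    rintro _ ⟨z, hz, rfl⟩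
    rcases le_total 0 z.im with hi | hi
    · exact h5 z hz hi
    · simpa [h3 z hz] using h5 _ (cxc_conj hz) (by simpa using hi)
  have h8 : H 0 = 0 := by
    have hs : ∀ z ∈ sphere (0 : ℂ) (1 / 2), z ∈ ball (0 : ℂ) 1 \ {0} := fun z hz =>
      ⟨sphere_subset_ball (by norm_num) hz, ne_of_mem_sphere hz (by norm_num)⟩
    have e := (h6.mono (closedBall_subset_ball (by norm_num : (1 / 2 : ℝ) < 1))).circleIntegral_sub_inv_smul
      (mem_ball_self (by norm_num))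
    rw [circleIntegral.integral_eq_zero_of_hasDerivWithinAt (f := Ψ) (by norm_num) fun z hz => by
      rw [h7 z (hs z hz).2, sub_zero, smul_eq_mul, inv_mul_cancel_left₀ (hs z hz).2]
      exact (h1.differentiableAt (hP.mem_nhds (hs z hz))).hasDerivAt.hasDerivWithinAt] at e
    exact (smul_eq_zero.1 e.symm).resolve_left Complex.two_pi_I_ne_zero
  have h9 : ∀ z, z ≠ 0 → dslope H 0 z = deriv Ψ z := fun z hz => by
    rw [dslope_of_ne _ hz, slope_def_module, h8, h7 z hz, sub_zero, sub_zero, smul_eq_mul, inv_mul_cancel_left₀ hz]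
  have hG := (Complex.differentiableOn_dslope hb).2 h6
  have hS : ∀ z ∈ ball (0 : ℂ) 1 \ {0}, dslope H 0 (conj z) = -conj (dslope H 0 z) := fun z hz => by
    rw [h9 _ (cxc_conj hz).2, h9 _ hz.2, h3 z hz]
  refine ⟨dslope H 0, hG, fun z hz => (h9 z ?_).trans (h2 hz), fun z hz => ?_⟩
  · rintro rfl
    simp [HD] at hz
  · by_cases h : z = 0
    · subst h
      have hc := hG.continuousOn.continuousAt hb
      refine tendsto_nhds_unique_of_eventuallyEq (l := 𝓝[≠] (0 : ℂ))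
        ((ContinuousAt.comp (f := conj) (by rwa [map_zero]) Complex.continuous_conj.continuousAt).tendsto.mono_left
          nhdsWithin_le_nhds)
        ((Complex.continuous_conj.continuousAt.comp hc).neg.tendsto.mono_left nhdsWithin_le_nhds) ?_
      filter_upwards [inter_mem_nhdsWithin _ hb] with y hy
      exact hS y ⟨hy.2, hy.1⟩
    · exact hS z ⟨hz, h⟩

theorem cx_mem_HD_I {z : ℂ} {R : ℝ} : z ∈ HD Complex.I R ↔ ‖z‖ < R ∧ 0 < z.im := by
  simp [HD]

theorem cx_refl_bd {G : ℂ → ℂ} {M : ℝ} (hG : DifferentiableOn ℂ G (ball 0 1))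
    (hs : ∀ z ∈ ball (0 : ℂ) 1, G (conj z) = -conj (G z)) (hM : ∀ z ∈ HD Complex.I 1, 1 / 2 ≤ ‖z‖ → ‖G z‖ ≤ M) :
    ∀ z ∈ ball (0 : ℂ) 1, ‖G z‖ ≤ M := by
  have h1 : ∀ z ∈ ball (0 : ℂ) 1, 1 / 2 ≤ ‖z‖ → ‖G z‖ ≤ M := by
    intro z hz hz2
    have hz1 : ‖z‖ < 1 := by simpa using hz
    rcases lt_trichotomy 0 z.im with h | h | h
    · exact hM z (cx_mem_HD_I.2 ⟨hz1, h⟩) hz2
    · have hc : ContinuousAt (fun t : ℝ => G (z + t * Complex.I)) 0 := by
        refine ContinuousAt.comp (g := G) (f := fun t : ℝ => z + t * Complex.I) ?_ (by fun_prop)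
        simpa using hG.continuousOn.continuousAt (isOpen_ball.mem_nhds hz)
      have ht : Tendsto (fun t : ℝ => ‖G (z + t * Complex.I)‖) (𝓝[>] 0) (𝓝 ‖G z‖) := by
        simpa using hc.norm.tendsto.mono_left nhdsWithin_le_nhds
      refine le_of_tendsto ht ?_
      have hn : ∀ᶠ t : ℝ in 𝓝 0, ‖z + t * Complex.I‖ < 1 := by
        have hc2 : ContinuousAt (fun t : ℝ => ‖z + t * Complex.I‖) 0 := by fun_prop
        exact hc2.eventually_lt continuousAt_const (by simpa using hz1)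
      filter_upwards [nhdsWithin_le_nhds hn, self_mem_nhdsWithin] with t ht1 ht0
      refine hM _ (cx_mem_HD_I.2 ⟨ht1, by simpa [← h] using ht0⟩) (hz2.trans ?_)
      have h2 : ‖z‖ = |z.re| := by
        rw [← Complex.abs_re_eq_norm.2 h.symm]
      rw [h2]
      simpa using Complex.abs_re_le_norm (z + t * Complex.I)
    · have h2 := hM (conj z) (cx_mem_HD_I.2 ⟨by simpa using hz1, by simpa using h⟩) (by simpa using hz2)
      rwa [hs z hz, norm_neg, Complex.norm_conj] at h2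
  intro z hz
  by_cases hz2 : 1 / 2 ≤ ‖z‖
  · exact h1 z hz hz2
  have hcl : closure (ball (0 : ℂ) (1 / 2)) ⊆ ball 0 1 := by
    rw [closure_ball _ (by norm_num)]
    exact closedBall_subset_ball (by norm_num)
  refine Complex.norm_le_of_forall_mem_frontier_norm_le (U := ball (0 : ℂ) (1 / 2)) isBounded_ball (hG.mono hcl).diffContOnCl
    (fun w hw => h1 w (hcl (frontier_subset_closure hw)) ?_) (subset_closure (by simpa using hz2))
  rw [frontier_ball _ (by norm_num), mem_sphere_zero_iff_norm] at hw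
  exact hw.ge

/-- part d.  Rotate: `z = μ * w`, `μ = -I * ν`, `F' w = μ * F (μ * w)`, `h' w = h (μ * w)`; `reflect_upper`; maximum principle on circles
of radius in `[1/2, 1)` (the two real points by continuity), Schwarz lemma; `A = G 0 / μ`. -/
theorem reflect_bd {ν : ℂ} (hν : ‖ν‖ = 1) {F : ℂ → ℂ} {h : ℂ → ℝ} {C₁ M : ℝ} (hF : DifferentiableOn ℂ F (HD ν 1))
    (hh : ∀ z ∈ HD ν 1, HasFDerivAt h (nre (F z)) z)
    (h0 : ∀ ε > 0, ∃ C : ℝ, ∀ z ∈ HD ν 1, ε ≤ ‖z‖ → |h z| ≤ C * (z * conj ν).re)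
    (hC : ∀ z ∈ HD ν 1, ‖F z‖ * ‖z‖ ≤ C₁) (hM : ∀ z ∈ HD ν 1, 1 / 2 ≤ ‖z‖ → ‖F z‖ ≤ M) :
    ∃ A : ℂ, (A * ν).im = 0 ∧ ∀ z ∈ HD ν 1, ‖F z‖ ≤ M ∧ ‖F z - A‖ ≤ 2 * M * ‖z‖ := by
  have hνν : ν * conj ν = 1 := by
    rw [Complex.mul_conj, Complex.normSq_eq_norm_sq, hν]
    simp
  obtain ⟨μ, hμ⟩ : ∃ μ : ℂ, μ = -Complex.I * ν := ⟨_, rfl⟩
  have hμ1 : ‖μ‖ = 1 := by simp [hμ, hν]
  have hμ0 : μ ≠ 0 := by
    rintro rfl
    simp at hμ1
  have hn : ∀ w : ℂ, ‖μ * w‖ = ‖w‖ := fun w => by rw [norm_mul, hμ1, one_mul]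
  have hre : ∀ w : ℂ, (μ * w * conj ν).re = w.im := fun w => by
    have : μ * w * conj ν = -Complex.I * w := by
      rw [hμ]
      linear_combination (-Complex.I * w) * hνν
    rw [this]
    simp
  have hmem : ∀ w : ℂ, μ * w ∈ HD ν 1 ↔ w ∈ HD Complex.I 1 := fun w => by
    rw [cx_mem_HD_I, ← hre w, ← hn w]
    rfl
  obtain ⟨G, hG, hGF, hs⟩ := reflect_upper (F := fun w => μ * F (μ * w)) (h := fun w => h (μ * w)) (C₁ := C₁)
    ((hF.comp (by fun_prop) fun w hw => (hmem w).2 hw).const_mul μ)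
    (fun w hw => by
      have h1 := (hh _ ((hmem w).2 hw)).comp w
        ((μ • ContinuousLinearMap.id ℝ ℂ : ℂ →L[ℝ] ℂ).hasFDerivAt (x := w))
      refine h1.congr_fderiv ?_
      ext1 v
      rw [ContinuousLinearMap.comp_apply, cx_nre_apply, cx_nre_apply]
      exact congrArg (fun x : ℂ => -x.re) (show F (μ * w) * (μ * v) = μ * F (μ * w) * v by ring))
    (fun ε hε => by
      obtain ⟨C, hC⟩ := h0 ε hε
      exact ⟨C, fun w hw hw2 => by simpa only [hre] using hC _ ((hmem w).2 hw) (by rwa [hn])⟩)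
    (fun w hw => by simpa only [hn] using hC _ ((hmem w).2 hw))
  have hb := cx_refl_bd (M := M) hG hs fun w hw hw2 => by
    rw [hGF hw, hn]
    exact hM _ ((hmem w).2 hw) (by rwa [hn])
  have hG0 : (G 0).re = 0 := by
    have := congrArg Complex.re (hs 0 (mem_ball_self one_pos))
    simp only [map_zero, Complex.neg_re, Complex.conj_re] at this
    linarith
  refine ⟨G 0 / μ, ?_, fun z hz => ?_⟩
  · have : G 0 / μ * ν = G 0 * Complex.I := by
      rw [div_mul_eq_mul_div, div_eq_iff hμ0, hμ]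
      linear_combination (G 0 * ν) * Complex.I_mul_I
    rw [this]
    simpa using hG0
  · obtain ⟨w, rfl⟩ : ∃ w, z = μ * w := ⟨z / μ, by field_simp⟩
    have hw := (hmem w).1 hz
    have hw1 : w ∈ ball (0 : ℂ) 1 := by simpa using hw.1
    refine ⟨?_, ?_⟩
    · have := hb w hw1
      rwa [hGF hw, hn] at this
    · have := cx_schwarz hG hb w hw1
      rw [hGF hw] at this
      rw [hn, ← hn (F (μ * w) - G 0 / μ), mul_sub, mul_div_cancel₀ _ hμ0]
      exact this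

/-- part d.  Mean value inequality on the segment from `z` to `z - τ ν`, `τ ↑ (z * conj ν).re`; if the foot point is `0` move `z`
tangentially first (continuity of `h`). -/
theorem h_bound {ν : ℂ} (hν : ‖ν‖ = 1) {F : ℂ → ℂ} {h : ℂ → ℝ} {r M : ℝ} (hr : r ≤ 1)
    (hh : ∀ z ∈ HD ν 1, HasFDerivAt h (nre (F z)) z)
    (h0 : ∀ ε > 0, ∃ C : ℝ, ∀ z ∈ HD ν 1, ε ≤ ‖z‖ → |h z| ≤ C * (z * conj ν).re)
    (hM : ∀ z ∈ HD ν r, ‖F z‖ ≤ M) : ∀ z ∈ HD ν r, |h z| ≤ M * (z * conj ν).re := by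
  have hνν : ν * conj ν = 1 := by
    rw [Complex.mul_conj, Complex.normSq_eq_norm_sq, hν]
    simp
  have hsub : HD ν r ⊆ HD ν 1 := fun z hz => ⟨hz.1.trans_le hr, hz.2⟩
  have hn : ∀ w : ℂ, ‖ν * w‖ = ‖w‖ := fun w => by rw [norm_mul, hν, one_mul]
  have hre : ∀ w : ℂ, ν * w * conj ν = w := fun w => by linear_combination w * hνν
  intro z hz
  obtain ⟨w, rfl⟩ : ∃ w, z = ν * w := ⟨z * conj ν, by linear_combination (-z) * hνν⟩
  have hw1 : ‖w‖ < r := by simpa only [hn] using hz.1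
  have hw2 : 0 < w.re := by simpa only [hre] using hz.2
  rw [hre]
  have h1 : ∀ u : ℂ, ‖u‖ < r → 0 < u.re → |h (ν * w)| ≤ |h (ν * u)| + M * ‖w - u‖ := by
    intro u hu1 hu2
    have hu : ν * u ∈ HD ν r := ⟨by rwa [hn], by rwa [hre]⟩
    have := (convex_HD ν r).norm_image_sub_le_of_norm_hasFDerivWithin_le (C := M)
      (fun y hy => (hh y (hsub hy)).hasFDerivWithinAt) (fun y hy => (cx_norm_nre _).trans (hM y hy)) hu hz
    rw [← mul_sub, hn, Real.norm_eq_abs] at this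
    have h2 := abs_sub_abs_le_abs_sub (h (ν * w)) (h (ν * u))
    linarith
  have h2 : ∀ s : ℝ, s ≠ 0 → |s| < r → |h (ν * w)| ≤ M * ‖w - s * Complex.I‖ := by
    intro s hs0 hs
    obtain ⟨C, hC⟩ := h0 |s| (abs_pos.2 hs0)
    have hc : ContinuousAt (fun δ : ℝ => C * δ + M * ‖w - (δ + s * Complex.I)‖) 0 := by fun_prop
    have ht : Tendsto (fun δ : ℝ => C * δ + M * ‖w - (δ + s * Complex.I)‖) (𝓝[>] 0) (𝓝 (M * ‖w - s * Complex.I‖)) := by
      simpa using hc.tendsto.mono_left nhdsWithin_le_nhds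
    refine ge_of_tendsto ht ?_
    have hn' : ∀ᶠ δ : ℝ in 𝓝 0, ‖(δ : ℂ) + s * Complex.I‖ < r := by
      have hc2 : ContinuousAt (fun δ : ℝ => ‖(δ : ℂ) + s * Complex.I‖) 0 := by fun_prop
      exact hc2.eventually_lt continuousAt_const (by simpa using hs)
    filter_upwards [nhdsWithin_le_nhds hn', self_mem_nhdsWithin] with δ hδ1 hδ0
    have hδ : 0 < ((δ : ℂ) + s * Complex.I).re := by simpa using hδ0
    have h3 := h1 _ hδ1 hδ
    have h4 := hC (ν * (δ + s * Complex.I)) (hsub ⟨by rwa [hn], by rwa [hre]⟩) (by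
      rw [hn]
      simpa using Complex.abs_im_le_norm ((δ : ℂ) + s * Complex.I))
    rw [hre] at h4
    have h5 : ((δ : ℂ) + s * Complex.I).re = δ := by simp
    rw [h5] at h4
    linarith
  have hc : ContinuousAt (fun s : ℝ => M * ‖w - s * Complex.I‖) w.im := by fun_prop
  have h3 : ‖w - w.im * Complex.I‖ = w.re := by
    have : w - w.im * Complex.I = w.re := by
      rw [sub_eq_iff_eq_add, Complex.re_add_im]
    rw [this, Complex.norm_real, Real.norm_eq_abs, abs_of_pos hw2]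
  have : (𝓝[{0}ᶜ] w.im).NeBot := mem_closure_iff_nhdsWithin_neBot.1 (dense_compl_singleton (0 : ℝ) w.im)
  have ht : Tendsto (fun s : ℝ => M * ‖w - s * Complex.I‖) (𝓝[{0}ᶜ] w.im) (𝓝 (M * w.re)) := by
    simpa only [h3] using hc.tendsto.mono_left nhdsWithin_le_nhds
  refine ge_of_tendsto ht ?_
  have hn' : ∀ᶠ s : ℝ in 𝓝 w.im, |s| < r :=
    continuous_abs.continuousAt.eventually_lt continuousAt_const ((Complex.abs_im_le_norm w).trans_lt hw1)
  filter_upwards [nhdsWithin_le_nhds hn', self_mem_nhdsWithin] with s hs hs0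
  exact h2 s hs0 hs

end Crest.Agent.R165
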