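import Crest.Agent.R165.BC.CLim

/-! # R165/BC/Flat (owner helper57).  The boundary is flat at scales much smaller than `ρ`. -/

set_option autoImplicit false
noncomputable section
open Classical Filter Topology Metric ComplexConjugate

namespace Crest.Agent.R165

theorem flat_ball {c : ℂ} {ρ δ l : ℝ} (h1 : ρ - 3 ≤ ‖c‖) (h2 : ‖c‖ ≤ ρ + 5) (h3 : 5 ≤ ρ) (h4 : 20 ≤ δ * l)
    (h5 : 225 * l ≤ (ρ - 3) * δ) (hδ : 0 < δ) (hl : 0 ≤ l) :
    ∃ ν : ℂ, ‖ν‖ = 1 ∧ ∀ w : ℂ, ‖w‖ ≤ 15 * l → δ * l ≤ (w * conj ν).re → dist w c ≤ ρ := by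
  have hN : 0 < ‖c‖ := by linarith
  refine ⟨c / ‖c‖, by rw [norm_div, Complex.norm_real, norm_norm, div_self hN.ne'], fun w hw hh => ?_⟩
  have e1 : (w * conj c).re = ‖c‖ * (w * conj (c / ‖c‖)).re := by
    rw [map_div₀, Complex.conj_ofReal, ← mul_div_assoc, Complex.div_ofReal_re, mul_div_cancel₀ _ hN.ne']
  have e2 : ‖w - c‖ ^ 2 = ‖w‖ ^ 2 + ‖c‖ ^ 2 - 2 * (w * conj c).re := by
    rw [Complex.sq_norm, Complex.sq_norm, Complex.sq_norm, Complex.normSq_sub]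
  rw [dist_eq_norm]
  refine (pow_le_pow_iff_left₀ (norm_nonneg _) (by linarith) two_ne_zero).1 ?_
  have a1 : ‖w‖ ^ 2 ≤ (15 * l) ^ 2 := pow_le_pow_left₀ (norm_nonneg _) hw 2
  have a2 : ‖c‖ * (δ * l) ≤ ‖c‖ * (w * conj (c / ‖c‖)).re := mul_le_mul_of_nonneg_left hh hN.le
  have a3 : ‖c‖ * 20 ≤ ‖c‖ * (δ * l) := mul_le_mul_of_nonneg_left h4 hN.le
  have a4 : 225 * l * l ≤ ‖c‖ * δ * l :=
    mul_le_mul_of_nonneg_right (h5.trans (mul_le_mul_of_nonneg_right h1 hδ.le)) hl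
  have a5 : (‖c‖ - ρ) * (‖c‖ + ρ) ≤ 5 * (‖c‖ + ρ) := mul_le_mul_of_nonneg_right (by linarith) (by linarith)
  rw [e2, e1]
  nlinarith

theorem flat_norm (p : Site) {r : ℕ} (h : supd p 0 ≤ r) : ‖toC p‖ ≤ 3 / 2 * r := by
  have h1 := dist_le_supd p 0
  have h2 : (supd p 0 : ℝ) ≤ r := by exact_mod_cast h
  rw [show toC 0 = 0 from by simp [toC, Complex.ext_iff], sub_zero] at h1
  linarith

theorem flat_re (w ν : ℂ) : |(w * conj ν).re| ≤ ‖w‖ * ‖ν‖ := by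
  rw [← Complex.norm_conj ν, ← norm_mul]
  exact Complex.abs_re_le_norm _

theorem flat_half {ν μ : ℂ} (hν : ‖ν‖ = 1) (hμ : ‖μ‖ = 1) : ((ν + μ) * conj ν).re = ‖ν + μ‖ ^ 2 / 2 := by
  have h1 : Complex.normSq ν = 1 := by rw [← Complex.sq_norm, hν, one_pow]
  have h2 : Complex.normSq μ = 1 := by rw [← Complex.sq_norm, hμ, one_pow]
  rw [Complex.sq_norm]
  simp only [Complex.normSq_apply, Complex.mul_re, Complex.add_re, Complex.add_im, Complex.conj_re,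
    Complex.conj_im] at h1 h2 ⊢
  linear_combination h1 / 2 - h2 / 2

/-- part a.  `Reg.int` gives `c'`, `ν = c' / ‖c'‖`; `ρ - 3 ≤ ‖c'‖ ≤ ρ + 5` because a frozen edge is within `2` of `0`.  If
`ε' l ≤ Re (w conj ν)`, `‖w‖ ≤ 15 l` then `‖w - c'‖² = ‖w‖² - 2 ‖c'‖ Re (w conj ν) + ‖c'‖² ≤ ρ²`.  Same for `Reg.ext` with `μ = c / ‖c‖`.  A site
near `l (ν + μ) / ‖ν + μ‖` (`exists_site`) would be in both balls unless `‖ν + μ‖ ≤ 2 ε' + 2 / l`; take `ε' = ε / 100`. -/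
theorem flat (ε : ℝ) (hε : 0 < ε) : ∃ K : ℝ, ∀ (E : Set Edge) (ρ : ℝ) (l : ℕ), Reg E ρ → BdryB E 0 → K ≤ l → K * l ≤ ρ →
    ∃ ν : ℂ, ‖ν‖ = 1 ∧ ∀ e : Edge, e.1 ∈ box 0 (10 * l) →
      (ε * l ≤ (toC e.1 * conj ν).re → e ∈ E) ∧ ((toC e.1 * conj ν).re ≤ -(ε * l) → e ∉ E) := by
  obtain ⟨δ, rfl, hδ⟩ : ∃ δ : ℝ, ε = 100 * δ ∧ 0 < δ := ⟨ε / 100, by ring, by positivity⟩
  refine ⟨225 / δ + 5, fun E ρ l hR hb hl hρ => ?_⟩
  have k0 : 0 < 225 / δ := by positivity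
  have k1 : 225 / δ * δ = 225 := div_mul_cancel₀ _ hδ.ne'
  have l1 : (5 : ℝ) ≤ l := by linarith
  have l2 : 20 ≤ δ * l := by nlinarith
  have l3 : 225 / δ * l + 5 * l ≤ ρ := by linarith
  have l4 : 0 ≤ 225 / δ * l := by positivity
  have l5 : 225 * (l : ℝ) ≤ (ρ - 3) * δ := by
    have : 225 / δ * l * δ ≤ (ρ - 3) * δ := mul_le_mul_of_nonneg_right (by linarith) hδ.le
    rwa [mul_right_comm, k1] at this
  have z0 : toC 0 = 0 := by simp [toC, Complex.ext_iff]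
  have low : ∀ (c : ℂ) (p : Site), supd p 0 ≤ 2 → ¬ dist (toC p) c ≤ ρ → ρ - 3 ≤ ‖c‖ := fun c p h1 h2 => by
    have a1 := flat_norm p h1
    have a2 := norm_sub_le (toC p) c
    rw [dist_eq_norm, not_le] at h2
    push_cast at a1
    linarith
  obtain ⟨c', a1, a2⟩ := hR.int 0 hb
  obtain ⟨c, b1, b2⟩ := hR.ext 0 hb
  rw [z0, dist_zero_left] at a1 b1
  obtain ⟨⟨⟨⟨x, y⟩, j⟩, e1, e2⟩, e', e3, e4⟩ := hb
  have e5 : supd (x, y) 0 ≤ 2 := by
    fin_cases j <;> simp [edgeB0, edgeB1, supd, Prod.ext_iff] at e2 ⊢ <;> omega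
  obtain ⟨ν, n1, n2⟩ := flat_ball (low c' _ e5 fun h => e1 (a2 _ h)) a1 (by linarith) l2 l5 hδ (by linarith)
  obtain ⟨μ, m1, m2⟩ := flat_ball (low c _ e4 fun h => b2 _ h e3) b1 (by linarith) l2 l5 hδ (by linarith)
  have hs : ‖ν + μ‖ ≤ 3 * δ := by
    by_contra hs
    rw [not_le] at hs
    have s0 : 0 < ‖ν + μ‖ := by linarith
    obtain ⟨p, hp⟩ := exists_site (((l / ‖ν + μ‖ : ℝ) : ℂ) * (ν + μ))
    have p1 : ‖((l / ‖ν + μ‖ : ℝ) : ℂ) * (ν + μ)‖ = l := by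
      rw [norm_mul, Complex.norm_real, Real.norm_of_nonneg (by positivity), div_mul_cancel₀ _ s0.ne']
    have p2 : ‖toC p‖ ≤ 15 * l := by
      have := norm_add_le (toC p - ((l / ‖ν + μ‖ : ℝ) : ℂ) * (ν + μ)) (((l / ‖ν + μ‖ : ℝ) : ℂ) * (ν + μ))
      rw [sub_add_cancel, p1] at this
      linarith
    have p3 : ∀ κ : ℂ, ‖κ‖ = 1 → ((ν + μ) * conj κ).re = ‖ν + μ‖ ^ 2 / 2 → δ * l ≤ (toC p * conj κ).re := by
      intro κ h1 h2
      have q1 := flat_re (toC p - ((l / ‖ν + μ‖ : ℝ) : ℂ) * (ν + μ)) κ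
      rw [h1, mul_one, sub_mul, Complex.sub_re, mul_assoc, Complex.re_ofReal_mul, h2] at q1
      have q2 : l / ‖ν + μ‖ * (‖ν + μ‖ ^ 2 / 2) = l * ‖ν + μ‖ / 2 := by field_simp
      have q3 : (l : ℝ) * (3 * δ) ≤ l * ‖ν + μ‖ := mul_le_mul_of_nonneg_left hs.le (by linarith)
      have q4 := (abs_le.1 (q1.trans hp)).1
      rw [q2] at q4
      linarith
    exact b2 (p, 0) (m2 _ p2 (p3 μ m1 (by rw [add_comm ν μ]; exact flat_half m1 n1)))
      (a2 (p, 0) (n2 _ p2 (p3 ν n1 (flat_half n1 m1))))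
  refine ⟨ν, n1, fun e he => ?_⟩
  have w1 : ‖toC e.1‖ ≤ 15 * l := by
    have := flat_norm e.1 (mem_box_iff.1 he)
    push_cast at this
    linarith
  refine ⟨fun h => a2 e (n2 _ w1 (by linarith)), fun h => b2 e (m2 _ w1 ?_)⟩
  have q1 := (abs_le.1 ((flat_re (toC e.1) (ν + μ)).trans (mul_le_mul w1 hs (norm_nonneg _) (by linarith)))).1
  rw [map_add, mul_add, Complex.add_re] at q1
  linarith

variable {n : ℕ} {l : ℕ → ℕ} {E : ℕ → Set Edge} {ρ : ℕ → ℝ} {v : ℕ → Fin n → Site} {ν : ℂ}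

theorem flatb_zero : toC 0 = 0 := Complex.ext (by simp [toC]) (by simp [toC])

theorem flatb_norm {p : Site} {R : ℕ} (h : p ∈ box 0 R) : ‖toC p‖ ≤ 3 / 2 * R := by
  have h1 := dist_le_supd p 0
  have h2 : (supd p 0 : ℝ) ≤ R := Nat.cast_le.2 (mem_box_iff.1 h)
  rw [flatb_zero, sub_zero] at h1
  linarith

theorem flatb_box {p : Site} {R : ℕ} (h : ‖toC p‖ ≤ R) : p ∈ box 0 R := by
  have h1 := supd_le_dist p 0
  rw [flatb_zero, sub_zero] at h1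
  exact mem_box_iff.2 (Nat.cast_le.1 (h1.trans h))

theorem flatb_re (z μ : ℂ) : |(z * conj μ).re| ≤ ‖z‖ * ‖μ‖ := by
  simpa using Complex.abs_re_le_norm (z * conj μ)

theorem flatb_big (lim : Tendsto l atTop atTop) (K : ℝ) : ∀ᶠ k in atTop, K ≤ l k :=
  (tendsto_natCast_atTop_atTop.comp lim).eventually_ge_atTop K

/-- part b.  `extraction_forall_of_eventually` for `flat (1 / (j + 1))`, then a convergent subsequence of the `ν j` on the sphere -/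
theorem exists_bseq (pos : ∀ k, 0 < l k) (lim : Tendsto l atTop atTop) (reg : ∀ k, Reg (E k) (ρ k))
    (rho : Tendsto (fun k => ρ k / l k) atTop atTop) (bd : ∀ k, BdryB (E k) 0) (inj : ∀ k, Function.Injective (v k))
    (vl : ∀ i, PtLim (msh l) (fun k => v k i) 0) : ∃ (ψ : ℕ → ℕ) (ν : ℂ), StrictMono ψ ∧
      BSeq (fun k => l (ψ k)) (fun k => E (ψ k)) (fun k => ρ (ψ k)) (fun k => v (ψ k)) ν := by
  obtain ⟨φ, hφ, h1⟩ := extraction_forall_of_eventually (P := fun j k => ∃ ν : ℂ, ‖ν‖ = 1 ∧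
      ∀ e : Edge, e.1 ∈ box 0 (10 * l k) → (1 / ((j : ℝ) + 1) * l k ≤ (toC e.1 * conj ν).re → e ∈ E k) ∧
        ((toC e.1 * conj ν).re ≤ -(1 / ((j : ℝ) + 1) * l k) → e ∉ E k)) fun j => by
    obtain ⟨K, hK⟩ := flat (1 / ((j : ℝ) + 1)) (by positivity)
    filter_upwards [flatb_big lim K, rho.eventually_ge_atTop K] with k h1 h2
    exact hK _ _ _ (reg k) (bd k) h1 ((le_div_iff₀ (Nat.cast_pos.2 (pos k))).1 h2)
  choose μ h1 h2 using h1
  obtain ⟨ν, hν, φ', hφ', h3⟩ := (isCompact_sphere (0 : ℂ) 1).tendsto_subseq fun j => mem_sphere_zero_iff_norm.2 (h1 j)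
  have hψ := (hφ.comp hφ').tendsto_atTop
  refine ⟨φ ∘ φ', ν, hφ.comp hφ', fun k => pos _, lim.comp hψ, fun k => reg _, rho.comp hψ, fun k => bd _,
    fun k => inj _, fun i => (vl i).comp hψ, mem_sphere_zero_iff_norm.1 hν, fun ε hε => ?_⟩
  filter_upwards [(tendsto_one_div_add_atTop_nhds_zero_nat.comp hφ'.tendsto_atTop).eventually_le_const (half_pos hε),
    (tendsto_iff_norm_sub_tendsto_zero.1 h3).eventually_le_const (show 0 < ε / 30 by positivity)] with k k1 k2 e he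
  simp only [Function.comp_apply] at k1 k2 he ⊢
  have k3 := flatb_norm he
  have k4 := (flatb_re (toC e.1) (μ (φ' k) - ν)).trans (mul_le_mul k3 k2 (norm_nonneg _) (by positivity))
  have k5 := mul_le_mul_of_nonneg_right k1 (Nat.cast_nonneg (l (φ (φ' k))))
  rw [map_sub, mul_sub, Complex.sub_re, abs_le] at k4
  push_cast at k4
  exact ⟨fun h => (h2 _ e he).1 (by linarith [k4.1]), fun h => (h2 _ e he).2 (by linarith [k4.2])⟩

theorem BSeq.subseq (h : BSeq l E ρ v ν) {ψ : ℕ → ℕ} (hψ : StrictMono ψ) :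
    BSeq (fun k => l (ψ k)) (fun k => E (ψ k)) (fun k => ρ (ψ k)) (fun k => v (ψ k)) ν := by
  have t := hψ.tendsto_atTop
  exact ⟨fun k => h.pos _, h.lim.comp t, fun k => h.reg _, h.rho.comp t, fun k => h.bd _, fun k => h.inj _,
    fun i => (h.vl i).comp t, h.nu, fun ε hε => t.eventually (h.flat ε hε)⟩

theorem BSol.subseq {s : ℕ → Fn} {Hw Hb : ℕ → Site → ℝ} (h : BSol l E v s Hw Hb) {ψ : ℕ → ℕ} (hψ : StrictMono ψ) :
    BSol (fun k => l (ψ k)) (fun k => E (ψ k)) (fun k => v (ψ k)) (fun k => s (ψ k)) (fun k => Hw (ψ k))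
      fun k => Hb (ψ k) := by
  have t := hψ.tendsto_atTop
  exact ⟨fun k => h.sol _, fun ε hε => (h.bd ε hε).imp fun M hM => t.eventually hM, t.eventually h.isH⟩

theorem msh_pos (pos : ∀ k, 0 < l k) (k : ℕ) : 0 < msh l k := by
  exact inv_pos.2 (Nat.cast_pos.2 (pos k))

theorem msh_lim (lim : Tendsto l atTop atTop) : Tendsto (msh l) atTop (𝓝 0) := by
  exact tendsto_inv_atTop_zero.comp (tendsto_natCast_atTop_atTop.comp lim)

/-- `‖msh l k * toC p‖ ≤ c → p ∈ box 0 (c * l k)` -/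
theorem mem_box_of_norm (pos : ∀ k, 0 < l k) {k c : ℕ} {p : Site} (h : ‖(msh l k : ℂ) * toC p‖ ≤ c) :
    p ∈ box 0 (c * l k) := by
  rw [norm_mul, Complex.norm_real, Real.norm_of_nonneg (msh_pos pos k).le, msh,
    inv_mul_le_iff₀ (Nat.cast_pos.2 (pos k)), mul_comm] at h
  exact flatb_box (by exact_mod_cast h)

/-- part b.  On a compact `K ⊆ HD` the height `Re (z conj ν)` is bounded below -/
theorem BSeq.crit (h : BSeq l E ρ v ν) {K : Set ℂ} (hK : IsCompact K) (hKU : K ⊆ HD ν 1) :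
    ∀ᶠ k in atTop, Crit (E k) {p | (msh l k : ℂ) * toC p ∈ K} := by
  obtain ⟨δ, hδ, h1⟩ := hK.exists_forall_le' (f := fun z => (z * conj ν).re) (by fun_prop) fun z hz => (hKU hz).2
  filter_upwards [h.flat (δ / 2) (half_pos hδ), flatb_big h.lim (3 / δ)] with k k1 k2 p hp α
  have hl := h.pos k
  have k3 := mem_box_of_norm h.pos (c := 1) (by exact_mod_cast (hKU hp).1.le)
  have k4 := edgeOf_fst_mem_box p α
  refine (k1 _ (box_sub k3 (by omega) k4)).1 ?_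
  have k5 := h1 _ hp
  rw [mul_assoc, Complex.re_ofReal_mul, msh, le_inv_mul_iff₀ (Nat.cast_pos.2 hl)] at k5
  have k6 := flatb_re (toC (edgeOf p α).1 - toC p) ν
  have k7 := dist_le_supd (edgeOf p α).1 p
  have k8 : (supd (edgeOf p α).1 p : ℝ) ≤ 1 := by exact_mod_cast mem_box_iff.1 k4
  rw [h.nu, mul_one, sub_mul, Complex.sub_re, abs_le] at k6
  rw [div_le_iff₀ hδ] at k2
  linarith [k6.1]

/-- part b.  A site `q` near `toC p - (max t 0 + ε l / 2) ν` (`t` the height of `p`); the edge `(q, 0)` is frozen, `b = edgeB1 (q, 0)` -/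
theorem BSeq.frozen (h : BSeq l E ρ v ν) {ε : ℝ} (hε : 0 < ε) : ∀ᶠ k in atTop, ∀ p ∈ box 0 (2 * l k),
    ∃ b, FrozenB (E k) b ∧ (supd p b : ℝ) + 1 ≤ max (toC p * conj ν).re 0 + ε * l k := by
  obtain ⟨δ, h0, h1, h2⟩ : ∃ δ, 0 < δ ∧ δ ≤ ε ∧ δ ≤ 1 := ⟨min ε 1, by positivity, min_le_left _ _, min_le_right _ _⟩
  filter_upwards [h.flat (δ / 4) (by positivity), flatb_big h.lim (6 / δ)] with k k1 k2 p hp
  rw [div_le_iff₀ h0] at k2
  have hl : (0 : ℝ) ≤ l k := Nat.cast_nonneg _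
  have k3 := flatb_norm hp
  have k4 := flatb_re (toC p) ν
  rw [h.nu, mul_one] at k4
  push_cast at k3
  obtain ⟨m, hm, m0, m1, m2⟩ : ∃ m, m = max (toC p * conj ν).re 0 ∧ 0 ≤ m ∧ (toC p * conj ν).re ≤ m ∧ m ≤ ‖toC p‖ :=
    ⟨_, rfl, le_max_right _ _, le_max_left _ _, max_le (abs_le.1 k4).2 (norm_nonneg _)⟩
  rw [← hm]
  obtain ⟨q, hq⟩ := exists_site (toC p - ((m + δ * l k / 2 : ℝ) : ℂ) * ν)
  have k5 : ‖((m + δ * l k / 2 : ℝ) : ℂ) * ν‖ = m + δ * l k / 2 := by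
    rw [norm_mul, h.nu, mul_one, Complex.norm_real, Real.norm_of_nonneg (by positivity)]
  have k6 : ‖toC p - toC q‖ ≤ m + δ * l k / 2 + 1 := by
    have := norm_sub_le (((m + δ * l k / 2 : ℝ) : ℂ) * ν) (toC q - (toC p - ((m + δ * l k / 2 : ℝ) : ℂ) * ν))
    rw [show ((m + δ * l k / 2 : ℝ) : ℂ) * ν - (toC q - (toC p - ((m + δ * l k / 2 : ℝ) : ℂ) * ν)) = toC p - toC q by
      ring] at this
    linarith
  have k7 := norm_sub_le (toC p) (toC p - toC q)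
  rw [sub_sub_cancel] at k7
  have k8 := flatb_re (toC q - (toC p - ((m + δ * l k / 2 : ℝ) : ℂ) * ν)) ν
  rw [h.nu, mul_one, sub_mul, sub_mul, mul_assoc, Complex.mul_conj, Complex.normSq_eq_norm_sq, h.nu, Complex.sub_re,
    Complex.sub_re, ← Complex.ofReal_mul, Complex.ofReal_re, abs_le] at k8
  have k9 := mul_le_mul_of_nonneg_right h1 hl
  have k10 := mul_le_mul_of_nonneg_right h2 hl
  refine ⟨q + (1, 1), ⟨(q, 0), (k1 (q, 0) (flatb_box (by push_cast; linarith))).2 (by linarith [k8.2]), .inr rfl⟩, ?_⟩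
  have k11 : (supd p (q + (1, 1)) : ℝ) ≤ supd p q + 1 := by
    have : supd p (q + (1, 1)) ≤ supd p q + 1 := by
      simp only [supd, Prod.fst_add, Prod.snd_add]
      omega
    exact_mod_cast this
  linarith [supd_le_dist p q]

end Crest.Agent.R165
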