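import Crest.Agent.R165.BC.Bulk
import Crest.Agent.R165.BC.Flat
import Crest.Agent.R165.BC.BH
import Crest.Agent.R165.BC.Cx

/-! # R165/BC/BLim (owner helper57).  Limits near a flat boundary point. -/

set_option autoImplicit false
noncomputable section
open Classical Filter Topology Metric ComplexConjugate

namespace Crest.Agent.R165

variable {n : ℕ} {l : ℕ → ℕ} {E : ℕ → Set Edge} {ρ : ℕ → ℝ} {v : ℕ → Fin n → Site} {ν : ℂ} {s : ℕ → Fn}
  {Hw Hb : ℕ → Site → ℝ}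

theorem blima_l (h : BSeq l E ρ v ν) (c : ℝ) : ∀ᶠ k in atTop, c ≤ (l k : ℝ) :=
  (tendsto_natCast_atTop_atTop.comp h.lim).eventually_ge_atTop c

theorem blima_rho (h : BSeq l E ρ v ν) (c : ℝ) : ∀ᶠ k in atTop, c * (l k : ℝ) ≤ ρ k :=
  (h.rho.eventually_ge_atTop c).mono fun k hk => (le_div_iff₀ (by exact_mod_cast h.pos k)).1 hk

theorem blima_frame {x y : Site} {r R : ℕ} : y ∈ frame x r R ↔ r < supd y x ∧ supd y x ≤ R := by
  rw [frame, Finset.mem_sdiff, mem_box_iff, mem_box_iff, not_le, and_comm]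

theorem blima_toC0 : toC 0 = 0 := by
  apply Complex.ext <;> simp [toC]

/-- part a: choice with `exists_H0` -/
theorem exists_bsol (h : BSeq l E ρ v ν) (sol : ∀ k, SolOn (wOf (E k) (spinsOf (v k))) (box 0 (50 * l k)) (s k))
    (bd : ∀ ε > 0, ∃ M : ℝ, ∀ᶠ k in atTop, ∀ p ∈ box 0 (5 * l k), ε * l k ≤ ‖toC p‖ → ∀ α, |s k (p, α)| ≤ M) :
    ∃ Hw Hb, BSol l E v s Hw Hb := by
  have h1 : ∀ k, ∃ Hw Hb : Site → ℝ, (2 : ℝ) ≤ l k ∧ (400 * l k : ℝ) ≤ ρ k →
      IsH (wOf (E k) (spinsOf (v k))) (s k) (box 0 (50 * l k)) Hw Hb ∧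
        ∀ b ∈ box 0 (4 * l k), FrozenB (E k) b → Hb b = 0 := fun k => by
    by_cases hk : (2 : ℝ) ≤ l k ∧ (400 * l k : ℝ) ≤ ρ k
    · obtain ⟨Hw, Hb, H⟩ := exists_H0 (h.reg k) (h.bd k).1 (by exact_mod_cast hk.1) hk.2 (sol k)
      exact ⟨Hw, Hb, fun _ => H⟩
    · exact ⟨0, 0, fun h' => (hk h').elim⟩
  choose Hw Hb H using h1
  exact ⟨Hw, Hb, sol, bd, ((blima_l h 2).and (blima_rho h 400)).mono H⟩

/-- part a.  `H_lin` with `m = ⌊θ l⌋₊ / 8` centred at `p` (so `box p (4 m)` lies in the ball of radius `θ l` about `p`), `BSeq.frozen` -/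
theorem H_near : ∃ C : ℝ, ∀ {n : ℕ} {l : ℕ → ℕ} {E : ℕ → Set Edge} {ρ : ℕ → ℝ} {v : ℕ → Fin n → Site} {ν : ℂ}
    {s : ℕ → Fn} {Hw Hb : ℕ → Site → ℝ}, BSeq l E ρ v ν → BSol l E v s Hw Hb → ∀ θ > 0, θ ≤ 1 → ∀ ε > 0,
    ∀ᶠ k in atTop, ∀ (p : Site) (M : ℝ), p ∈ box 0 (2 * l k) → (∀ i, θ * l k ≤ ‖toC (v k i) - toC p‖) →
      SB {q | ‖toC q - toC p‖ < θ * l k} M (s k) → (toC p * conj ν).re ≤ θ * l k / 20 →
      |Hw k p| ≤ C * M ^ 2 * (max (toC p * conj ν).re 0 + ε * l k) := by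
  obtain ⟨C, K, H⟩ := H_lin
  refine ⟨max C 0, fun {n l E ρ v ν s Hw Hb} h hs θ hθ hθ1 ε hε => ?_⟩
  filter_upwards [h.frozen (ε := min ε (θ / 40)) (lt_min hε (by positivity)), hs.isH,
    blima_l h (K * 8 / θ), blima_rho h K] with k h1 h2 h3 h4 p M hp hv hM ht
  have hl : (0 : ℝ) < l k := by exact_mod_cast h.pos k
  have hθl : 0 < θ * l k := by positivity
  set m := ⌊θ * l k / 8⌋₊ with hm
  have hm1 : (m : ℝ) ≤ θ * l k / 8 := Nat.floor_le (by positivity)
  have hm2 : θ * l k / 8 < m + 1 := Nat.lt_floor_add_one _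
  have hm3 : (8 * m : ℝ) ≤ l k := by nlinarith
  have hm4 : 8 * m ≤ l k := by exact_mod_cast hm3
  have hball : ∀ q ∈ box p (4 * m), ‖toC q - toC p‖ < θ * l k := fun q hq => by
    have h5 : (supd q p : ℝ) ≤ 4 * m := by exact_mod_cast mem_box_iff.1 hq
    linarith [dist_le_supd q p]
  have hsub : box p (4 * m) ⊆ box 0 (50 * l k) := box_sub hp (by omega)
  obtain ⟨b, hb, hb'⟩ := h1 p hp
  have h5 : min ε (θ / 40) * l k ≤ θ / 40 * l k := mul_le_mul_of_nonneg_right (min_le_right _ _) hl.le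
  have h6 : min ε (θ / 40) * l k ≤ ε * l k := mul_le_mul_of_nonneg_right (min_le_left _ _) hl.le
  have h7 : max (toC p * conj ν).re 0 ≤ θ * l k / 20 := max_le ht (by positivity)
  have hbm : b ∈ box p m := by
    rw [mem_box_iff, supd_comm]
    have : (supd p b : ℝ) ≤ m := by linarith
    exact_mod_cast this
  have h8 := H (E k) (ρ k) (spinsOf (v k)) p m (s k) (Hw k) (Hb k) M (h.reg k)
    (Nat.le_floor (by rw [div_le_iff₀ hθ] at h3; linarith))
    ((mul_le_mul_of_nonneg_left (by linarith [Nat.cast_nonneg (α := ℝ) m]) (Nat.cast_nonneg K)).trans h4)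
    (fun w hw hw' => by
      obtain ⟨i, -, rfl⟩ := Finset.mem_image.1 hw
      exact (hv i).not_gt (hball _ hw'))
    (fun x hx => hs.sol k x (hsub hx)) (fun x hx => h2.1 x (hsub hx))
    (fun b hb => h2.2 b (box_sub hp (by omega) hb)) (fun x hx => hM x (hball x hx)) b hbm hb
  refine h8.trans (mul_le_mul (mul_le_mul_of_nonneg_right (le_max_left _ _) (sq_nonneg _)) (by linarith)
    (by positivity) (by positivity))

/-- part a.  `H_frame` on `frame 0 ⌊ε l / 2⌋₊ (4 l)`; the frozen site comes from `BSeq.frozen` at a site near `-2 l ν / 1.5`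
(any site of `box 0 (2 l)` of negative height and norm `≥ l`) -/
theorem H_far (h : BSeq l E ρ v ν) (hs : BSol l E v s Hw Hb) {ε : ℝ} (hε : 0 < ε) : ∃ C : ℝ, ∀ᶠ k in atTop,
    ∀ p ∈ box 0 (2 * l k), ε * l k ≤ ‖toC p‖ → |Hw k p| ≤ C * l k := by
  have hε' : 0 < min ε 1 := lt_min hε one_pos
  obtain ⟨M, hM⟩ := hs.bd (min ε 1 / 2) (by positivity)
  refine ⟨M ^ 2 * 68, ?_⟩
  filter_upwards [h.frozen (ε := 1 / 10) (by norm_num), hs.isH, hM, blima_l h 5] with k h1 h2 h3 h4 p hp hp'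
  have hl : (0 : ℝ) < l k := by linarith
  set r := ⌊min ε 1 * l k / 2⌋₊ with hr
  have hr1 : (r : ℝ) ≤ min ε 1 * l k / 2 := Nat.floor_le (by positivity)
  have hr2 : min ε 1 * l k / 2 < r + 1 := Nat.lt_floor_add_one _
  have hr3 : min ε 1 * l k ≤ 1 * l k := mul_le_mul_of_nonneg_right (min_le_right _ _) hl.le
  have hr4 : min ε 1 * l k ≤ ε * l k := mul_le_mul_of_nonneg_right (min_le_left _ _) hl.le
  have n1 : ∀ q : Site, (supd q 0 : ℝ) ≤ ‖toC q‖ := fun q => by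
    simpa [blima_toC0] using supd_le_dist q 0
  have n2 : ∀ q : Site, ‖toC q‖ ≤ 3 / 2 * supd q 0 := fun q => by
    simpa [blima_toC0] using dist_le_supd q 0
  obtain ⟨q, hq⟩ := exists_site (((-(3 / 2 * l k) : ℝ) : ℂ) * ν)
  have hz : ‖((-(3 / 2 * l k) : ℝ) : ℂ) * ν‖ = 3 / 2 * l k := by
    rw [norm_mul, h.nu, mul_one, Complex.norm_real, Real.norm_eq_abs, abs_neg, abs_of_pos (by positivity)]
  have hq1 := abs_le.1 ((abs_norm_sub_norm_le _ _).trans hq)
  rw [hz] at hq1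
  have hq2 : (toC q * conj ν).re ≤ 0 := by
    have e : toC q * conj ν = (toC q - ((-(3 / 2 * l k) : ℝ) : ℂ) * ν) * conj ν + ((-(3 / 2 * l k) : ℝ) : ℂ) := by
      rw [sub_mul, mul_assoc, Complex.mul_conj', h.nu]; simp
    have h5 := Complex.re_le_norm ((toC q - ((-(3 / 2 * l k) : ℝ) : ℂ) * ν) * conj ν)
    rw [norm_mul, Complex.norm_conj, h.nu, mul_one] at h5
    rw [e, Complex.add_re, Complex.ofReal_re]
    linarith
  have hq3 : (supd q 0 : ℝ) ≤ 2 * l k := by linarith [n1 q]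
  obtain ⟨b, hb, hb'⟩ := h1 q (mem_box_iff.2 (by exact_mod_cast hq3))
  rw [max_eq_right hq2] at hb'
  have hbox : ∀ x ∈ box b 2, r < supd x 0 ∧ supd x 0 ≤ 4 * l k := fun x hx => by
    have t1 : (supd q 0 : ℝ) ≤ supd q b + (supd x b + supd x 0) := by
      have := supd_triangle q b 0
      have := supd_triangle b x 0
      rw [supd_comm b x] at this
      exact_mod_cast (by omega : supd q 0 ≤ supd q b + (supd x b + supd x 0))
    have t2 : (supd x 0 : ℝ) ≤ supd x b + (supd q b + supd q 0) := by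
      have := supd_triangle x b 0
      have := supd_triangle b q 0
      rw [supd_comm b q] at this
      exact_mod_cast (by omega : supd x 0 ≤ supd x b + (supd q b + supd q 0))
    have t3 : (supd x b : ℝ) ≤ 2 := by exact_mod_cast mem_box_iff.1 hx
    have t4 : (r : ℝ) < supd x 0 := by linarith [n2 q]
    have t5 : (supd x 0 : ℝ) ≤ 4 * l k := by linarith
    exact ⟨by exact_mod_cast t4, by exact_mod_cast t5⟩
  have h5 := H_frame (x := 0) (r := r) (R := 4 * l k) (M := M) (b := b) h2.1 (hs.sol k)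
    (fun x hx => mem_box_iff.2 ((blima_frame.1 hx).2.trans (by omega)))
    (fun x hx => h3 x (mem_box_iff.2 ((blima_frame.1 hx).2.trans (by omega))) (by
      have : (r : ℝ) + 1 ≤ supd x 0 := by exact_mod_cast (blima_frame.1 hx).1
      linarith [n1 x]))
    (fun x hx => blima_frame.2 (hbox x hx))
    (h2.2 b (mem_box_iff.2 (hbox b (mem_box_iff.2 (by rw [supd_self]; omega))).2) hb) p
    (blima_frame.2 ⟨by
      have : (r : ℝ) < supd p 0 := by nlinarith [n2 p, mul_pos hε' hl]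
      exact_mod_cast this, (mem_box_iff.1 hp).trans (by omega)⟩)
  refine h5.trans ?_
  rw [mul_assoc]
  push_cast
  exact mul_le_mul_of_nonneg_left (by linarith) (sq_nonneg _)

theorem blb_norm (pos : ∀ k, 0 < l k) (k : ℕ) (w : ℂ) : ‖(msh l k : ℂ) * w‖ * l k = ‖w‖ := by
  have : (0 : ℝ) < l k := by exact_mod_cast pos k
  rw [norm_mul, Complex.norm_real, Real.norm_eq_abs, abs_of_pos (msh_pos pos k), msh]
  field_simp

theorem blb_re (pos : ∀ k, 0 < l k) (k : ℕ) (w : ℂ) : ((msh l k : ℂ) * w * conj ν).re * l k = (w * conj ν).re := by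
  have : (0 : ℝ) < l k := by exact_mod_cast pos k
  rw [mul_assoc, Complex.re_ofReal_mul, msh]
  field_simp

theorem blb_abs (pos : ∀ k, 0 < l k) (k : ℕ) {t C : ℝ} (h : |t| ≤ C * l k) : |msh l k * t| ≤ C := by
  have : (0 : ℝ) < l k := by exact_mod_cast pos k
  rwa [abs_mul, abs_of_pos (msh_pos pos k), msh, inv_mul_le_iff₀ this, mul_comm]

theorem blb_est (h : BSeq l E ρ v ν) (hs : BSol l E v s Hw Hb) {f : ℂ → ℝ}
    (hf : CLim (msh l) (HD ν 1) (fun k => hF (msh l k) (Hw k)) f) :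
    ∀ ε > 0, ∃ C : ℝ, ∀ z ∈ HD ν 1, ε ≤ ‖z‖ → |f z| ≤ C * (z * conj ν).re := by
  intro ε hε
  obtain ⟨c, hc⟩ : ∃ c : ℝ, c = Real.sqrt 2 / (1 + tc ^ 2) := ⟨_, rfl⟩
  have hc0 : 0 ≤ c := by rw [hc]; positivity
  obtain ⟨C₁, hC₁⟩ := H_far h hs (half_pos hε)
  obtain ⟨C₂, hC₂⟩ := H_near
  obtain ⟨M, hM⟩ := hs.bd (ε / 4) (by positivity)
  refine ⟨max (|C₁| * c * (100 / ε)) (C₂ * M ^ 2 * 2 * c), fun z hz hεz => ?_⟩
  obtain ⟨p, hp⟩ := exists_ptLim (msh_pos h.pos) (msh_lim h.lim) z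
  have hlim := (hf z hz p hp).abs
  have ht : 0 < (z * conj ν).re := hz.2
  have hε1 : ε < 1 := hεz.trans_lt hz.1
  have hl : ∀ k, (0 : ℝ) < l k := fun k => by exact_mod_cast h.pos k
  have e1 : ∀ᶠ k in atTop, ε / 2 < ‖(msh l k : ℂ) * toC (p k)‖ := hp.norm.eventually (lt_mem_nhds (by linarith))
  have e2 : ∀ᶠ k in atTop, ‖(msh l k : ℂ) * toC (p k)‖ < 1 := hp.norm.eventually (gt_mem_nhds hz.1)
  have hh : Tendsto (fun k => ((msh l k : ℂ) * toC (p k) * conj ν).re) atTop (𝓝 (z * conj ν).re) :=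
    (Complex.continuous_re.tendsto _).comp (hp.mul_const _)
  have habs : ∀ k (B : ℝ), |Hw k (p k)| ≤ B * l k → |hF (msh l k) (Hw k) (p k)| ≤ B * c := fun k B hB => by
    rw [hF, ← hc, abs_mul, abs_of_nonneg hc0]
    exact mul_le_mul_of_nonneg_right (blb_abs h.pos k hB) hc0
  rcases le_or_gt (ε / 100) (z * conj ν).re with h1 | h1
  · have : |f z| ≤ |C₁| * c := by
      refine le_of_tendsto hlim ?_
      filter_upwards [hC₁, e1, e2] with k hk h2 h3
      refine habs k _ ((hk _ (mem_box_of_norm h.pos (h3.le.trans (by norm_num))) ?_).trans ?_)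
      · rw [← blb_norm h.pos k]
        exact mul_le_mul_of_nonneg_right h2.le (hl k).le
      · exact mul_le_mul_of_nonneg_right (le_abs_self _) (hl k).le
    refine this.trans (le_trans ?_ (mul_le_mul_of_nonneg_right (le_max_left _ _) ht.le))
    rw [mul_assoc (|C₁| * c)]
    refine le_mul_of_one_le_right (by positivity) ?_
    rw [div_mul_eq_mul_div, one_le_div hε]
    linarith
  · refine le_trans ?_ (mul_le_mul_of_nonneg_right (le_max_right _ _) ht.le)
    have hr : Tendsto (fun k => C₂ * M ^ 2 * (max ((msh l k : ℂ) * toC (p k) * conj ν).re 0 + (z * conj ν).re) * c) atTop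
        (𝓝 (C₂ * M ^ 2 * (max (z * conj ν).re 0 + (z * conj ν).re) * c)) :=
      (((hh.max tendsto_const_nhds).add_const _).const_mul _).mul_const _
    rw [max_eq_left ht.le] at hr
    refine (le_of_tendsto_of_tendsto hlim hr ?_).trans_eq (by ring)
    have e3 : ∀ᶠ k in atTop, ∀ i, ε / 4 < ‖(msh l k : ℂ) * (toC (v k i) - toC (p k))‖ := by
      refine eventually_all.2 fun i => ?_
      have := ((h.vl i).sub hp).norm
      simp only [← mul_sub, zero_sub, norm_neg] at this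
      exact this.eventually (lt_mem_nhds (by linarith))
    have e4 := hh.eventually (gt_mem_nhds h1)
    filter_upwards [hC₂ h hs (ε / 4) (by positivity) (by linarith) _ ht, hM, e1, e2, e3, e4] with k hk hk' h2 h3 h4 h5
    refine habs k _ ((hk (p k) M (mem_box_of_norm h.pos (h3.le.trans (by norm_num))) (fun i => ?_)
      (fun q hq => ?_) ?_).trans_eq ?_)
    · rw [← blb_norm h.pos k]
      exact mul_le_mul_of_nonneg_right (h4 i).le (hl k).le
    · have h6 : ‖(msh l k : ℂ) * toC q - (msh l k : ℂ) * toC (p k)‖ < ε / 4 := by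
        rw [← mul_sub]
        refine lt_of_mul_lt_mul_right ?_ (hl k).le
        rw [blb_norm h.pos k]
        exact hq
      have h7 := abs_norm_sub_norm_le ((msh l k : ℂ) * toC q) ((msh l k : ℂ) * toC (p k))
      rw [abs_le] at h7
      refine hk' q (mem_box_of_norm h.pos (by push_cast; linarith)) ?_
      rw [← blb_norm h.pos k]
      exact mul_le_mul_of_nonneg_right (by linarith) (hl k).le
    · rw [← blb_re h.pos k]
      nlinarith [hl k]
    · rw [← blb_re h.pos k (toC (p k)), mul_assoc (C₂ * M ^ 2), add_mul, max_mul_of_nonneg _ _ (hl k).le, zero_mul]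

/-- part b.  `lim_bulk1` on `HD ν 1` (`BSeq.crit`, `BSol.bd`, `H_far`); the boundary estimate from `H_near` (height `≤ ε / 100`,
`θ = ε / 4`) and `H_far` (height `≥ ε / 100`) -/
theorem bdry_lim (h : BSeq l E ρ v ν) (hs : BSol l E v s Hw Hb) :
    ∃ (ψ : ℕ → ℕ) (g : ℂ → ℂ) (h : ℂ → ℝ), StrictMono ψ ∧ DifferentiableOn ℂ g (HD ν 1) ∧
      CLim (msh l ∘ ψ) (HD ν 1) (fun k => gF (msh l (ψ k)) (v (ψ k)) (s (ψ k))) g ∧
      CLim (msh l ∘ ψ) (HD ν 1) (fun k p => fld (s (ψ k)) p ^ 2) (fun z => g z ^ 2 / z ^ n) ∧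
      CLim (msh l ∘ ψ) (HD ν 1) (fun k => hF (msh l (ψ k)) (Hw (ψ k))) h ∧
      (∀ z ∈ HD ν 1, HasFDerivAt h (nre (g z ^ 2 / z ^ n)) z) ∧
      ∀ ε > 0, ∃ C : ℝ, ∀ z ∈ HD ν 1, ε ≤ ‖z‖ → |h z| ≤ C * (z * conj ν).re := by
  have hU : IsOpen (HD ν 1) := (isOpen_lt continuous_norm continuous_const).inter
    (isOpen_lt continuous_const (Complex.continuous_re.comp (continuous_id.mul continuous_const)))
  have h0 : (0 : ℂ) ∉ HD ν 1 := fun h => by simpa using h.2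
  have hK : ∀ K, IsCompact K → K ⊆ HD ν 1 → ∃ ε > 0, ∀ k p, (msh l k : ℂ) * toC p ∈ K →
      ε * l k ≤ ‖toC p‖ ∧ ∀ c : ℕ, 1 ≤ c → p ∈ box 0 (c * l k) := by
    intro K hK hKU
    obtain ⟨ε, hε, hb⟩ := Metric.isOpen_iff.1 hK.isClosed.isOpen_compl 0 fun h => h0 (hKU h)
    refine ⟨ε, hε, fun k p hp => ⟨?_, fun c hc => mem_box_of_norm h.pos ((hKU hp).1.le.trans (by exact_mod_cast hc))⟩⟩
    rw [← blb_norm h.pos k]
    gcongr
    by_contra hlt
    exact hb (mem_ball_zero_iff.2 (not_le.1 hlt)) hp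
  obtain ⟨ψ, g, f, hψ, h1, h2, h3, -, h4, h5⟩ := lim_bulk1 (x := fun _ => 0) (E := E) (s := s) hU (msh_pos h.pos)
    (msh_lim h.lim) (Eventually.of_forall h.inj) h.vl (fun _ => h0) (fun K hKc hKU => by
      obtain ⟨ε, hε, hb⟩ := hK K hKc hKU
      obtain ⟨M, hM⟩ := hs.bd ε hε
      refine ⟨M, ?_⟩
      filter_upwards [h.crit hKc hKU, hM] with k hk hk'
      exact ⟨hk, fun p hp => hs.sol k p ((hb k p hp).2 50 (by norm_num)),
        fun p hp => hk' p ((hb k p hp).2 5 (by norm_num)) (hb k p hp).1⟩) Hw Hb (fun K hKc hKU => by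
      obtain ⟨ε, hε, hb⟩ := hK K hKc hKU
      obtain ⟨C, hC⟩ := H_far h hs hε
      refine ⟨C, ?_⟩
      filter_upwards [hs.isH, hC] with k hk hk'
      exact ⟨fun p hp => hk.1 p ((hb k p hp).2 50 (by norm_num)),
        fun p hp => blb_abs h.pos k (hk' p ((hb k p hp).2 2 (by norm_num)) (hb k p hp).1)⟩)
  have e : ∀ z : ℂ, rhoX (fun _ : Fin n => (0 : ℂ)) z = z ^ n := fun z => by simp [rhoX]
  simp only [e] at h3 h5
  exact ⟨ψ, g, f, hψ, h1, h2, h3, h4, h5, blb_est (h.subseq hψ) (hs.subseq hψ) h4⟩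

theorem blimc_dist (hl : ∀ k, 0 < l k) (k : ℕ) (p : Site) (z : ℂ) :
    dist ((msh l k : ℂ) * toC p) z * l k = ‖toC p - l k * z‖ := by
  have h : (l k : ℂ) ≠ 0 := Nat.cast_ne_zero.2 (hl k).ne'
  rw [dist_eq_norm, ← Complex.norm_natCast (l k), ← norm_mul, msh]
  congr 1
  push_cast
  field_simp

theorem blimc_box {x : Site} {R : ℕ} (h : ‖toC x‖ ≤ R) : x ∈ box 0 R := by
  have := supd_le_dist x 0
  rw [show toC 0 = 0 from Complex.ext (by simp [toC]) (by simp [toC]), sub_zero] at this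
  exact mem_box_iff.2 (Nat.cast_le.1 (this.trans h))

theorem blimc_const : 1 ≤ Real.sqrt 2 / (1 + tc ^ 2) := by
  have h1 := Real.sq_sqrt (show (0 : ℝ) ≤ 2 by norm_num)
  have h2 : 4 / 3 ≤ Real.sqrt 2 := Real.le_sqrt_of_sq_le (by norm_num)
  rw [one_le_div (by positivity), tc]
  nlinarith

/-- part c: from a bound on the limit `h` to a bound on `s` up to the boundary.  `barrier` with centre `p₀` near `z l`,
`r = ⌈θ l⌉₊ + 1`.  On `box p₀ (3 r)` (inside the ball of radius `5 θ`): `|msh * Hw| ≤ δ'` by `CLim.unif_compact` on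
`closedBall z (5 θ) ∩ {ε ≤ height}` and by `H_near` (with `θ`, `ε` small) below that height; `|Hw| ≤ |hF| * l`. -/
theorem bdry_transfer : ∃ C : ℝ, ∀ {n : ℕ} {l : ℕ → ℕ} {E : ℕ → Set Edge} {ρ : ℕ → ℝ} {v : ℕ → Fin n → Site} {ν : ℂ}
    {s : ℕ → Fn} {Hw Hb : ℕ → Site → ℝ} {h : ℂ → ℝ}, BSeq l E ρ v ν → BSol l E v s Hw Hb →
    CLim (msh l) (HD ν 1) (fun k => hF (msh l k) (Hw k)) h → ∀ (z : ℂ) (θ δ δ' M : ℝ), 0 < θ → ‖z‖ + 6 * θ ≤ 1 →
    (0 < n → 7 * θ ≤ ‖z‖) → (∀ᶠ k in atTop, SB {p | dist ((msh l k : ℂ) * toC p) z < 6 * θ} M (s k)) →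
    (∀ w ∈ HD ν 1, dist w z < 6 * θ → |h w| ≤ δ) → 0 ≤ δ → δ < δ' →
    ∀ᶠ k in atTop, ∀ p, dist ((msh l k : ℂ) * toC p) z < θ → ∀ α, s k (p, α) ^ 2 ≤ C * δ' / θ := by
  obtain ⟨C, K, hC⟩ := barrier
  obtain ⟨C₂, hC₂⟩ := H_near
  refine ⟨|C|, fun {n l E ρ v ν s Hw Hb h} hB hS hL z θ δ δ' M hθ hz hn hM hh hδ hδ' => ?_⟩
  have z0 := norm_nonneg z
  have d0 : 0 < δ' := hδ.trans_lt hδ'
  obtain ⟨η, η0, η1, η2⟩ : ∃ η, 0 < η ∧ η ≤ θ / 20 ∧ η * (2 * (|C₂| * M ^ 2 + 1)) ≤ δ' :=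
    ⟨min (θ / 20) (δ' / (2 * (|C₂| * M ^ 2 + 1))), by positivity, min_le_left _ _,
      (le_div_iff₀ (by positivity)).1 (min_le_right _ _)⟩
  have hK : IsCompact (closedBall z (5 * θ) ∩ {w | η ≤ (w * conj ν).re}) :=
    (isCompact_closedBall _ _).inter_right (isClosed_le continuous_const (by fun_prop))
  have hKU : closedBall z (5 * θ) ∩ {w | η ≤ (w * conj ν).re} ⊆ HD ν 1 := fun w hw =>
    ⟨by linarith [norm_le_of_mem_closedBall hw.1], η0.trans_le hw.2⟩
  have t1 : Tendsto (fun k => θ * (l k : ℝ)) atTop atTop :=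
    (tendsto_natCast_atTop_atTop.comp hB.lim).const_mul_atTop hθ
  filter_upwards [hM, hS.isH, hC₂ hB hS θ hθ (by linarith) η η0,
    hL.unif_compact (msh_pos hB.pos) (msh_lim hB.lim) hK hKU (sub_pos.2 hδ'), t1.eventually_ge_atTop 30,
    t1.eventually_ge_atTop K, hB.rho.eventually_ge_atTop (3 * K),
    eventually_all.2 fun i => Metric.tendsto_nhds.1 (hB.vl i) _ (half_pos hθ)] with k a1 a2 a3 a4 a5 a6 a7 a8 p hp α
  have L1 : (1 : ℝ) ≤ l k := Nat.one_le_cast.2 (hB.pos k)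
  have L0 : (0 : ℝ) < l k := by linarith
  have lt : ∀ (p : Site) (z : ℂ) (c : ℝ), dist ((msh l k : ℂ) * toC p) z < c ↔ ‖toC p - l k * z‖ < c * l k :=
    fun p z c => by rw [← blimc_dist hB.pos, mul_lt_mul_iff_left₀ L0]
  obtain ⟨p₀, hp₀⟩ := exists_site (l k * z)
  have r1 := Nat.le_ceil (θ * l k)
  have r2 := Nat.ceil_lt_add_one (show 0 ≤ θ * l k by positivity)
  obtain ⟨r, hr⟩ : ∃ r, r = ⌈θ * l k⌉₊ + 1 := ⟨_, rfl⟩
  have r3 : (r : ℝ) = ⌈θ * l k⌉₊ + 1 := by rw [hr, Nat.cast_succ]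
  have nZ : ‖(l k : ℂ) * z‖ = l k * ‖z‖ := by rw [norm_mul, Complex.norm_natCast]
  have hz' := mul_le_mul_of_nonneg_left hz L0.le
  have b1 : ∀ (c : ℕ) (x : Site), x ∈ box p₀ (c * r) → ‖toC x - l k * z‖ ≤ 3 / 2 * (c * r) + 1 := fun c x hx => by
    have h1 : (supd x p₀ : ℝ) ≤ (c * r : ℕ) := Nat.cast_le.2 (mem_box_iff.1 hx)
    push_cast at h1
    linarith [norm_sub_le_norm_sub_add_norm_sub (toC x) (toC p₀) (l k * z), dist_le_supd x p₀]
  have b3 : ∀ x ∈ box p₀ (3 * r), ‖toC x - l k * z‖ ≤ 5 * θ * l k := fun x hx => by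
    have := b1 3 x hx
    push_cast at this
    linarith
  have b4 : ∀ x ∈ box p₀ (4 * r), ‖toC x - l k * z‖ ≤ 6 * θ * l k + 13 := fun x hx => by
    have := b1 4 x hx
    push_cast at this
    linarith
  have b5 : ∀ x ∈ box p₀ (3 * r), ‖toC x‖ ≤ l k := fun x hx => by
    linarith [b3 x hx, norm_le_norm_add_norm_sub' (toC x) (l k * z)]
  have b6 : (↑(box p₀ (4 * r)) : Set Site) ⊆ ↑(box 0 (50 * l k)) := fun x hx => blimc_box (by
    push_cast
    linarith [b4 x hx, norm_le_norm_add_norm_sub' (toC x) (l k * z)])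
  have b7 : ∀ i, 13 / 2 * θ * l k ≤ ‖toC (v k i) - l k * z‖ := fun i => by
    have h1 := (lt _ _ _).1 (a8 i)
    have h2 := mul_le_mul_of_nonneg_left (hn i.pos) L0.le
    rw [mul_zero, sub_zero] at h1
    linarith [norm_le_norm_add_norm_sub (toC (v k i)) (l k * z)]
  have key := (hC (E k) (ρ k) (spinsOf (v k)) p₀ r (s k) (Hw k) (Hb k) (δ' * l k) (hB.reg k)
    (Nat.cast_le.1 (show (K : ℝ) ≤ r by linarith)) ?_ (fun x hx hx' => ?_) (fun x hx => hS.sol k x (b6 hx))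
    (fun x hx => a2.1 x (b6 hx)) (fun b hb => a2.2 b (blimc_box (by push_cast; linarith [b5 b hb]))) fun x hx => ?_).1
    p (mem_box_iff.2 (Nat.cast_le.1 (show (supd p p₀ : ℝ) ≤ r from ?_))) α
  · refine key.trans ?_
    have : 0 < θ * l k := by positivity
    rw [div_le_div_iff₀ (by linarith) hθ]
    have h1 := mul_le_mul (le_abs_self C) (show δ' * (θ * l k) ≤ δ' * r by gcongr; linarith) (by positivity) (abs_nonneg C)
    linarith
  · rw [le_div_iff₀ L0] at a7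
    have := mul_le_mul_of_nonneg_left (show (r : ℝ) ≤ 3 * l k by nlinarith) (Nat.cast_nonneg (α := ℝ) K)
    linarith
  · obtain ⟨i, -, rfl⟩ := Finset.mem_image.1 hx
    linarith [b4 _ hx', b7 i]
  · rcases le_total (toC x * conj ν).re (η * l k) with ht | ht
    · have h1 := mul_le_mul_of_nonneg_right η1 L0.le
      have h2 : max (toC x * conj ν).re 0 ≤ η * l k := max_le ht (by positivity)
      refine (a3 x M (blimc_box (by push_cast; linarith [b5 x hx])) (fun i => ?_) (fun q hq => a1 q ((lt _ _ _).2 ?_))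
        (by linarith)).trans ?_
      · linarith [b3 x hx, b7 i, norm_sub_le_norm_sub_add_norm_sub (toC (v k i)) (toC x) (l k * z)]
      · have : ‖toC q - toC x‖ < θ * l k := hq
        linarith [b3 x hx, norm_sub_le_norm_sub_add_norm_sub (toC q) (toC x) (l k * z)]
      · have h3 := mul_le_mul (mul_le_mul_of_nonneg_right (le_abs_self C₂) (sq_nonneg M)) (add_le_add_left h2 (η * l k))
          (by positivity) (by positivity)
        have h4 := mul_le_mul_of_nonneg_right η2 L0.le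
        have : 0 < η * l k := by positivity
        linarith
    · have m : (msh l k : ℂ) * toC x ∈ closedBall z (5 * θ) ∩ {w | η ≤ (w * conj ν).re} := by
        refine ⟨le_of_mul_le_mul_right ((blimc_dist hB.pos k x z).trans_le (b3 x hx)) L0, ?_⟩
        rw [Set.mem_ofPred_eq, mul_assoc, Complex.re_ofReal_mul, msh, inv_mul_eq_div, le_div_iff₀ L0]
        exact ht
      have h1 := hh _ (hKU m) (lt_of_le_of_lt m.1 (by linarith))
      have h2 := a4 x m
      have h3 : |hF (msh l k) (Hw k) x| ≤ δ' := by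
        rw [Real.dist_eq] at h2
        linarith [abs_sub_abs_le_abs_sub (hF (msh l k) (Hw k) x) (h ((msh l k : ℂ) * toC x))]
      rw [hF, abs_mul, abs_mul, msh, abs_inv, abs_of_pos L0, abs_of_pos (one_pos.trans_le blimc_const)] at h3
      rw [← div_le_iff₀ L0, div_eq_inv_mul]
      exact (le_mul_of_one_le_right (by positivity) blimc_const).trans h3
  · have h1 := (lt _ _ _).1 hp
    rw [norm_sub_rev] at hp₀
    linarith [supd_le_dist p p₀, norm_sub_le_norm_sub_add_norm_sub (toC p) (l k * z) (toC p₀)]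

end Crest.Agent.R165
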