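import Crest.Agent.R165.BC.Osc

/-! # R165/BC/Loc (owner helper57).  Local estimates for the massless field of a bulk solution. -/

set_option autoImplicit false
noncomputable section
open Classical Filter Topology Metric ComplexConjugate

namespace Crest.Agent.R165

theorem loc_fld_dif (a : Site) (s : Fn) (y : Site) : fld (dif a s) y = fld s (y + a) - fld s y := by
  apply Complex.ext
  · simp only [Complex.sub_re, fld_re, dif]; ring
  · simp only [Complex.sub_im, fld_im, dif]; ring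

theorem loc_r : 0 ≤ Real.sqrt 2 / 2 ∧ Real.sqrt 2 / 2 ≤ 1 := by
  have h := Real.sqrt_nonneg 2
  have := b1_r
  constructor <;> nlinarith

theorem loc_mul_le {t δ : ℝ} (h : |t| ≤ δ) : |Real.sqrt 2 / 2 * t| ≤ δ := by
  rw [abs_mul, abs_of_nonneg loc_r.1]
  exact (mul_le_of_le_one_left (abs_nonneg _) loc_r.2).trans h

theorem loc_fld_norm (t : Fn) (y : Site) {δ : ℝ} (h : ∀ α, |t (y, α)| ≤ δ) : ‖fld t y‖ ≤ 3 * δ := by
  refine (Complex.norm_le_abs_re_add_abs_im _).trans ?_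
  have h0 := abs_le.1 (h 0)
  have h2 := abs_le.1 (h 2)
  have h1 := abs_le.1 (loc_mul_le (h 1))
  have h3 := abs_le.1 (loc_mul_le (h 3))
  have e1 : |(fld t y).re| ≤ 3 / 2 * δ := by
    rw [fld_re, abs_le]; constructor <;> linarith [h0.1, h0.2, h1.1, h1.2, h3.1, h3.2]
  have e2 : |(fld t y).im| ≤ 3 / 2 * δ := by
    rw [fld_im, abs_le]; constructor <;> linarith [h2.1, h2.2, h1.1, h1.2, h3.1, h3.2]
  linarith

theorem loc_uv (j : Fin 2) : ∃ β : Fin 4, uv j = dv β := by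
  fin_cases j
  · exact ⟨0, rfl⟩
  · exact ⟨1, rfl⟩

theorem loc_cr (s : Fn) (y : Site) (hs : SolOn wPl {y} s) {K : ℝ}
    (hq : ∀ α β γ, |dif (dv γ) (dif (dv β) s) (y, α)| ≤ K) (hm : ∀ α β, |dif (dv β) (mas s) (y, α)| ≤ K) :
    ‖(fld s (y + uv 0) - fld s y) + Complex.I * (fld s (y + uv 1) - fld s y)‖ ≤ 9 * K := by
  obtain ⟨a, b⟩ := y
  have hc := cr_eq s _ hs
  rw [b1_sum_om fun α => opp s (a, b) α - sv s (a, b) (α + 2)] at hc
  have hre := congrArg Complex.re hc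
  have him := congrArg Complex.im hc
  simp only [opp_0, opp_1, opp_2, opp_3, Complex.zero_re, Complex.zero_im] at hre him
  have s2 : sv s (a, b) (((0 : Fin 4) : ℕ) + 2) = s ((a, b), 2) := by simp [sv]
  have s3 : sv s (a, b) (((1 : Fin 4) : ℕ) + 2) = s ((a, b), 3) := by simp [sv]
  have s4 : sv s (a, b) (((2 : Fin 4) : ℕ) + 2) = -s ((a, b), 0) := by simp [sv]
  have s5 : sv s (a, b) (((3 : Fin 4) : ℕ) + 2) = -s ((a, b), 1) := by simp [sv]
  rw [s2, s3, s5] at hre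
  rw [s3, s4, s5] at him
  have q0 := abs_le.1 (hq 0 0 2)
  have q1 := abs_le.1 (loc_mul_le (hq 1 1 3))
  have m00 := abs_le.1 (hm 0 0)
  have m02 := abs_le.1 (hm 2 0)
  have m11 := abs_le.1 (loc_mul_le (hm 1 1))
  have m13 := abs_le.1 (loc_mul_le (hm 3 1))
  have eR : ((fld s ((a, b) + uv 0) - fld s (a, b)) + Complex.I * (fld s ((a, b) + uv 1) - fld s (a, b))).re =
      Real.sqrt 2 / 2 * dif (dv 1) (mas s) ((a, b), 3) + Real.sqrt 2 / 2 * dif (dv 1) (mas s) ((a, b), 1) +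
        Real.sqrt 2 / 2 * dif (dv 3) (dif (dv 1) s) ((a, b), 1) - dif (dv 0) (mas s) ((a, b), 0) -
        dif (dv 2) (dif (dv 0) s) ((a, b), 0) := by
    simp only [Complex.add_re, Complex.mul_re, Complex.I_re, Complex.I_im, Complex.sub_re, Complex.sub_im, dif,
      add_dv_0, add_dv_1, add_dv_2, add_dv_3, add_uv_0, add_uv_1, sub_add_cancel, mas, cSol_0, cSol_1, cSol_3]
    linear_combination (-1) * him +
      (((fld s (a, b + 1)).im - (fld s (a, b)).im) / 2) * b1_r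
  have eI : ((fld s ((a, b) + uv 0) - fld s (a, b)) + Complex.I * (fld s ((a, b) + uv 1) - fld s (a, b))).im =
      dif (dv 0) (mas s) ((a, b), 2) + Real.sqrt 2 / 2 * dif (dv 1) (mas s) ((a, b), 1) -
        Real.sqrt 2 / 2 * dif (dv 1) (mas s) ((a, b), 3) +
        Real.sqrt 2 / 2 * dif (dv 3) (dif (dv 1) s) ((a, b), 1) := by
    simp only [Complex.add_im, Complex.mul_im, Complex.I_re, Complex.I_im, Complex.sub_re, Complex.sub_im, dif,
      add_dv_0, add_dv_1, add_dv_2, add_dv_3, add_uv_0, add_uv_1, sub_add_cancel, mas, cSol_1, cSol_2, cSol_3]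
    linear_combination (-1) * hre -
      (((fld s (a, b + 1)).re - (fld s (a, b)).re) / 2) * b1_r
  refine (Complex.norm_le_abs_re_add_abs_im _).trans ?_
  rw [eR, eI]
  have e1 : |Real.sqrt 2 / 2 * dif (dv 1) (mas s) ((a, b), 3) + Real.sqrt 2 / 2 * dif (dv 1) (mas s) ((a, b), 1) +
        Real.sqrt 2 / 2 * dif (dv 3) (dif (dv 1) s) ((a, b), 1) - dif (dv 0) (mas s) ((a, b), 0) -
        dif (dv 2) (dif (dv 0) s) ((a, b), 0)| ≤ 5 * K := by
    rw [abs_le]; constructor <;> linarith [q0.1, q0.2, q1.1, q1.2, m00.1, m00.2, m11.1, m11.2, m13.1, m13.2]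
  have e2 : |dif (dv 0) (mas s) ((a, b), 2) + Real.sqrt 2 / 2 * dif (dv 1) (mas s) ((a, b), 1) -
        Real.sqrt 2 / 2 * dif (dv 1) (mas s) ((a, b), 3) +
        Real.sqrt 2 / 2 * dif (dv 3) (dif (dv 1) s) ((a, b), 1)| ≤ 4 * K := by
    rw [abs_le]; constructor <;> linarith [q1.1, q1.2, m02.1, m02.2, m11.1, m11.2, m13.1, m13.2]
  linarith

/-- `interior` and `cr_eq`.  Write `s = cSol (fld s y) + mas s` at `y` and at `y + dv α`, `Δ α = fld s (y + dv α) - fld s y`;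
`∑ om ^ α * Re (Δ α * conj om ^ (α + 2)) = (I / 2) ∑ Δ α - (I / 2) conj (∑ Δ α * I ^ α)` (`om ^ 2 = -I`), and `Δ 0 + Δ 2`,
`Δ 1 + Δ 3` are second differences (`dif (dv 2) (dif (dv 0) s)`). -/
theorem fld_est : ∃ C : ℝ, ∀ (s : Fn) (x : Site) (R : ℕ) (M : ℝ), 1 ≤ R → SolOn wPl (box x (4 * R + 8)) s →
    SB (box x (4 * R + 8)) M s → ∀ y ∈ box x R, (∀ α, |mas s (y, α)| ≤ C * M / R) ∧
      (∀ j, ‖fld s (y + uv j) - fld s y‖ ≤ C * M / R) ∧
      (∀ i j, ‖(fld s (y + uv i + uv j) - fld s (y + uv i)) - (fld s (y + uv j) - fld s y)‖ ≤ C * M / (R : ℝ) ^ 2) ∧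
      ‖(fld s (y + uv 0) - fld s y) + Complex.I * (fld s (y + uv 1) - fld s y)‖ ≤ C * M / (R : ℝ) ^ 2 := by
  obtain ⟨C, hC⟩ := interior
  refine ⟨9 * C, fun s x R M hR hs hb y hy => ?_⟩
  have h := hC s x R M hR hs hb y hy
  have p1 : 0 ≤ C * M / R := (abs_nonneg _).trans (h 0 0 0 0).1
  have p2 : 0 ≤ C * M / (R : ℝ) ^ 2 := (abs_nonneg _).trans (h 0 0 0 0).2.1
  have e1 : 9 * C * M / R = 9 * (C * M / R) := by ring
  have e2 : 9 * C * M / (R : ℝ) ^ 2 = 9 * (C * M / (R : ℝ) ^ 2) := by ring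
  rw [e1, e2]
  refine ⟨fun α => ?_, fun j => ?_, fun i j => ?_, ?_⟩
  · linarith [(h α 0 0 0).2.2.2.1]
  · obtain ⟨β, hβ⟩ := loc_uv j
    rw [← loc_fld_dif, hβ]
    linarith [loc_fld_norm (dif (dv β) s) y fun α => (h α β 0 0).1]
  · obtain ⟨β, hβ⟩ := loc_uv j
    obtain ⟨γ, hγ⟩ := loc_uv i
    rw [← loc_fld_dif, ← loc_fld_dif, ← loc_fld_dif, hβ, hγ]
    linarith [loc_fld_norm (dif (dv γ) (dif (dv β) s)) y fun α => (h α β γ 0).2.1]
  · refine loc_cr s y (fun z hz => hs z ?_) (fun α β γ => (h α β γ 0).2.1) fun α β => (h α β 0 0).2.2.2.2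
    rw [Set.mem_singleton_iff.1 hz]
    exact box_mono x (by omega) hy

theorem locb_sq {u v M ε : ℝ} (hu : |u| ≤ M) (h : |u - v| ≤ ε) : |u ^ 2 - v ^ 2| ≤ ε * (2 * M + ε) := by
  rw [sq_sub_sq, abs_mul, mul_comm]
  refine mul_le_mul h ?_ (abs_nonneg _) ((abs_nonneg _).trans h)
  rw [abs_le] at *
  constructor <;> linarith [hu.1, hu.2, h.1, h.2]

/-- `IsH.white` on `W = {y, y + uv j}`: the increment is `(1 - tc²)(opp² - s²)`, `s ≈ Re u`, `opp ≈ -Im u` with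
`u = fld s y * conj om ^ j`, `u ^ 2 = fld ^ 2 * I ^ j`; errors from `interior` -/
theorem H_est : ∃ C : ℝ, ∀ (s : Fn) (x : Site) (R : ℕ) (M : ℝ), 1 ≤ R → SolOn wPl (box x (4 * R + 8)) s →
    SB (box x (4 * R + 8)) M s → ∀ y ∈ box x R, ∀ (j : Fin 2) (Hw Hb : Site → ℝ), IsH wPl s {y, y + uv j} Hw Hb →
      |Hw (y + uv j) - Hw y + (1 - tc ^ 2) * (fld s y ^ 2 * Complex.I ^ (j : ℕ)).re| ≤ C * M ^ 2 / R := by
  obtain ⟨C, hC⟩ := interior
  refine ⟨|C| * (6 + 5 * |C|), fun s x R M hR hs hM y hy j Hw Hb hH => ?_⟩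
  have hR' : (1 : ℝ) ≤ R := by exact_mod_cast hR
  have hy₁ : y ∈ box x (4 * R + 8) := box_mono x (by omega) hy
  have hM0 : 0 ≤ M := (abs_nonneg _).trans (hM y hy₁ 0)
  have hε : C * M / R ≤ |C| * M / R := by gcongr; exact le_abs_self C
  have hε' : |C| * M / R ≤ |C| * M := div_le_self (by positivity) hR'
  have key : ∀ α γ : Fin 4, uv j = dv α → opp s y α = s (y + dv α, γ) →
      (fld s y ^ 2 * Complex.I ^ (j : ℕ)).re = cSol (fld s y) (y, α) ^ 2 - cSol (fld s y) (y, γ) ^ 2 →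
      |Hw (y + uv j) - Hw y + (1 - tc ^ 2) * (fld s y ^ 2 * Complex.I ^ (j : ℕ)).re| ≤
        |C| * (6 + 5 * |C|) * M ^ 2 / R := fun α γ h₁ h₂ h₃ => by
    rw [h₁] at hH ⊢
    have hy₂ : y + dv α ∈ box x (4 * R + 8) := box_mono x (by omega) (add_dv_mem_box hy α)
    have hs' : SolOn wPl {y, y + dv α} s := fun z hz => hs z (by rcases hz with rfl | rfl <;> assumption)
    rw [hH.white hs' (Or.inl rfl) (Or.inr rfl), h₂, h₃]
    have e₁ := (hC s x R M hR hs hM y hy α 0 0 0).2.2.2.1.trans hε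
    have e₂ := (hC s x R M hR hs hM y hy γ α 0 0).2.2.2.1.trans hε
    have e₃ := (hC s x R M hR hs hM y hy γ α 0 0).1.trans hε
    have e₄ : |s (y + dv α, γ) - cSol (fld s y) (y, γ)| ≤ 2 * (|C| * M / R) :=
      (abs_sub_le _ (s (y, γ)) _).trans (by simp only [mas, dif] at e₂ e₃; linarith)
    have f₁ := locb_sq (hM y hy₁ α) e₁
    have f₂ := locb_sq (hM _ hy₂ γ) e₄
    have t₀ : 0 ≤ 1 - tc ^ 2 := by nlinarith [tc_pos.1, tc_pos.2]
    have t₁ : 1 - tc ^ 2 ≤ 1 := by nlinarith [tc_pos.1]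
    have hε0 : 0 ≤ |C| * M / R := by positivity
    rw [show (1 - wPl (edgeOf y α) ^ 2) = 1 - tc ^ 2 from rfl, ← mul_add, abs_mul, abs_of_nonneg t₀,
      show |C| * (6 + 5 * |C|) * M ^ 2 / R = |C| * M / R * (6 * M + 5 * (|C| * M)) by ring]
    refine (mul_le_of_le_one_left (abs_nonneg _) t₁).trans ?_
    have f₃ := mul_le_mul_of_nonneg_left hε' hε0
    rw [abs_le] at f₁ f₂ ⊢
    constructor <;> nlinarith [f₁.1, f₁.2, f₂.1, f₂.2]
  obtain ⟨a, b⟩ := y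
  fin_cases j
  · refine key 0 2 rfl (by rw [opp_0, add_dv_0]) ?_
    rw [cSol_0, cSol_2]
    simp [sq]
  · refine key 1 3 rfl (by rw [opp_1, add_dv_1]) ?_
    rw [cSol_1, cSol_3]
    simp only [pow_one, sq, Complex.mul_re, Complex.mul_im, Complex.I_re, Complex.I_im]
    linear_combination ((fld s (a, b)).re * (fld s (a, b)).im) * b1_r

theorem tc_norm : (1 - tc ^ 2) * (Real.sqrt 2 / (1 + tc ^ 2)) = 1 := by
  have h := tc_sq
  have h₁ : 1 + tc ^ 2 ≠ 0 := by positivity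
  have h₂ : Real.sqrt 2 = tc + 1 := by simp [tc]
  rw [h₂]
  field_simp
  linear_combination (-tc - 0) * h

end Crest.Agent.R165
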