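import Crest.Agent.R165.BC.Gauge
import Crest.Agent.R165.BC.Loc

/-! # R165/BC/Bulk (owner helper57).  Compactness in the bulk. -/

set_option autoImplicit false
noncomputable section
open Classical Filter Topology Metric ComplexConjugate

namespace Crest.Agent.R165

variable {U : Set ℂ} {a : ℕ → ℝ} {n : ℕ} {v : ℕ → Fin n → Site} {x : Fin n → ℂ} {E : ℕ → Set Edge} {s : ℕ → Fn}

theorem BulkSeq.subseq (h : BulkSeq U a v E s) {ψ : ℕ → ℕ} (hψ : StrictMono ψ) :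
    BulkSeq U (a ∘ ψ) (fun k => v (ψ k)) (fun k => E (ψ k)) fun k => s (ψ k) := by
  intro K hK hKU
  obtain ⟨C, hC⟩ := h K hK hKU
  exact ⟨C, hψ.tendsto_atTop.eventually hC⟩

theorem blk_radius {a δ : ℝ} (ha : 0 < a) (hδ : 0 < δ) (h : a < δ / 2) :
    ∃ r : ℕ, 1 ≤ r ∧ a * r ≤ δ ∧ δ ≤ 2 * a * r := by
  have h1 : (⌊δ / a⌋₊ : ℝ) ≤ δ / a := Nat.floor_le (by positivity)
  have h2 : δ / a < ⌊δ / a⌋₊ + 1 := Nat.lt_floor_add_one _
  rw [le_div_iff₀ ha] at h1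
  rw [div_lt_iff₀ ha] at h2
  refine ⟨⌊δ / a⌋₊, Nat.le_floor ?_, by linarith, by linarith⟩
  rw [le_div_iff₀ ha]
  push_cast
  linarith

theorem blk_dist {a : ℝ} (ha : 0 < a) {p q : Site} {r : ℕ} (hq : q ∈ box p r) (z : ℂ) :
    dist ((a : ℂ) * toC q) z ≤ 3 / 2 * (a * r) + dist ((a : ℂ) * toC p) z := by
  refine (dist_triangle _ ((a : ℂ) * toC p) _).trans (add_le_add ?_ le_rfl)
  rw [dist_eq_norm, ← mul_sub, norm_mul, Complex.norm_real, Real.norm_of_nonneg ha.le]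
  have h1 := dist_le_supd q p
  have h2 : (supd q p : ℝ) ≤ r := by exact_mod_cast mem_box_iff.1 hq
  nlinarith

theorem blk_div {a δ c C : ℝ} {r m : ℕ} (ha : 0 < a) (hδ : 0 < δ) (h1 : 1 ≤ r) (h : δ ≤ 2 * a * r)
    (hc : |c| * (2 / δ) ^ m ≤ C) : c / (r : ℝ) ^ m ≤ C * a ^ m := by
  have hr : (0 : ℝ) < r := by exact_mod_cast h1
  have h2 : (r : ℝ)⁻¹ ≤ 2 / δ * a := by
    rw [inv_eq_one_div, div_mul_eq_mul_div, div_le_div_iff₀ hr hδ]
    linarith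
  calc c / (r : ℝ) ^ m ≤ |c| * ((r : ℝ)⁻¹) ^ m := by
        rw [div_eq_mul_inv, inv_pow]
        exact mul_le_mul_of_nonneg_right (le_abs_self c) (by positivity)
    _ ≤ |c| * (2 / δ * a) ^ m := by gcongr
    _ = |c| * (2 / δ) ^ m * a ^ m := by rw [mul_pow, mul_assoc]
    _ ≤ C * a ^ m := by gcongr

/-- part a.  `loc_gauge` at `z₀`, shrink `δ` so that `closedBall z₀ (20 δ) ⊆ U` lies in its ball; for `p` in the small ball use
`fld_est`, `H_est` for `gaugeF (σ k) (s k)` with centre `p` and `R = ⌊δ / a k⌋₊` (so `1 / R ≤ 2 a k / δ` eventually). -/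
theorem bulk_loc (hU : IsOpen U) (ha : ∀ k, 0 < a k) (ha0 : Tendsto a atTop (𝓝 0))
    (hv : ∀ᶠ k in atTop, Function.Injective (v k)) (hx : ∀ i, PtLim a (fun k => v k i) (x i)) (hxU : ∀ i, x i ∉ U)
    (h : BulkSeq U a v E s) {z₀ : ℂ} (hz : z₀ ∈ U) :
    ∃ δ > 0, ∃ (C : ℝ) (R : ℂ → ℂ) (σ : ℕ → Site → ℝ), ball z₀ δ ⊆ U ∧ DifferentiableOn ℂ R (ball z₀ δ) ∧
      (∀ z ∈ ball z₀ δ, R z ^ 2 = rhoX x z ∧ R z ≠ 0) ∧ (∀ k, IsSign (σ k)) ∧
      CLim a (ball z₀ δ) (fun k p => ((a k ^ ((n : ℝ) / 2) : ℝ) : ℂ) * σ k p * ∏ u ∈ spinsOf (v k), rt (pos p - toC u)) R ∧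
      ∀ᶠ k in atTop, ∀ p, dist ((a k : ℂ) * toC p) z₀ < δ → ‖fld (s k) p‖ ≤ C ∧ (∀ α, |mas (s k) (p, α)| ≤ C * a k) ∧
        ((∀ j, ‖fld (gaugeF (σ k) (s k)) (p + uv j) - fld (gaugeF (σ k) (s k)) p‖ ≤ C * a k) ∧
        (∀ i j, ‖(fld (gaugeF (σ k) (s k)) (p + uv i + uv j) - fld (gaugeF (σ k) (s k)) (p + uv i)) -
          (fld (gaugeF (σ k) (s k)) (p + uv j) - fld (gaugeF (σ k) (s k)) p)‖ ≤ C * a k ^ 2) ∧
        ‖(fld (gaugeF (σ k) (s k)) (p + uv 0) - fld (gaugeF (σ k) (s k)) p) +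
          Complex.I * (fld (gaugeF (σ k) (s k)) (p + uv 1) - fld (gaugeF (σ k) (s k)) p)‖ ≤ C * a k ^ 2) ∧
        ∀ (j : Fin 2) (Hw Hb : Site → ℝ), IsH (wOf (E k) (spinsOf (v k))) (s k) {p, p + uv j} Hw Hb →
          |Hw (p + uv j) - Hw p + (1 - tc ^ 2) * (fld (s k) p ^ 2 * Complex.I ^ (j : ℕ)).re| ≤ C * a k := by
  obtain ⟨δ₁, hδ₁, R, σ, hRd, hR2, hσ, hσe, hCL⟩ := loc_gauge ha ha0 v hv x hx (z₀ := z₀) fun i hi => hxU i (hi ▸ hz)
  obtain ⟨δ₂, hδ₂, hb⟩ := Metric.isOpen_iff.1 hU z₀ hz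
  obtain ⟨δ, hδ, h1, h2⟩ : ∃ δ : ℝ, 0 < δ ∧ 20 * δ < δ₁ ∧ 20 * δ < δ₂ :=
    ⟨min δ₁ δ₂ / 40, by positivity, by linarith [min_le_left δ₁ δ₂], by linarith [min_le_right δ₁ δ₂]⟩
  obtain ⟨M, hM⟩ := h (closedBall z₀ (20 * δ)) (isCompact_closedBall _ _) ((closedBall_subset_ball h2).trans hb)
  obtain ⟨C₁, hC₁⟩ := fld_est
  obtain ⟨C₂, hC₂⟩ := H_est
  have hs1 : ball z₀ δ ⊆ ball z₀ δ₁ := ball_subset_ball (by linarith)
  obtain ⟨C, c0, c1, c2, c3⟩ : ∃ C : ℝ, 2 * M ≤ C ∧ |C₁ * M| * (2 / δ) ^ 1 ≤ C ∧ |C₁ * M| * (2 / δ) ^ 2 ≤ C ∧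
      |C₂ * M ^ 2| * (2 / δ) ^ 1 ≤ C :=
    ⟨max (max (2 * M) (|C₁ * M| * (2 / δ) ^ 1)) (max (|C₁ * M| * (2 / δ) ^ 2) (|C₂ * M ^ 2| * (2 / δ) ^ 1)),
      le_max_of_le_left (le_max_left _ _), le_max_of_le_left (le_max_right _ _),
      le_max_of_le_right (le_max_left _ _), le_max_of_le_right (le_max_right _ _)⟩
  refine ⟨δ, hδ, C, R, σ, (ball_subset_ball (by linarith)).trans hb, hRd.mono hs1, fun z hz => hR2 z (hs1 hz), hσ,
    hCL.mono hs1, ?_⟩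
  filter_upwards [hM, hσe, ha0.eventually (gt_mem_nhds (half_pos hδ))] with k ⟨hcr, hsol, hsb⟩ he hak p hp
  have hk := ha k
  obtain ⟨r, r1, r2, r3⟩ := blk_radius hk hδ hak
  have hd : ∀ q ∈ box p (4 * r + 9), dist ((a k : ℂ) * toC q) z₀ < 20 * δ := fun q hq => by
    have := blk_dist hk hq z₀
    push_cast at this
    nlinarith
  have hK : ∀ q ∈ box p (4 * r + 8), q ∈ {q | (a k : ℂ) * toC q ∈ closedBall z₀ (20 * δ)} := fun q hq =>
    (hd q (box_mono p (by omega) hq)).le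
  have hw : ∀ q ∈ box p (4 * r + 8), ∀ α,
      wPl (edgeOf q α) = gaugeW (σ k) (wOf (E k) (spinsOf (v k))) (edgeOf q α) := fun q hq α => by
    have e0 : box q 1 ⊆ box p (4 * r + 9) := box_sub hq (by omega)
    have e1 := he (edgeOf q α) ((hd _ (e0 (edgeOf_fst_mem_box q α))).trans h1)
    rw [gaugeW, wOf, if_pos (hcr q (hK q hq) α), mul_left_comm, e1, mul_one, wPl]
  have hS : SolOn wPl (box p (4 * r + 8)) (gaugeF (σ k) (s k)) :=
    SolOn.gauge (hσ k) (fun q hq α => hsol q (hK q hq) α) hw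
  have hB : SB (box p (4 * r + 8)) M (gaugeF (σ k) (s k)) := fun q hq α => by
    rw [abs_gaugeF (hσ k)]
    exact hsb q (hK q hq) α
  obtain ⟨g1, g2, g3, g4⟩ := hC₁ _ p r M r1 hS hB p (self_mem_box p r)
  have b1 : C₁ * M / r ≤ C * a k := by simpa using blk_div hk hδ r1 r3 c1
  have b2 : C₁ * M / (r : ℝ) ^ 2 ≤ C * a k ^ 2 := blk_div hk hδ r1 r3 c2
  have b3 : C₂ * M ^ 2 / r ≤ C * a k := by simpa using blk_div hk hδ r1 r3 c3
  refine ⟨(norm_fld_le (hsb p (hK p (self_mem_box _ _)))).trans c0, fun α => ?_,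
    ⟨fun j => (g2 j).trans b1, fun i j => (g3 i j).trans b2, g4.trans b2⟩, fun j Hw Hb hH => ?_⟩
  · have := (g1 α).trans b1
    rw [mas_gauge, abs_mul] at this
    rcases hσ k p with e | e <;> simpa [e] using this
  · have hj : p + uv j ∈ box p 1 := by
      fin_cases j <;> simp [mem_box', uv] <;> omega
    have := (hC₂ _ p r M r1 hS hB p (self_mem_box p r) j Hw Hb (hH.gauge (hσ k) fun q hq α => hw q (by
      rcases hq with rfl | rfl
      · exact self_mem_box _ _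
      · exact box_mono p (by omega) hj) α)).trans b3
    rw [fld_gauge, mul_pow] at this
    rcases hσ k p with e | e <;> simpa [e] using this

theorem bulk_gF_eq {σ : Site → ℝ} (hσ : IsSign σ) (a : ℝ) (v : Fin n → Site) (s : Fn) (p : Site) :
    gF a v s p = fld (gaugeF σ s) p *
      (((a ^ ((n : ℝ) / 2) : ℝ) : ℂ) * σ p * ∏ u ∈ spinsOf v, rt (pos p - toC u)) := by
  rw [fld_gauge, gF, gfld]
  rcases hσ p with h | h <;> rw [h] <;> push_cast <;> ring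

theorem bulk_norm_gauge {σ : Site → ℝ} (hσ : IsSign σ) (s : Fn) (p : Site) : ‖fld (gaugeF σ s) p‖ = ‖fld s p‖ := by
  rw [fld_gauge]
  rcases hσ p with h | h <;> rw [h] <;> simp

theorem bulk_sq_gauge {σ : Site → ℝ} (hσ : IsSign σ) (s : Fn) (p : Site) : fld (gaugeF σ s) p ^ 2 = fld s p ^ 2 := by
  rw [fld_gauge]
  rcases hσ p with h | h <;> rw [h] <;> simp

/-- part b.  Near `z₀`: `gF = fld (gaugeF σ s) * R_k` (`σ² = 1`).  `clim_compact` (`equi_of_steps` for the first factor,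
`CLim.unif` for the second).  Then `fld (gaugeF σ s) → g / R` on the ball, holomorphic by `clim_hol`, and
`fld s ^ 2 = fld (gaugeF σ s) ^ 2 → g ^ 2 / rhoX`. -/
theorem lim_bulk0 (hU : IsOpen U) (ha : ∀ k, 0 < a k) (ha0 : Tendsto a atTop (𝓝 0))
    (hv : ∀ᶠ k in atTop, Function.Injective (v k)) (hx : ∀ i, PtLim a (fun k => v k i) (x i)) (hxU : ∀ i, x i ∉ U)
    (h : BulkSeq U a v E s) : ∃ (ψ : ℕ → ℕ) (g : ℂ → ℂ), StrictMono ψ ∧ DifferentiableOn ℂ g U ∧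
      CLim (a ∘ ψ) U (fun k => gF (a (ψ k)) (v (ψ k)) (s (ψ k))) g ∧
      CLim (a ∘ ψ) U (fun k p => fld (s (ψ k)) p ^ 2) (fun z => g z ^ 2 / rhoX x z) ∧
      CLim (a ∘ ψ) U (fun k p α => mas (s (ψ k)) (p, α)) fun _ => 0 := by
  obtain ⟨ψ, g, hψ, hg⟩ := clim_compact (U := U) ha ha0 (fun k => gF (a k) (v k) (s k)) (by
      intro z hz
      obtain ⟨δ, hδ, C, R, σ, -, -, -, hσ, hR, hev⟩ := bulk_loc hU ha ha0 hv hx hxU h hz
      obtain ⟨δ', hδ', h1⟩ := hR.unif ha ha0 (mem_ball_self hδ) one_pos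
      refine ⟨C * (‖R z‖ + 1), min δ δ', lt_min hδ hδ', ?_⟩
      filter_upwards [hev, h1] with k hk hk1 p hp
      have h2 := (hk p (hp.trans_le (min_le_left _ _))).1
      have h3 := hk1 p (hp.trans_le (min_le_right _ _))
      rw [bulk_gF_eq (hσ k), norm_mul, bulk_norm_gauge (hσ k)]
      rw [dist_eq_norm] at h3
      refine mul_le_mul h2 ?_ (norm_nonneg _) ((norm_nonneg _).trans h2)
      have := norm_le_norm_add_norm_sub' (((a k ^ ((n : ℝ) / 2) : ℝ) : ℂ) * σ k p *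
        ∏ u ∈ spinsOf (v k), rt (pos p - toC u)) (R z)
      linarith) (by
      intro z hz ε hε
      obtain ⟨δ, hδ, C, R, σ, -, -, -, hσ, hR, hev⟩ := bulk_loc hU ha ha0 hv hx hxU h hz
      have hA : 0 < ‖R z‖ + 1 := by positivity
      have hB : 0 < |C| + 1 := by positivity
      obtain ⟨δ₁, hδ₁, h1⟩ := hR.unif ha ha0 (mem_ball_self hδ) (ε := min 1 (ε / (4 * (|C| + 1)))) (by positivity)
      obtain ⟨δ₂, hδ₂, h2⟩ := equi_of_steps ha ha0 (fun k => fld (gaugeF (σ k) (s k))) (z := z) (C := C) hδ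
        (by filter_upwards [hev] with k hk p j hp using (hk p hp).2.2.1.1 j) (ε / (2 * (‖R z‖ + 1))) (by positivity)
      refine ⟨min δ (min δ₁ δ₂), lt_min hδ (lt_min hδ₁ hδ₂), ?_⟩
      filter_upwards [hev, h1, h2] with k hk hk1 hk2 p q hp hq
      simp only [lt_min_iff] at hp hq
      have e1 := hk1 p hp.2.1
      have e2 := hk1 q hq.2.1
      have e3 := hk2 p q hp.2.2 hq.2.2
      have e4 := (hk q hq.1).1
      rw [← bulk_norm_gauge (hσ k)] at e4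
      rw [bulk_gF_eq (hσ k), bulk_gF_eq (hσ k)]
      generalize (((a k ^ ((n : ℝ) / 2) : ℝ) : ℂ) * σ k p * ∏ u ∈ spinsOf (v k), rt (pos p - toC u)) = P at e1 ⊢
      generalize (((a k ^ ((n : ℝ) / 2) : ℝ) : ℂ) * σ k q * ∏ u ∈ spinsOf (v k), rt (pos q - toC u)) = Q at e2 ⊢
      generalize fld (gaugeF (σ k) (s k)) p = f at e3 ⊢
      generalize fld (gaugeF (σ k) (s k)) q = f' at e3 e4 ⊢
      rw [dist_eq_norm, lt_min_iff] at e1 e2
      have hP : ‖P‖ ≤ ‖R z‖ + 1 := by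
        have := norm_le_norm_add_norm_sub' P (R z); linarith [e1.1]
      have hPQ : ‖P - Q‖ ≤ 2 * (ε / (4 * (|C| + 1))) := by
        have := norm_sub_le_norm_sub_add_norm_sub P (R z) Q
        rw [norm_sub_rev (R z) Q] at this
        linarith [e1.2, e2.2]
      have hf' : ‖f'‖ ≤ |C| + 1 := by linarith [le_abs_self C]
      calc ‖f * P - f' * Q‖ = ‖(f - f') * P + f' * (P - Q)‖ := by congr 1; ring
        _ ≤ ‖f - f'‖ * ‖P‖ + ‖f'‖ * ‖P - Q‖ := by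
          refine (norm_add_le _ _).trans ?_
          rw [norm_mul, norm_mul]
        _ ≤ ε / (2 * (‖R z‖ + 1)) * (‖R z‖ + 1) + (|C| + 1) * (2 * (ε / (4 * (|C| + 1)))) := by
          gcongr
        _ = ε := by field_simp; ring)
  have ha' : ∀ k, 0 < (a ∘ ψ) k := fun k => ha _
  have ha0' : Tendsto (a ∘ ψ) atTop (𝓝 0) := ha0.comp hψ.tendsto_atTop
  have key : ∀ z₀ ∈ U, DifferentiableAt ℂ g z₀ ∧ ∀ u : ℕ → Site, PtLim (a ∘ ψ) u z₀ →
      Tendsto (fun k => fld (s (ψ k)) (u k) ^ 2) atTop (𝓝 (g z₀ ^ 2 / rhoX x z₀)) ∧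
      Tendsto (fun k α => mas (s (ψ k)) (u k, α)) atTop (𝓝 0) := by
    intro z₀ hz
    obtain ⟨δ, hδ, C, R, σ, hsub, hRd, hR2, hσ, hR, hev⟩ := bulk_loc hU ha ha0 hv hx hxU h hz
    have hR' := hR.subseq ha ha0 hψ
    have hev' := hψ.tendsto_atTop.eventually hev
    have hf : CLim (a ∘ ψ) (ball z₀ δ) (fun k => fld (gaugeF (σ (ψ k)) (s (ψ k)))) fun z => g z / R z := by
      intro z hzb u hu
      have h1 := hg z (hsub hzb) u hu
      have h2 := hR' z hzb u hu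
      refine (h1.div h2 (hR2 z hzb).2).congr' ?_
      filter_upwards [h2.eventually_ne (hR2 z hzb).2] with k hk
      simp only [Pi.div_apply]
      rw [bulk_gF_eq (hσ (ψ k)), mul_div_assoc, div_self hk, mul_one]
    have hd := clim_hol (C := C) ha' ha0' hδ hf (by filter_upwards [hev'] with k hk p hp using (hk p hp).2.2.1)
    refine ⟨?_, fun u hu => ⟨?_, ?_⟩⟩
    · have : DifferentiableOn ℂ g (ball z₀ δ) :=
        (hd.mul hRd).congr fun z hzb => by simp only [Pi.mul_apply]; rw [div_mul_cancel₀ _ (hR2 z hzb).2]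
      exact this.differentiableAt (ball_mem_nhds _ hδ)
    · have h1 := (hf z₀ (mem_ball_self hδ) u hu).pow 2
      simp only [bulk_sq_gauge (hσ _)] at h1
      rwa [div_pow, (hR2 z₀ (mem_ball_self hδ)).1] at h1
    · rw [tendsto_pi_nhds]
      intro α
      have h0 : Tendsto (fun k => C * a (ψ k)) atTop (𝓝 0) := by simpa using ha0'.const_mul C
      refine squeeze_zero_norm' ?_ h0
      filter_upwards [hev', hu.eventually (ball_mem_nhds _ hδ)] with k hk hk'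
      exact (hk (u k) hk').2.1 α
  exact ⟨ψ, g, hψ, fun z hz => (key z hz).1.differentiableWithinAt, hg, fun z hz u hu => ((key z hz).2 u hu).1,
    fun z hz u hu => ((key z hz).2 u hu).2⟩

theorem bulkc_norm_uv (j : Fin 2) : ‖toC (uv j)‖ = 1 := by
  fin_cases j
  · have : toC (uv 0) = 1 := by simp [toC, uv, Complex.ext_iff]
    simpa using congrArg norm this
  · have : toC (uv 1) = Complex.I := by simp [toC, uv, Complex.ext_iff]
    simpa using congrArg norm this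

theorem bulkc_loc (hU : IsOpen U) (ha : ∀ k, 0 < a k) (ha0 : Tendsto a atTop (𝓝 0))
    (hv : ∀ᶠ k in atTop, Function.Injective (v k)) (hx : ∀ i, PtLim a (fun k => v k i) (x i)) (hxU : ∀ i, x i ∉ U)
    (h : BulkSeq U a v E s) (Hw Hb : ℕ → Site → ℝ)
    (hH : ∀ K, IsCompact K → K ⊆ U → ∃ C : ℝ, ∀ᶠ k in atTop,
      IsH (wOf (E k) (spinsOf (v k))) (s k) {p | (a k : ℂ) * toC p ∈ K} (Hw k) (Hb k) ∧
      ∀ p, (a k : ℂ) * toC p ∈ K → |a k * Hw k p| ≤ C) {z : ℂ} (hz : z ∈ U) :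
    ∃ δ > 0, ∃ C : ℝ, ∀ᶠ k in atTop, ∀ p, dist ((a k : ℂ) * toC p) z < δ → ‖fld (s k) p‖ ≤ C ∧
      |a k * Hw k p| ≤ C ∧ ∀ j : Fin 2,
        |Hw k (p + uv j) - Hw k p + (1 - tc ^ 2) * (fld (s k) p ^ 2 * Complex.I ^ (j : ℕ)).re| ≤ C * a k := by
  obtain ⟨δ, hδ, C, R, σ, hb, -, -, -, -, hev⟩ := bulk_loc hU ha ha0 hv hx hxU h hz
  obtain ⟨C', hC'⟩ := hH (closedBall z (δ / 2)) (isCompact_closedBall _ _)
    ((closedBall_subset_ball (by linarith)).trans hb)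
  refine ⟨δ / 4, by linarith, max C C', ?_⟩
  filter_upwards [hev, hC', ha0.eventually (gt_mem_nhds (show (0 : ℝ) < δ / 4 by linarith))] with k h1 h2 h3 p hp
  obtain ⟨h4, -, -, h5⟩ := h1 p (by linarith)
  have m1 : (a k : ℂ) * toC p ∈ closedBall z (δ / 2) := mem_closedBall.2 (by linarith)
  refine ⟨h4.trans (le_max_left _ _), (h2.2 p m1).trans (le_max_right _ _), fun j => ?_⟩
  have m2 : (a k : ℂ) * toC (p + uv j) ∈ closedBall z (δ / 2) := by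
    rw [mem_closedBall, toC_add, mul_add]
    have e : dist ((a k : ℂ) * toC p + a k * toC (uv j)) ((a k : ℂ) * toC p) = a k := by
      rw [dist_eq_norm, add_sub_cancel_left, norm_mul, bulkc_norm_uv, mul_one, Complex.norm_real,
        Real.norm_of_nonneg (ha k).le]
    linarith [dist_triangle ((a k : ℂ) * toC p + a k * toC (uv j)) ((a k : ℂ) * toC p) z]
  refine (h5 j (Hw k) (Hb k) fun y hy => h2.1 y ?_).trans
    (mul_le_mul_of_nonneg_right (le_max_left _ _) (ha k).le)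
  rcases hy with rfl | rfl
  · exact m1
  · exact m2

/-- part c.  The difference quotients of `hF` converge to `-Re (F z * I ^ j)` (last item of `bulk_loc`, `tc_norm`);
`clim_compact` with `equi_of_steps`, then `clim_hasFDerivAt`. -/
theorem lim_H (hU : IsOpen U) (ha : ∀ k, 0 < a k) (ha0 : Tendsto a atTop (𝓝 0))
    (hv : ∀ᶠ k in atTop, Function.Injective (v k)) (hx : ∀ i, PtLim a (fun k => v k i) (x i)) (hxU : ∀ i, x i ∉ U)
    (h : BulkSeq U a v E s) {F : ℂ → ℂ} (hF' : CLim a U (fun k p => fld (s k) p ^ 2) F) (Hw Hb : ℕ → Site → ℝ)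
    (hH : ∀ K, IsCompact K → K ⊆ U → ∃ C : ℝ, ∀ᶠ k in atTop,
      IsH (wOf (E k) (spinsOf (v k))) (s k) {p | (a k : ℂ) * toC p ∈ K} (Hw k) (Hb k) ∧
      ∀ p, (a k : ℂ) * toC p ∈ K → |a k * Hw k p| ≤ C) :
    ∃ (ψ : ℕ → ℕ) (h : ℂ → ℝ), StrictMono ψ ∧ CLim (a ∘ ψ) U (fun k => hF (a (ψ k)) (Hw (ψ k))) h ∧
      ∀ z ∈ U, HasFDerivAt h (nre (F z)) z := by
  obtain ⟨c, hc⟩ : ∃ c : ℝ, c = Real.sqrt 2 / (1 + tc ^ 2) := ⟨_, rfl⟩
  have hc0 : 0 ≤ c := by rw [hc]; positivity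
  have hcn : (1 - tc ^ 2) * c = 1 := by rw [hc]; exact tc_norm
  have hq : ∀ k p (j : Fin 2), (a k)⁻¹ • (hF (a k) (Hw k) (p + uv j) - hF (a k) (Hw k) p) =
      (Hw k (p + uv j) - Hw k p + (1 - tc ^ 2) * (fld (s k) p ^ 2 * Complex.I ^ (j : ℕ)).re) * c -
        (fld (s k) p ^ 2 * Complex.I ^ (j : ℕ)).re := by
    intro k p j
    have := (ha k).ne'
    simp only [hF, ← hc, smul_eq_mul]
    field_simp
    linear_combination (-(fld (s k) p ^ 2 * Complex.I ^ (j : ℕ)).re) * hcn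
  obtain ⟨ψ, f, hψ, hf⟩ := clim_compact (U := U) ha ha0 (fun k => hF (a k) (Hw k)) (fun z hz => by
      obtain ⟨δ, hδ, C, hC⟩ := bulkc_loc hU ha ha0 hv hx hxU h Hw Hb hH hz
      refine ⟨C * c, δ, hδ, hC.mono fun k hk p hp => ?_⟩
      rw [hF, ← hc, Real.norm_eq_abs, abs_mul, abs_of_nonneg hc0]
      exact mul_le_mul_of_nonneg_right (hk p hp).2.1 hc0) (fun z hz => by
      obtain ⟨δ, hδ, C, hC⟩ := bulkc_loc hU ha ha0 hv hx hxU h Hw Hb hH hz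
      refine equi_of_steps ha ha0 _ (C := C * c + C ^ 2) hδ ?_
      filter_upwards [hC, ha0.eventually (gt_mem_nhds one_pos)] with k hk hk1 p j hp
      obtain ⟨h1, -, h2⟩ := hk p hp
      have hC0 : 0 ≤ C := (norm_nonneg _).trans h1
      have e : hF (a k) (Hw k) (p + uv j) - hF (a k) (Hw k) p =
          a k • ((a k)⁻¹ • (hF (a k) (Hw k) (p + uv j) - hF (a k) (Hw k) p)) := by
        rw [smul_inv_smul₀ (ha k).ne']
      rw [e, hq, norm_smul, Real.norm_of_nonneg (ha k).le, mul_comm]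
      refine mul_le_mul_of_nonneg_right ((norm_sub_le _ _).trans (add_le_add ?_ ?_)) (ha k).le
      · rw [Real.norm_eq_abs, abs_mul, abs_of_nonneg hc0]
        exact mul_le_mul_of_nonneg_right ((h2 j).trans (mul_le_of_le_one_right hC0 hk1.le)) hc0
      · refine (Complex.abs_re_le_norm _).trans ?_
        rw [norm_mul, norm_pow, norm_pow, Complex.norm_I, one_pow, mul_one]
        exact pow_le_pow_left₀ (norm_nonneg _) h1 2)
  have hd : ∀ j : Fin 2, CLim a U (fun k p => (a k)⁻¹ • (hF (a k) (Hw k) (p + uv j) - hF (a k) (Hw k) p))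
      fun z => -(F z * Complex.I ^ (j : ℕ)).re := by
    intro j z hz u hu
    obtain ⟨δ, hδ, C, hC⟩ := bulkc_loc hU ha ha0 hv hx hxU h Hw Hb hH hz
    simp only [hq]
    rw [← zero_sub, ← zero_mul c]
    refine Tendsto.sub (Tendsto.mul_const c ?_)
      ((Complex.continuous_re.tendsto _).comp ((hF' z hz u hu).mul_const _))
    refine squeeze_zero_norm' ?_ (by simpa using ha0.const_mul C)
    filter_upwards [hC, (Metric.tendsto_nhds.1 hu) δ hδ] with k hk hk1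
    exact (hk _ hk1).2.2 j
  refine ⟨ψ, f, hψ, hf, fun z hz => ?_⟩
  have := clim_hasFDerivAt hU (fun k => ha (ψ k)) (ha0.comp hψ.tendsto_atTop) hf
    (fun j z => -(F z * Complex.I ^ (j : ℕ)).re) (fun j => (hd j).subseq ha ha0 hψ) hz
  refine this.congr_fderiv ?_
  ext w
  simp
  ring

/-- part c: `lim_bulk0`, then `lim_H` along the subsequence (`CLim.subseq`, `BulkSeq.subseq`, `PtLim.subseq`) -/
theorem lim_bulk1 (hU : IsOpen U) (ha : ∀ k, 0 < a k) (ha0 : Tendsto a atTop (𝓝 0))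
    (hv : ∀ᶠ k in atTop, Function.Injective (v k)) (hx : ∀ i, PtLim a (fun k => v k i) (x i)) (hxU : ∀ i, x i ∉ U)
    (h : BulkSeq U a v E s) (Hw Hb : ℕ → Site → ℝ)
    (hH : ∀ K, IsCompact K → K ⊆ U → ∃ C : ℝ, ∀ᶠ k in atTop,
      IsH (wOf (E k) (spinsOf (v k))) (s k) {p | (a k : ℂ) * toC p ∈ K} (Hw k) (Hb k) ∧
      ∀ p, (a k : ℂ) * toC p ∈ K → |a k * Hw k p| ≤ C) :
    ∃ (ψ : ℕ → ℕ) (g : ℂ → ℂ) (h : ℂ → ℝ), StrictMono ψ ∧ DifferentiableOn ℂ g U ∧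
      CLim (a ∘ ψ) U (fun k => gF (a (ψ k)) (v (ψ k)) (s (ψ k))) g ∧
      CLim (a ∘ ψ) U (fun k p => fld (s (ψ k)) p ^ 2) (fun z => g z ^ 2 / rhoX x z) ∧
      CLim (a ∘ ψ) U (fun k p α => mas (s (ψ k)) (p, α)) (fun _ => 0) ∧
      CLim (a ∘ ψ) U (fun k => hF (a (ψ k)) (Hw (ψ k))) h ∧
      ∀ z ∈ U, HasFDerivAt h (nre (g z ^ 2 / rhoX x z)) z := by
  obtain ⟨ψ, g, hψ, hg, h1, h2, h3⟩ := lim_bulk0 hU ha ha0 hv hx hxU h
  have ha' : ∀ k, 0 < (a ∘ ψ) k := fun k => ha _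
  have ha0' : Tendsto (a ∘ ψ) atTop (𝓝 0) := ha0.comp hψ.tendsto_atTop
  obtain ⟨φ, f, hφ, h4, h5⟩ := lim_H (v := fun k => v (ψ k)) (E := fun k => E (ψ k)) (s := fun k => s (ψ k))
    hU ha' ha0' (hψ.tendsto_atTop.eventually hv) (fun i => (hx i).subseq hψ) hxU (h.subseq hψ) h2
    (fun k => Hw (ψ k)) (fun k => Hb (ψ k)) fun K hK hKU => by
      obtain ⟨C, hC⟩ := hH K hK hKU
      exact ⟨C, hψ.tendsto_atTop.eventually hC⟩
  exact ⟨ψ ∘ φ, g, f, hψ.comp hφ, hg, h1.subseq ha' ha0' hφ, h2.subseq ha' ha0' hφ, h3.subseq ha' ha0' hφ, h4, h5⟩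

end Crest.Agent.R165
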