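import Crest.Agent.R165.BC.Osc

/-! # R165/BC/CLim (owner helper57).  Continuous convergence of lattice functions (pure analysis). -/

set_option autoImplicit false
noncomputable section
open Classical Filter Topology Metric ComplexConjugate

namespace Crest.Agent.R165

variable {a : ℕ → ℝ} {U : Set ℂ} {β : Type}

/-- part a -/
theorem exists_ptLim (ha : ∀ k, 0 < a k) (ha0 : Tendsto a atTop (𝓝 0)) (z : ℂ) : ∃ v, PtLim a v z := by
  choose v hv using fun k => exists_site (z / a k)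
  refine ⟨v, tendsto_iff_norm_sub_tendsto_zero.2 (squeeze_zero (fun _ => norm_nonneg _) (fun k => ?_) ha0)⟩
  have h0 : (a k : ℂ) ≠ 0 := Complex.ofReal_ne_zero.2 (ha k).ne'
  rw [← mul_div_cancel₀ z h0, ← mul_sub, norm_mul, Complex.norm_real, Real.norm_of_nonneg (ha k).le]
  exact mul_le_of_le_one_right (ha k).le (hv k)

theorem PtLim.add_const (ha0 : Tendsto a atTop (𝓝 0)) {v : ℕ → Site} {z : ℂ} (h : PtLim a v z) (c : Site) :
    PtLim a (fun k => v k + c) z := by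
  have := Tendsto.add h (((Complex.continuous_ofReal.tendsto' 0 0 rfl).comp ha0).mul_const (toC c))
  simpa [PtLim, toC_add, mul_add] using this

theorem PtLim.subseq {v : ℕ → Site} {z : ℂ} (h : PtLim a v z) {ψ : ℕ → ℕ} (hψ : StrictMono ψ) :
    PtLim (a ∘ ψ) (fun k => v (ψ k)) z := by
  exact Tendsto.comp h hψ.tendsto_atTop

/-- part a.  Extend `v` from the range of `ψ` by a sequence from `exists_ptLim` (`Function.extend`) -/
theorem CLim.subseq [TopologicalSpace β] {F : ℕ → Site → β} {f : ℂ → β} (ha : ∀ k, 0 < a k)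
    (ha0 : Tendsto a atTop (𝓝 0)) (h : CLim a U F f) {ψ : ℕ → ℕ} (hψ : StrictMono ψ) :
    CLim (a ∘ ψ) U (fun k => F (ψ k)) f := by
  intro z hz v hv
  obtain ⟨w, hw⟩ := exists_ptLim ha ha0 z
  have hu : PtLim a (Function.extend ψ v w) z := fun s hs => by
    obtain ⟨N, hN⟩ := eventually_atTop.1 (hv hs)
    rw [mem_map]
    filter_upwards [mem_map.1 (hw hs), eventually_ge_atTop (ψ N)] with n h1 h2
    by_cases hn : ∃ k, ψ k = n
    · obtain ⟨k, rfl⟩ := hn
      simpa [hψ.injective.extend_apply] using hN k (hψ.le_iff_le.1 h2)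
    · simpa [Function.extend_apply' _ _ _ hn] using h1
  simpa [Function.comp_def, hψ.injective.extend_apply] using (h z hz _ hu).comp hψ.tendsto_atTop

theorem CLim.mono [TopologicalSpace β] {F : ℕ → Site → β} {f : ℂ → β} {U' : Set ℂ} (h : CLim a U F f) (hU : U' ⊆ U) :
    CLim a U' F f := fun z hz => h z (hU hz)

theorem CLim.unique [TopologicalSpace β] [T2Space β] {F : ℕ → Site → β} {f f' : ℂ → β} (ha : ∀ k, 0 < a k)
    (ha0 : Tendsto a atTop (𝓝 0)) (h : CLim a U F f) (h' : CLim a U F f') : Set.EqOn f f' U := by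
  intro z hz
  obtain ⟨v, hv⟩ := exists_ptLim ha ha0 z
  exact tendsto_nhds_unique (h z hz v hv) (h' z hz v hv)

/-- part a.  Otherwise `extraction_forall_of_frequently` gives `ψ` and sites `p k` with `dist < 1 / (k + 1)`; use `CLim.subseq` -/
theorem CLim.unif [PseudoMetricSpace β] {F : ℕ → Site → β} {f : ℂ → β} (ha : ∀ k, 0 < a k)
    (ha0 : Tendsto a atTop (𝓝 0)) (h : CLim a U F f) {z : ℂ} (hz : z ∈ U) {ε : ℝ} (hε : 0 < ε) :
    ∃ δ > 0, ∀ᶠ k in atTop, ∀ p, dist ((a k : ℂ) * toC p) z < δ → dist (F k p) (f z) < ε := by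
  by_contra hc
  have hc' : ∀ n : ℕ, ∃ᶠ k in atTop, ∃ p, dist ((a k : ℂ) * toC p) z < 1 / ((n : ℝ) + 1) ∧ ε ≤ dist (F k p) (f z) :=
    fun n => by
      by_contra hn
      refine hc ⟨_, Nat.one_div_pos_of_nat (n := n), (not_frequently.1 hn).mono fun k hk p hp => ?_⟩
      exact lt_of_not_ge fun h' => hk ⟨p, hp, h'⟩
  obtain ⟨ψ, hψ, hp⟩ := extraction_forall_of_frequently hc'
  choose p hp hp' using hp
  have hl : PtLim (a ∘ ψ) p z := tendsto_iff_dist_tendsto_zero.2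
    (squeeze_zero (fun _ => dist_nonneg) (fun k => (hp k).le) tendsto_one_div_add_atTop_nhds_zero_nat)
  obtain ⟨k, hk⟩ := (Metric.tendsto_nhds.1 (h.subseq ha ha0 hψ z hz p hl) ε hε).exists
  exact (hp' k).not_gt hk

theorem CLim.continuousOn [PseudoMetricSpace β] {F : ℕ → Site → β} {f : ℂ → β} (ha : ∀ k, 0 < a k)
    (ha0 : Tendsto a atTop (𝓝 0)) (h : CLim a U F f) : ContinuousOn f U := by
  refine Metric.continuousOn_iff.2 fun z hz ε hε => ?_
  obtain ⟨δ, hδ, h1⟩ := h.unif ha ha0 hz (half_pos hε)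
  refine ⟨δ, hδ, fun w hw hwz => ?_⟩
  obtain ⟨v, hv⟩ := exists_ptLim ha ha0 w
  refine (le_of_tendsto ((h w hw v hv).dist tendsto_const_nhds) ?_).trans_lt (half_lt_self hε)
  filter_upwards [h1, Tendsto.eventually hv (isOpen_ball.mem_nhds (mem_ball.2 hwz))] with k h2 h3
  exact (h2 _ h3).le

/-- part a.  `IsCompact.induction_on` or a finite subcover; `CLim.unif`, `CLim.continuousOn` -/
theorem CLim.unif_compact [PseudoMetricSpace β] {F : ℕ → Site → β} {f : ℂ → β} (ha : ∀ k, 0 < a k)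
    (ha0 : Tendsto a atTop (𝓝 0)) (h : CLim a U F f) {K : Set ℂ} (hK : IsCompact K) (hKU : K ⊆ U) {ε : ℝ}
    (hε : 0 < ε) : ∀ᶠ k in atTop, ∀ p, (a k : ℂ) * toC p ∈ K → dist (F k p) (f ((a k : ℂ) * toC p)) < ε := by
  refine hK.induction_on (p := fun S => ∀ᶠ k in atTop, ∀ p, (a k : ℂ) * toC p ∈ S →
    dist (F k p) (f ((a k : ℂ) * toC p)) < ε) (.of_forall fun _ _ h => h.elim)
    (fun s t hst ht => ht.mono fun k hk p hp => hk p (hst hp))
    (fun s t hs ht => (hs.and ht).mono fun k hk p hp => hp.elim (hk.1 p) (hk.2 p)) fun z hz => ?_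
  obtain ⟨δ, hδ, h1⟩ := h.unif ha ha0 (hKU hz) (half_pos hε)
  obtain ⟨δ', hδ', h2⟩ := Metric.continuousOn_iff.1 (h.continuousOn ha ha0) z (hKU hz) _ (half_pos hε)
  refine ⟨ball z (min δ δ') ∩ K, inter_mem (mem_nhdsWithin_of_mem_nhds (ball_mem_nhds _ (lt_min hδ hδ')))
    self_mem_nhdsWithin, h1.mono fun k hk p hp => ?_⟩
  have h3 := lt_min_iff.1 (mem_ball.1 hp.1)
  linarith [dist_triangle_right (F k p) (f ((a k : ℂ) * toC p)) (f z), hk p h3.1, h2 _ (hKU hp.2) h3.2]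

/-- part a.  From the limits of `fld ^ 2` and of the massive part to a sup bound (`abs_le_fld_mas`) -/
theorem sb_of_clim {s : ℕ → Fn} {F : ℂ → ℂ} (ha : ∀ k, 0 < a k) (ha0 : Tendsto a atTop (𝓝 0))
    (h : CLim a U (fun k p => fld (s k) p ^ 2) F) (hm : CLim a U (fun k p α => mas (s k) (p, α)) fun _ => 0)
    {K : Set ℂ} (hK : IsCompact K) (hKU : K ⊆ U) {B ε : ℝ} (hB0 : 0 ≤ B) (hB : ∀ z ∈ K, ‖F z‖ ≤ B ^ 2) (hε : 0 < ε) :
    ∀ᶠ k in atTop, SB {p | (a k : ℂ) * toC p ∈ K} (B + ε) (s k) := by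
  filter_upwards [h.unif_compact ha ha0 hK hKU (pow_pos (half_pos hε) 2),
    hm.unif_compact ha ha0 hK hKU (half_pos hε)] with k h1 h2 p hp α
  have h3 := (dist_le_pi_dist _ _ α).trans_lt (h2 p hp)
  have h4 := norm_le_norm_add_norm_sub' (fld (s k) p ^ 2) (F ((a k : ℂ) * toC p))
  have h5 := h1 p hp
  rw [dist_eq_norm] at h5
  rw [norm_pow] at h4
  rw [Pi.zero_apply, Real.dist_eq, sub_zero] at h3
  have h6 : ‖fld (s k) p‖ ≤ B + ε / 2 :=
    le_of_sq_le_sq (by nlinarith [hB _ hp, mul_nonneg hB0 hε.le]) (by positivity)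
  linarith [abs_le_fld_mas (s k) p α]

/-- part b: Arzelà–Ascoli.  Countable dense `D ⊆ U`, sequences `v d` from `exists_ptLim`; truncate `F k (v d k)` to the closed
ball of radius `C d`; the countable product of these balls is sequentially compact; then `ε / 3` gives Cauchy sequences;
`f z := limUnder atTop fun k => F (ψ k) (v z (ψ k))`. -/
theorem clim_compact [NormedAddCommGroup β] [ProperSpace β] (ha : ∀ k, 0 < a k) (ha0 : Tendsto a atTop (𝓝 0))
    (F : ℕ → Site → β)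
    (hb : ∀ z ∈ U, ∃ C : ℝ, ∃ δ > 0, ∀ᶠ k in atTop, ∀ p, dist ((a k : ℂ) * toC p) z < δ → ‖F k p‖ ≤ C)
    (he : ∀ z ∈ U, ∀ ε > 0, ∃ δ > 0, ∀ᶠ k in atTop, ∀ p q, dist ((a k : ℂ) * toC p) z < δ →
      dist ((a k : ℂ) * toC q) z < δ → ‖F k p - F k q‖ ≤ ε) :
    ∃ (ψ : ℕ → ℕ) (f : ℂ → β), StrictMono ψ ∧ CLim (a ∘ ψ) U (fun k => F (ψ k)) f := by
  obtain ⟨D, hDU, hD, hUD⟩ := (TopologicalSpace.IsSeparable.of_separableSpace U).exists_countable_dense_subset
  have := hD.to_subtype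
  choose v hv using exists_ptLim ha ha0
  choose C δ hδ hC using fun d : D => hb d (hDU d.2)
  let x : ℕ → D → β := fun k d => if ‖F k (v d k)‖ ≤ C d then F k (v d k) else 0
  have hK : IsCompact (Set.univ.pi fun d : D => closedBall (0 : β) |C d|) :=
    isCompact_univ_pi fun d => isCompact_closedBall _ _
  obtain ⟨g, -, ψ, hψ, hg⟩ := hK.tendsto_subseq (x := x) fun k d _ => by
    rw [mem_closedBall_zero_iff]
    simp only [x]
    split_ifs with h
    · exact h.trans (le_abs_self _)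
    · simp
  have hψ' := hψ.tendsto_atTop
  have h1 : ∀ d : D, Tendsto (fun k => F (ψ k) (v d (ψ k))) atTop (𝓝 (g d)) := fun d => by
    refine (tendsto_pi_nhds.1 hg d).congr' ?_
    filter_upwards [hψ'.eventually (hC d), hψ'.eventually (Metric.tendsto_nhds.1 (hv d) _ (hδ d))] with k h2 h3
    exact if_pos (h2 _ h3)
  have h2 : ∀ z ∈ U, CauchySeq fun k => F (ψ k) (v z (ψ k)) := fun z hz => by
    refine Metric.cauchySeq_iff.2 fun ε hε => ?_
    obtain ⟨r, hr, h3⟩ := he z hz (ε / 4) (by positivity)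
    obtain ⟨d, hd, hdz⟩ := Metric.mem_closure_iff.1 (hUD hz) r hr
    have h4 : ∀ᶠ k in atTop, dist (F (ψ k) (v z (ψ k))) (g ⟨d, hd⟩) < ε / 2 := by
      filter_upwards [hψ'.eventually h3, hψ'.eventually (Metric.tendsto_nhds.1 (hv z) _ hr),
        hψ'.eventually ((hv d).eventually (isOpen_ball.mem_nhds (mem_ball'.2 hdz))),
        Metric.tendsto_nhds.1 (h1 ⟨d, hd⟩) (ε / 4) (by positivity)] with k e1 e2 e3 e4
      have e5 := e1 _ _ e2 e3
      rw [← dist_eq_norm] at e5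
      linarith [dist_triangle (F (ψ k) (v z (ψ k))) (F (ψ k) (v d (ψ k))) (g ⟨d, hd⟩)]
    obtain ⟨N, hN⟩ := eventually_atTop.1 h4
    exact ⟨N, fun m hm n hn => by
      linarith [dist_triangle_right (F (ψ m) (v z (ψ m))) (F (ψ n) (v z (ψ n))) (g ⟨d, hd⟩), hN m hm, hN n hn]⟩
  have : Nonempty β := ⟨0⟩
  refine ⟨ψ, fun z => limUnder atTop fun k => F (ψ k) (v z (ψ k)), hψ, fun z hz w hw => ?_⟩
  refine (h2 z hz).tendsto_limUnder.congr_dist (Metric.tendsto_nhds.2 fun ε hε => ?_)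
  obtain ⟨r, hr, h3⟩ := he z hz (ε / 2) (by positivity)
  filter_upwards [hψ'.eventually h3, hψ'.eventually (Metric.tendsto_nhds.1 (hv z) _ hr),
    Metric.tendsto_nhds.1 hw _ hr] with k e1 e2 e3
  have e5 := e1 _ _ e2 e3
  rw [← dist_eq_norm] at e5
  rw [Real.dist_eq, sub_zero, abs_of_nonneg dist_nonneg]
  linarith

/-- part b.  A Lipschitz bound on the steps gives the hypothesis `he` of `clim_compact` (`osc_box` on a box centred near
`z / a k`) -/
theorem equi_of_steps [NormedAddCommGroup β] (ha : ∀ k, 0 < a k) (ha0 : Tendsto a atTop (𝓝 0)) (F : ℕ → Site → β)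
    {z : ℂ} {C δ : ℝ} (hδ : 0 < δ)
    (h : ∀ᶠ k in atTop, ∀ p j, dist ((a k : ℂ) * toC p) z < δ → ‖F k (p + uv j) - F k p‖ ≤ C * a k) :
    ∀ ε > 0, ∃ δ > 0, ∀ᶠ k in atTop, ∀ p q, dist ((a k : ℂ) * toC p) z < δ →
      dist ((a k : ℂ) * toC q) z < δ → ‖F k p - F k q‖ ≤ ε := by
  intro ε hε
  have hC := abs_nonneg C
  refine ⟨min (δ / 4) (ε / (4 * |C| + 1)), by positivity, h.mono fun k hk p q hp hq => ?_⟩
  set r := min (δ / 4) (ε / (4 * |C| + 1)) with hr
  have r1 : r ≤ δ / 4 := min_le_left _ _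
  have r2 : r * (4 * |C| + 1) ≤ ε := (le_div_iff₀ (by positivity)).1 (min_le_right _ _)
  have hak := ha k
  have hd : ∀ x y : Site, dist ((a k : ℂ) * toC x) ((a k : ℂ) * toC y) = a k * ‖toC x - toC y‖ := fun x y => by
    rw [dist_eq_norm, ← mul_sub, norm_mul, Complex.norm_real, Real.norm_of_nonneg hak.le]
  have h1 : a k * supd p q ≤ 2 * r := by
    have := dist_triangle_right ((a k : ℂ) * toC p) ((a k : ℂ) * toC q) z
    rw [hd] at this
    nlinarith [supd_le_dist p q]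
  have h2 := osc_box (F k) q (supd p q) (M := |C| * a k) (by positivity) (fun x hx j _ => by
    refine (hk x j ?_).trans (by gcongr; exact le_abs_self C)
    have e1 := dist_triangle ((a k : ℂ) * toC x) ((a k : ℂ) * toC q) z
    rw [hd] at e1
    have e2 : (supd x q : ℝ) ≤ supd p q := by exact_mod_cast mem_box_iff.1 hx
    nlinarith [dist_le_supd x q]) (mem_box_iff.2 le_rfl) (p := p) (q := q) (mem_box_iff.2 (by simp [supd]))
  have r0 : 0 ≤ r := dist_nonneg.trans hp.le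
  nlinarith

theorem climc_uIcc {t x r : ℝ} (ht : 0 < t) {m n i : ℤ} (hi : i ∈ Finset.uIcc m n) (hm : |t * m - x| < r)
    (hn : |t * n - x| < r) : |t * i - x| < r := by
  rw [abs_lt] at *
  rw [← Finset.mem_coe, Finset.coe_uIcc] at hi
  rcases Set.mem_uIcc.1 hi with ⟨h1, h2⟩ | ⟨h1, h2⟩ <;>
  · have h3 := mul_le_mul_of_nonneg_left (Int.cast_le (R := ℝ).2 h1) ht.le
    have h4 := mul_le_mul_of_nonneg_left (Int.cast_le (R := ℝ).2 h2) ht.le
    constructor <;> linarith [hm.1, hm.2, hn.1, hn.2]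

theorem climc_rect [NormedAddCommGroup β] [NormedSpace ℝ β] (F : Site → β) (d : Fin 2 → β) {t ε δ : ℝ} (ht : 0 < t)
    (hε : 0 ≤ ε) {z : ℂ} (h : ∀ j p, dist ((t : ℂ) * toC p) z < δ → dist (t⁻¹ • (F (p + uv j) - F p)) (d j) < ε)
    {p q : Site} (hp : dist ((t : ℂ) * toC p) z < δ / 2) (hq : dist ((t : ℂ) * toC q) z < δ / 2) :
    ‖F q - F p - (Complex.reCLM.smulRight (d 0) + Complex.imCLM.smulRight (d 1)) ((t : ℂ) * toC q - t * toC p)‖ ≤
      2 * ε * ‖(t : ℂ) * toC q - t * toC p‖ := by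
  set L : ℂ →L[ℝ] β := Complex.reCLM.smulRight (d 0) + Complex.imCLM.smulRight (d 1) with hL
  have hre : ∀ r : Site, ((t : ℂ) * toC r).re = t * r.1 := fun r => by simp [toC]
  have him : ∀ r : Site, ((t : ℂ) * toC r).im = t * r.2 := fun r => by simp [toC]
  have h1 : ∀ r : Site, dist ((t : ℂ) * toC r) z < δ / 2 → |t * r.1 - z.re| < δ / 2 ∧ |t * r.2 - z.im| < δ / 2 :=
    fun r hr => by
      rw [dist_eq_norm] at hr
      rw [← hre, ← him, ← Complex.sub_re, ← Complex.sub_im]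
      exact ⟨(Complex.abs_re_le_norm _).trans_lt hr, (Complex.abs_im_le_norm _).trans_lt hr⟩
  have key := osc_rect (fun r => F r - L ((t : ℂ) * toC r)) (Finset.uIcc p.1 q.1) (Finset.uIcc p.2 q.2)
    (by rw [Finset.coe_uIcc]; exact Set.ordConnected_uIcc) (by rw [Finset.coe_uIcc]; exact Set.ordConnected_uIcc)
    (M := ε * t) (p := q) (q := p) (fun r hr j _ => ?_) (by simp) (by simp)
  · have e1 : F q - F p - L ((t : ℂ) * toC q - t * toC p) =
        F q - L ((t : ℂ) * toC q) - (F p - L ((t : ℂ) * toC p)) := by rw [map_sub]; abel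
    rw [e1]
    refine key.trans ?_
    have h2 := Complex.abs_re_le_norm ((t : ℂ) * toC q - t * toC p)
    have h3 := Complex.abs_im_le_norm ((t : ℂ) * toC q - t * toC p)
    rw [Complex.sub_re, hre, hre, ← mul_sub, abs_mul, abs_of_pos ht] at h2
    rw [Complex.sub_im, him, him, ← mul_sub, abs_mul, abs_of_pos ht] at h3
    simp only [Nat.cast_natAbs, Int.cast_abs, Int.cast_sub]
    nlinarith [mul_le_mul_of_nonneg_left h2 hε, mul_le_mul_of_nonneg_left h3 hε]
  · rw [Finset.mem_product] at hr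
    have h2 : dist ((t : ℂ) * toC r) z < δ := by
      rw [dist_eq_norm]
      refine (Complex.norm_le_abs_re_add_abs_im _).trans_lt ?_
      rw [Complex.sub_re, Complex.sub_im, hre, him]
      linarith [climc_uIcc ht hr.1 (h1 p hp).1 (h1 q hq).1, climc_uIcc ht hr.2 (h1 p hp).2 (h1 q hq).2]
    have h3 := (h j r h2).le
    have h4 : L ((t : ℂ) * toC (uv j)) = t • d j := by
      fin_cases j <;> simp [L, toC, uv]
    have e1 : F (r + uv j) - L ((t : ℂ) * toC (r + uv j)) - (F r - L ((t : ℂ) * toC r)) =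
        t • (t⁻¹ • (F (r + uv j) - F r) - d j) := by
      rw [toC_add, mul_add, map_add, h4, smul_sub, smul_inv_smul₀ ht.ne']; abel
    rw [dist_eq_norm] at h3
    rw [e1, norm_smul, Real.norm_of_nonneg ht.le, mul_comm]
    exact mul_le_mul_of_nonneg_right h3 ht.le

/-- part c.  Fix `ε`, take `δ` from `CLim.unif` for `d 0`, `d 1` at `z`; apply `osc_rect` to
`p ↦ F k p - (a k * p.1) • d 0 z - (a k * p.2) • d 1 z` (steps `≤ ε * a k`) between `p k → z` and `q k → w`. -/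
theorem clim_hasFDerivAt [NormedAddCommGroup β] [NormedSpace ℝ β] {F : ℕ → Site → β} {f : ℂ → β} (hU : IsOpen U)
    (ha : ∀ k, 0 < a k) (ha0 : Tendsto a atTop (𝓝 0)) (h : CLim a U F f) (d : Fin 2 → ℂ → β)
    (hd : ∀ j, CLim a U (fun k p => (a k)⁻¹ • (F k (p + uv j) - F k p)) (d j)) {z : ℂ} (hz : z ∈ U) :
    HasFDerivAt f (Complex.reCLM.smulRight (d 0 z) + Complex.imCLM.smulRight (d 1 z)) z := by
  rw [hasFDerivAt_iff_isLittleO, Asymptotics.isLittleO_iff]
  intro c hc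
  obtain ⟨δ₀, h0, H0⟩ := (hd 0).unif ha ha0 hz (half_pos hc)
  obtain ⟨δ₁, h1, H1⟩ := (hd 1).unif ha ha0 hz (half_pos hc)
  have hδ : 0 < min δ₀ δ₁ / 2 := half_pos (lt_min h0 h1)
  filter_upwards [hU.mem_nhds hz, ball_mem_nhds z hδ] with w hw hw'
  obtain ⟨p, hp⟩ := exists_ptLim ha ha0 z
  obtain ⟨q, hq⟩ := exists_ptLim ha ha0 w
  have t1 := Tendsto.sub hq hp
  have t2 := (((h w hw q hq).sub (h z hz p hp)).sub
    (((Complex.reCLM.smulRight (d 0 z) + Complex.imCLM.smulRight (d 1 z)).continuous.tendsto _).comp t1)).norm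
  refine le_of_tendsto_of_tendsto t2 (t1.norm.const_mul c) ?_
  filter_upwards [H0, H1, hp.eventually (ball_mem_nhds z hδ), hq.eventually (isOpen_ball.mem_nhds hw')]
    with k k0 k1 k2 k3
  have := climc_rect (F k) (fun j => d j z) (ha k) (half_pos hc).le (δ := min δ₀ δ₁)
    (Fin.forall_fin_two.2 ⟨fun r hr => k0 r (hr.trans_le (min_le_left _ _)),
      fun r hr => k1 r (hr.trans_le (min_le_right _ _))⟩) k2 k3
  rwa [mul_div_cancel₀ _ two_ne_zero] at this

/-- part c.  On the ball pass to a subsequence along which both difference quotients converge (`clim_compact` with values in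
`ℂ × ℂ`, `equi_of_steps`); `d 0 + I * d 1 = 0`; `clim_hasFDerivAt`; the derivative is `w ↦ w * d 0 z`. -/
theorem clim_hol {F : ℕ → Site → ℂ} {f : ℂ → ℂ} (ha : ∀ k, 0 < a k) (ha0 : Tendsto a atTop (𝓝 0)) {z : ℂ} {C δ : ℝ}
    (hδ : 0 < δ) (h : CLim a (ball z δ) F f)
    (hF : ∀ᶠ k in atTop, ∀ p, dist ((a k : ℂ) * toC p) z < δ → (∀ j, ‖F k (p + uv j) - F k p‖ ≤ C * a k) ∧
      (∀ i j, ‖(F k (p + uv i + uv j) - F k (p + uv i)) - (F k (p + uv j) - F k p)‖ ≤ C * a k ^ 2) ∧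
      ‖(F k (p + uv 0) - F k p) + Complex.I * (F k (p + uv 1) - F k p)‖ ≤ C * a k ^ 2) :
    DifferentiableOn ℂ f (ball z δ) := by
  have hn : ∀ k (x : ℂ) (M : ℝ), ‖x‖ ≤ M * a k → ‖(a k)⁻¹ • x‖ ≤ M := fun k x M hx => by
    rwa [norm_smul, norm_inv, Real.norm_of_nonneg (ha k).le, inv_mul_le_iff₀ (ha k), mul_comm]
  have hb : ∀ w ∈ ball z δ, ∀ x : ℂ, dist x w < δ - dist w z → dist x z < δ := fun w hw x hx => by
    linarith [dist_triangle x w z]
  obtain ⟨ψ, g, hψ, hg⟩ := clim_compact (U := ball z δ) ha ha0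
    (fun k p (j : Fin 2) => (a k)⁻¹ • (F k (p + uv j) - F k p))
    (fun w hw => ⟨C, δ - dist w z, sub_pos.2 hw, hF.mono fun k hk p hp =>
      pi_norm_le_iff_of_nonempty _ |>.2 fun j => hn k _ _ ((hk p (hb w hw _ hp)).1 j)⟩)
    (fun w hw => equi_of_steps ha ha0 _ (C := C) (sub_pos.2 hw) (hF.mono fun k hk p i hp =>
      pi_norm_le_iff_of_nonempty _ |>.2 fun j => by
        rw [Pi.sub_apply, ← smul_sub]
        exact hn k _ _ (((hk p (hb w hw _ hp)).2.1 i j).trans_eq (by ring))))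
  have ha' : ∀ k, 0 < (a ∘ ψ) k := fun k => ha _
  have ha0' : Tendsto (a ∘ ψ) atTop (𝓝 0) := ha0.comp hψ.tendsto_atTop
  intro w hw
  have hd := clim_hasFDerivAt isOpen_ball ha' ha0' (h.subseq ha ha0 hψ) (fun j x => g x j)
    (fun j x hx v hv => tendsto_pi_nhds.1 (hg x hx v hv) j) hw
  have e : g w 0 + Complex.I * g w 1 = 0 := by
    obtain ⟨v, hv⟩ := exists_ptLim ha' ha0' w
    have t1 := tendsto_pi_nhds.1 (hg w hw v hv)
    refine tendsto_nhds_unique ((t1 0).add ((t1 1).const_mul Complex.I)) ?_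
    have t2 := ha0'.const_mul C
    rw [mul_zero] at t2
    refine squeeze_zero_norm' ?_ t2
    filter_upwards [hψ.tendsto_atTop.eventually hF, hv.eventually (isOpen_ball.mem_nhds hw)] with k k1 k2
    rw [mul_smul_comm, ← smul_add]
    exact hn _ _ _ ((k1 _ k2).2.2.trans_eq (by simp only [Function.comp]; ring))
  have e' : g w 1 = Complex.I * g w 0 := by
    linear_combination (-Complex.I) * e + g w 1 * Complex.I_mul_I
  refine (hasFDerivAt_of_restrictScalars ℝ (f' := (1 : ℂ →L[ℂ] ℂ).smulRight (g w 0)) hd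
    ?_).differentiableAt.differentiableWithinAt
  ext x
  simp [e']
  linear_combination (-g w 0) * Complex.re_add_im x

end Crest.Agent.R165
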