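import Crest.Agent.R165.B.Ker
import Crest.Agent.R165.CA.Main

/-! # R165/BC/Defs (owner helper57).  Definitions of block BC (do not edit). -/

set_option autoImplicit false
noncomputable section
open Classical Filter Topology Metric ComplexConjugate

namespace Crest.Agent.R165

/-- the real-linear map `w ↦ -Re (c * w)` -/
abbrev nre (c : ℂ) : ℂ →L[ℝ] ℝ := Complex.reCLM.comp ((-c) • ContinuousLinearMap.id ℝ ℂ : ℂ →L[ℝ] ℂ)

/-- open half disc with inner normal `ν` -/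
def HD (ν : ℂ) (R : ℝ) : Set ℂ := {z | ‖z‖ < R ∧ 0 < (z * conj ν).re}

/-- the mesh `1 / l k` -/
def msh (l : ℕ → ℕ) (k : ℕ) : ℝ := (l k : ℝ)⁻¹

/-- the rescaled single-valued field -/
def gF {n : ℕ} (a : ℝ) (v : Fin n → Site) (s : Fn) (p : Site) : ℂ := ((a ^ ((n : ℝ) / 2) : ℝ) : ℂ) * gfld (spinsOf v) s p

/-- the rescaled `H` -/
def hF (a : ℝ) (Hw : Site → ℝ) (p : Site) : ℝ := a * Hw p * (Real.sqrt 2 / (1 + tc ^ 2))

/-- bounded bulk solutions on the compact subsets of `U` -/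
def BulkSeq (U : Set ℂ) (a : ℕ → ℝ) {n : ℕ} (v : ℕ → Fin n → Site) (E : ℕ → Set Edge) (s : ℕ → Fn) : Prop :=
  ∀ K, IsCompact K → K ⊆ U → ∃ C : ℝ, ∀ᶠ k in atTop,
    Crit (E k) {p | (a k : ℂ) * toC p ∈ K} ∧ SolOn (wOf (E k) (spinsOf (v k))) {p | (a k : ℂ) * toC p ∈ K} (s k) ∧
      SB {p | (a k : ℂ) * toC p ∈ K} C (s k)

/-- geometries that become flat at the boundary point `0`; the `n` spins converge to `0` at the mesh `1 / l k` -/
structure BSeq {n : ℕ} (l : ℕ → ℕ) (E : ℕ → Set Edge) (ρ : ℕ → ℝ) (v : ℕ → Fin n → Site) (ν : ℂ) : Prop where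
  pos : ∀ k, 0 < l k
  lim : Tendsto l atTop atTop
  reg : ∀ k, Reg (E k) (ρ k)
  rho : Tendsto (fun k => ρ k / l k) atTop atTop
  bd : ∀ k, BdryB (E k) 0
  inj : ∀ k, Function.Injective (v k)
  vl : ∀ i, PtLim (msh l) (fun k => v k i) 0
  nu : ‖ν‖ = 1
  flat : ∀ ε > 0, ∀ᶠ k in atTop, ∀ e : Edge, e.1 ∈ box 0 (10 * l k) →
    (ε * l k ≤ (toC e.1 * conj ν).re → e ∈ E k) ∧ ((toC e.1 * conj ν).re ≤ -(ε * l k) → e ∉ E k)

/-- solutions near the boundary point `0`, bounded away from `0`, with normalised `H` -/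
structure BSol {n : ℕ} (l : ℕ → ℕ) (E : ℕ → Set Edge) (v : ℕ → Fin n → Site) (s : ℕ → Fn) (Hw Hb : ℕ → Site → ℝ) :
    Prop where
  sol : ∀ k, SolOn (wOf (E k) (spinsOf (v k))) (box 0 (50 * l k)) (s k)
  bd : ∀ ε > 0, ∃ M : ℝ, ∀ᶠ k in atTop, ∀ p ∈ box 0 (5 * l k), ε * l k ≤ ‖toC p‖ → ∀ α, |s k (p, α)| ≤ M
  isH : ∀ᶠ k in atTop, IsH (wOf (E k) (spinsOf (v k))) (s k) (box 0 (50 * l k)) (Hw k) (Hb k) ∧
    ∀ b ∈ box 0 (4 * l k), FrozenB (E k) b → Hb k b = 0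

end Crest.Agent.R165
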