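import Crest.Agent.R165.BC.GaugeAuxB
import Crest.Agent.R165.BC.CLim

/-! # R165/BC/Gauge (owner helper57).  Gauge transformations. -/

set_option autoImplicit false
noncomputable section
open Classical Filter Topology Metric ComplexConjugate

namespace Crest.Agent.R165

/-- part a (`opA_gauge`; `opA w s (x, α)` only reads `w (edgeOf x α)`) -/
theorem SolOn.gauge {σ : Site → ℝ} (hσ : IsSign σ) {w w' : Edge → ℝ} {W : Set Site} {s : Fn} (h : SolOn w W s)
    (hw : ∀ x ∈ W, ∀ α, w' (edgeOf x α) = gaugeW σ w (edgeOf x α)) : SolOn w' W (gaugeF σ s) := by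
  intro x hx α
  have h1 : opA w' (gaugeF σ s) (x, α) = opA (gaugeW σ w) (gaugeF σ s) (x, α) := by
    simp only [opA, hw x hx α]
  rw [h1, opA_gauge hσ, gaugeF, h x hx α, mul_zero]

theorem IsH.gauge {σ : Site → ℝ} (hσ : IsSign σ) {w w' : Edge → ℝ} {W : Set Site} {s : Fn} {Hw Hb : Site → ℝ}
    (h : IsH w s W Hw Hb) (hw : ∀ x ∈ W, ∀ α, w' (edgeOf x α) = gaugeW σ w (edgeOf x α)) :
    IsH w' (gaugeF σ s) W Hw Hb := by
  intro x hx α
  have h1 : cP w' (gaugeF σ s) x α = σ x * cP w s x α := by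
    have h2 := congrFun (opA_gauge hσ w s) (x, α)
    have h3 : ∀ n, sv (gaugeF σ s) x n = σ x * sv s x n := fun n => by
      simp only [sv, gaugeF]
      split_ifs <;> ring
    simp only [opA, gaugeF, h3] at h2
    simp only [cP, hw x hx α, gaugeF]
    linear_combination h2
  rw [h x hx α, h1, mul_pow, sq (σ x), hσ.mul_self, one_mul]

theorem fld_gauge (σ : Site → ℝ) (s : Fn) (p : Site) : fld (gaugeF σ s) p = σ p * fld s p := by
  simp only [fld, gaugeF, Fin.sum_univ_four, Complex.ofReal_mul]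
  ring

theorem mas_gauge (σ : Site → ℝ) (s : Fn) (i : HE) : mas (gaugeF σ s) i = σ i.1 * mas s i := by
  simp only [mas, cSol, fld_gauge, gaugeF, mul_assoc, Complex.re_ofReal_mul]
  ring

theorem abs_gaugeF {σ : Site → ℝ} (hσ : IsSign σ) (s : Fn) (i : HE) : |gaugeF σ s i| = |s i| := by
  rcases hσ i.1 with h | h <;> simp [gaugeF, h]

theorem gaugeF_comb (σ : Site → ℝ) (c₁ c₂ : ℝ) (s₁ s₂ : Fn) :
    gaugeF σ (c₁ • s₁ + c₂ • s₂) = c₁ • gaugeF σ s₁ + c₂ • gaugeF σ s₂ := by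
  funext i
  simp only [gaugeF, Pi.add_apply, Pi.smul_apply, smul_eq_mul]
  ring

theorem eray_empty (e : Edge) : eray ∅ e = 1 := by
  simp [eray]

/-- part a.  `σ p = if x.1 ≤ p.1 then ∏ v ∈ S, (if v.2 ≤ p.2 then 1 else -1) else 1` -/
theorem even_gauge (S : Finset Site) (x : Site) (r : ℕ) (hS : Even S.card) (h : ∀ v ∈ S, v ∈ box x r) :
    ∃ σ, IsSign σ ∧ ∀ e : Edge, e.1 ∉ box x (r + 1) → σ e.1 * σ (e.1 + uv e.2) * eray S e = 1 := by
  refine ⟨fun p => ∏ v ∈ S, sg (x.1 ≤ p.1 ∧ p.2 < v.2), fun p => b1_sign_prod S _, fun ⟨⟨a, b⟩, j⟩ he => ?_⟩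
  simp only [mem_box'] at h he
  push_cast at he
  fin_cases j
  · simp only [Fin.zero_eta, add_uv_0, eray_0, mul_one, ← Finset.prod_mul_distrib]
    by_cases h1 : a + 1 = x.1 ∧ b < x.2
    · rw [Finset.prod_congr rfl (g := fun _ => (-1 : ℝ)) fun v hv => ?_, Finset.prod_const, hS.neg_one_pow]
      have := h v hv
      unfold sg
      split_ifs <;> first | omega | norm_num
    · refine Finset.prod_eq_one fun v hv => ?_
      have := h v hv
      unfold sg
      split_ifs <;> first | omega | norm_num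
  · simp only [Fin.mk_one, add_uv_1, eray_1, ← Finset.prod_mul_distrib]
    refine Finset.prod_eq_one fun v hv => ?_
    have := h v hv
    unfold sg
    split_ifs <;> first | omega | norm_num

/-- part b: the local gauge.  Call `i` "left" if `0 < (z₀ - x i).re`.  `σ k p = ∏ i left, (if (v k i).2 ≤ p.2 then 1 else -1)`,
`R z = ∏ i, if left then (z - x i) ^ (1/2) else rt (z - x i)`.  For `Im w ≠ 0`: `rt w = sign (Im w) * w ^ (1/2)`, and
`Im (pos p - toC v) = p.2 + 1/2 - v.2`; `(c * w) ^ (1/2) = √c * w ^ (1/2)` for `c > 0`.  For a left spin the gauge moves the east ray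
to the west ray, which misses the ball; the east ray of another spin misses the ball because `z₀ - x i ∉ [0, ∞)`.
`eray S e = ∏ v ∈ S, eray {v} e`. -/
theorem loc_gauge {a : ℕ → ℝ} (ha : ∀ k, 0 < a k) (ha0 : Tendsto a atTop (𝓝 0)) {n : ℕ} (v : ℕ → Fin n → Site)
    (hv : ∀ᶠ k in atTop, Function.Injective (v k)) (x : Fin n → ℂ) (hx : ∀ i, PtLim a (fun k => v k i) (x i))
    {z₀ : ℂ} (hz : ∀ i, x i ≠ z₀) : ∃ δ > 0, ∃ (R : ℂ → ℂ) (σ : ℕ → Site → ℝ), DifferentiableOn ℂ R (ball z₀ δ) ∧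
      (∀ z ∈ ball z₀ δ, R z ^ 2 = rhoX x z ∧ R z ≠ 0) ∧ (∀ k, IsSign (σ k)) ∧
      (∀ᶠ k in atTop, ∀ e : Edge, dist ((a k : ℂ) * toC e.1) z₀ < δ →
        σ k e.1 * σ k (e.1 + uv e.2) * eray (spinsOf (v k)) e = 1) ∧
      CLim a (ball z₀ δ) (fun k p => ((a k ^ ((n : ℝ) / 2) : ℝ) : ℂ) * σ k p * ∏ u ∈ spinsOf (v k), rt (pos p - toC u)) R := by
  exact loc_gauge' ha ha0 v hv x hx hz

end Crest.Agent.R165
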