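import Crest.Agent.R165.B.Alg
import Crest.Agent.R165.Cont

/-! # R165/BC/GaugeAuxB (helper18): the local gauge -/

set_option autoImplicit false
noncomputable section
open Classical Filter Topology Metric Complex

namespace Crest.Agent.R165

theorem gb_half_sq (w : ℂ) : (w ^ (1 / 2 : ℂ)) ^ 2 = w := by
  rw [show (1 / 2 : ℂ) = ((2 : ℕ) : ℂ)⁻¹ by norm_num]
  exact cpow_nat_inv_pow w two_ne_zero

theorem gb_scale {c : ℝ} (hc : 0 < c) (w : ℂ) :
    ((c : ℂ) * w) ^ (1 / 2 : ℂ) = (Real.sqrt c : ℂ) * w ^ (1 / 2 : ℂ) := by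
  by_cases hw : w = 0
  · simp [hw]
  have hc' : (c : ℂ) ≠ 0 := ofReal_ne_zero.2 hc.ne'
  rw [cpow_def_of_ne_zero (mul_ne_zero hc' hw), cpow_def_of_ne_zero hw, log_ofReal_mul hc hw, add_mul,
    exp_add, Real.sqrt_eq_rpow, Real.rpow_def_of_pos hc]
  push_cast
  rfl

theorem gb_rt_scale {c : ℝ} (hc : 0 < c) (w : ℂ) : rt ((c : ℂ) * w) = (Real.sqrt c : ℂ) * rt w := by
  rw [rt, rt, ← mul_neg, gb_scale hc]; ring

theorem gb_rt_pos {w : ℂ} (h : 0 < w.im) : rt w = w ^ (1 / 2 : ℂ) := by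
  have hw : w ≠ 0 := fun h0 => by simp [h0] at h
  have e : log (-w) * (1 / 2) = log w * (1 / 2) + -(Real.pi / 2 * I) := by
    rw [log, log, norm_neg, arg_neg_eq_arg_sub_pi_of_im_pos h]; push_cast; ring
  rw [rt, cpow_def_of_ne_zero (neg_ne_zero.2 hw), cpow_def_of_ne_zero hw, e, exp_add, exp_neg,
    exp_pi_div_two_mul_I, inv_I]
  linear_combination -exp (log w * (1 / 2)) * I_mul_I

theorem gb_rt_neg {w : ℂ} (h : w.im < 0) : rt w = -w ^ (1 / 2 : ℂ) := by
  have hw : w ≠ 0 := fun h0 => by simp [h0] at h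
  have e : log (-w) * (1 / 2) = log w * (1 / 2) + Real.pi / 2 * I := by
    rw [log, log, norm_neg, arg_neg_eq_arg_add_pi_of_im_neg h]; push_cast; ring
  rw [rt, cpow_def_of_ne_zero (neg_ne_zero.2 hw), cpow_def_of_ne_zero hw, e, exp_add, exp_pi_div_two_mul_I]
  linear_combination exp (log w * (1 / 2)) * I_mul_I

theorem gb_eray_one (v : Site) (e : Edge) :
    eray {v} e = if e.2 = 1 ∧ v.2 = e.1.2 + 1 ∧ v.1 ≤ e.1.1 then -1 else 1 := by
  unfold eray
  rw [Finset.filter_singleton]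
  by_cases h1 : e.2 = 1 <;> by_cases h2 : v.2 = e.1.2 + 1 ∧ v.1 ≤ e.1.1 <;> simp [h1, h2]

theorem gb_eray_prod (S : Finset Site) (e : Edge) : eray S e = ∏ v ∈ S, eray {v} e := by
  simp only [gb_eray_one]
  unfold eray
  by_cases h1 : e.2 = 1
  · simp [h1, Finset.prod_ite]
  · simp [h1]

theorem gb_lim {a : ℕ → ℝ} (ha0 : Tendsto a atTop (𝓝 0)) {v p : ℕ → Site} {x z : ℂ} (hx : PtLim a v x)
    (hz : PtLim a p z) : Tendsto (fun k => (a k : ℂ) * (pos (p k) - toC (v k))) atTop (𝓝 (z - x)) := by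
  have h0 : Tendsto (fun k => (a k : ℂ) * ((1 + I) / 2)) atTop (𝓝 (((0 : ℝ) : ℂ) * ((1 + I) / 2))) :=
    ((continuous_ofReal.tendsto 0).comp ha0).mul_const _
  have := (Tendsto.add hz h0).sub hx
  simp only [ofReal_zero, zero_mul, add_zero] at this
  refine this.congr fun k => ?_
  rw [pos]; ring

theorem gb_one {a : ℕ → ℝ} (ha : ∀ k, 0 < a k) (ha0 : Tendsto a atTop (𝓝 0)) (v : ℕ → Site) {x : ℂ}
    (hx : PtLim a v x) {z₀ : ℂ} (hz : x ≠ z₀) : ∃ δ > 0, ∃ (R : ℂ → ℂ) (σ : ℕ → Site → ℝ),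
      DifferentiableOn ℂ R (ball z₀ δ) ∧ (∀ z ∈ ball z₀ δ, R z ^ 2 = z - x ∧ z - x ≠ 0) ∧ (∀ k, IsSign (σ k)) ∧
      (∀ᶠ k in atTop, ∀ e : Edge, dist ((a k : ℂ) * toC e.1) z₀ < δ →
        σ k e.1 * σ k (e.1 + uv e.2) * eray {v k} e = 1) ∧
      CLim a (ball z₀ δ) (fun k p => (Real.sqrt (a k) : ℂ) * σ k p * rt (pos p - toC (v k))) R := by
  by_cases hl : 0 < (z₀ - x).re
  · have hs : ∀ z ∈ ball z₀ ((z₀ - x).re / 2), (z₀ - x).re / 2 < (z - x).re := fun z hz => by
      have h1 := (abs_re_le_norm (z - z₀)).trans_lt (mem_ball_iff_norm.1 hz)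
      rw [abs_lt] at h1
      simp only [sub_re] at h1 hl ⊢
      linarith [h1.1]
    have hs' : ∀ z ∈ ball z₀ ((z₀ - x).re / 2), z - x ∈ slitPlane := fun z hz =>
      Or.inl ((half_pos hl).trans (hs z hz))
    refine ⟨(z₀ - x).re / 2, half_pos hl, fun z => (z - x) ^ (1 / 2 : ℂ),
      fun k p => if (v k).2 ≤ p.2 then 1 else -1,
      DifferentiableOn.cpow_const (by fun_prop) hs', fun z hz => ⟨gb_half_sq _, slitPlane_ne_zero (hs' z hz)⟩,
      fun k p => by by_cases h : (v k).2 ≤ p.2 <;> simp [h], ?_, fun z hz p hp => ?_⟩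
    · filter_upwards [Metric.tendsto_nhds.1 hx _ (half_pos hl)] with k hk e he
      have h1 := hs _ he
      have h2 := (abs_re_le_norm _).trans_lt (mem_ball_iff_norm.1 hk)
      rw [abs_lt] at h2
      have h3 : a k * ((v k).1 : ℝ) < a k * (e.1.1 : ℝ) := by
        have := h2.2
        simp only [sub_re, re_ofReal_mul, toC] at h1 this
        linarith
      have h4 : (v k).1 < e.1.1 := by exact_mod_cast lt_of_mul_lt_mul_left h3 (ha k).le
      rw [gb_eray_one]
      obtain ⟨q, j⟩ := e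
      have : j = 0 ∨ j = 1 := by omega
      rcases this with rfl | rfl
      · by_cases h : (v k).2 ≤ q.2 <;> simp [uv, h]
      · have h5 : (v k).1 ≤ q.1 := h4.le
        rcases lt_trichotomy (v k).2 (q.2 + 1) with h | h | h
        · simp [uv, h.ne, h.le, Int.lt_add_one_iff.1 h]
        · simp [uv, h, h5]
        · simp [uv, h.ne', h.not_ge, ((lt_add_one _).trans h).not_ge]
    · refine ((continuousAt_cpow_const (b := 1 / 2) (hs' z hz)).tendsto.comp (gb_lim ha0 hx hp)).congr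
        fun k => ?_
      simp only [Function.comp]
      rw [gb_scale (ha k), mul_assoc]
      congr 1
      have him : (pos (p k) - toC (v k)).im = ((p k).2 : ℝ) - (v k).2 + 1 / 2 := by
        simp [pos, toC]; ring
      split_ifs with h
      · have : ((v k).2 : ℝ) ≤ (p k).2 := by exact_mod_cast h
        rw [gb_rt_pos (by rw [him]; linarith)]; simp
      · have : ((p k).2 : ℝ) + 1 ≤ (v k).2 := by exact_mod_cast (by omega : (p k).2 + 1 ≤ (v k).2)
        rw [gb_rt_neg (by rw [him]; linarith)]; simp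
  · have h0 : -(z₀ - x) ∈ slitPlane := by
      rcases mem_slitPlane_or_neg_mem_slitPlane (sub_ne_zero.2 hz.symm) with h | h
      · exact Or.inr (by rw [neg_im]; exact neg_ne_zero.2 (h.resolve_left hl))
      · exact h
    obtain ⟨ε, hε, hb⟩ := Metric.isOpen_iff.1 isOpen_slitPlane _ h0
    have hs' : ∀ z ∈ ball z₀ (ε / 2), -(z - x) ∈ slitPlane := fun z hz => hb (by
      rw [mem_ball, dist_neg_neg, dist_sub_right]; linarith [mem_ball.1 hz])
    refine ⟨ε / 2, half_pos hε, fun z => rt (z - x), fun _ _ => 1,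
      (differentiableOn_const I).mul (DifferentiableOn.cpow_const (by fun_prop) hs'),
      fun z hz => ⟨by simp only [rt]; rw [mul_pow, gb_half_sq, I_sq]; ring, neg_ne_zero.1 (slitPlane_ne_zero (hs' z hz))⟩,
      fun _ _ => Or.inl rfl, ?_, fun z hz p hp => ?_⟩
    · filter_upwards [Metric.tendsto_nhds.1 hx (ε / 4) (by positivity),
        ha0.eventually (gt_mem_nhds (by positivity : 0 < ε / 4))] with k hk hk' e he
      rw [gb_eray_one, if_neg, mul_one, mul_one]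
      rintro ⟨-, h1, h2⟩
      have h3 : -((a k * ((e.1.1 : ℝ) - (v k).1) : ℝ) : ℂ) ∈ slitPlane := hb (by
        have e1 : -((a k * ((e.1.1 : ℝ) - (v k).1) : ℝ) : ℂ) - -(z₀ - x) =
            -((a k : ℂ) * toC e.1 - z₀) + ((a k : ℂ) * toC (v k) - x) + -((a k : ℂ) * I) := by
          apply Complex.ext <;> simp [toC, h1] <;> ring
        rw [mem_ball_iff_norm, e1]
        refine (norm_add₃_le).trans_lt ?_
        rw [norm_neg, norm_neg, norm_mul, norm_I, mul_one, norm_real, Real.norm_of_nonneg (ha k).le,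
          ← dist_eq_norm, ← dist_eq_norm]
        linarith)
      rw [neg_ofReal_mem_slitPlane] at h3
      have h4 : ((v k).1 : ℝ) ≤ e.1.1 := by exact_mod_cast h2
      nlinarith [ha k]
    · have hc : ContinuousAt rt (z - x) :=
        continuousAt_const.mul ((continuousAt_cpow_const (hs' z hz)).comp continuous_neg.continuousAt)
      refine (hc.tendsto.comp (gb_lim ha0 hx hp)).congr fun k => ?_
      simp only [Function.comp]
      rw [gb_rt_scale (ha k)]; simp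

theorem loc_gauge' {a : ℕ → ℝ} (ha : ∀ k, 0 < a k) (ha0 : Tendsto a atTop (𝓝 0)) {n : ℕ} (v : ℕ → Fin n → Site)
    (hv : ∀ᶠ k in atTop, Function.Injective (v k)) (x : Fin n → ℂ) (hx : ∀ i, PtLim a (fun k => v k i) (x i))
    {z₀ : ℂ} (hz : ∀ i, x i ≠ z₀) : ∃ δ > 0, ∃ (R : ℂ → ℂ) (σ : ℕ → Site → ℝ), DifferentiableOn ℂ R (ball z₀ δ) ∧
      (∀ z ∈ ball z₀ δ, R z ^ 2 = rhoX x z ∧ R z ≠ 0) ∧ (∀ k, IsSign (σ k)) ∧
      (∀ᶠ k in atTop, ∀ e : Edge, dist ((a k : ℂ) * toC e.1) z₀ < δ →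
        σ k e.1 * σ k (e.1 + uv e.2) * eray (spinsOf (v k)) e = 1) ∧
      CLim a (ball z₀ δ) (fun k p => ((a k ^ ((n : ℝ) / 2) : ℝ) : ℂ) * σ k p * ∏ u ∈ spinsOf (v k), rt (pos p - toC u)) R := by
  choose δ hδ R σ h1 h2 h3 h4 h5 using fun i => gb_one ha ha0 (fun k => v k i) (hx i) (hz i)
  obtain ⟨d, hd, hd0⟩ := ((eventually_all.2 fun i => Ioc_mem_nhdsGT (hδ i)).and
    (self_mem_nhdsWithin (s := Set.Ioi (0 : ℝ)) (a := 0))).exists
  have sub : ∀ i, ball z₀ d ⊆ ball z₀ (δ i) := fun i => ball_subset_ball (hd i).2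
  refine ⟨d, hd0, fun z => ∏ i, R i z, fun k p => ∏ i, σ i k p,
    DifferentiableOn.fun_finsetProd fun i _ => (h1 i).mono (sub i), fun z hz => ⟨?_, ?_⟩, fun k p => ?_, ?_,
    fun z hz p hp => ?_⟩
  · rw [← Finset.prod_pow, rhoX]
    exact Finset.prod_congr rfl fun i _ => (h2 i z (sub i hz)).1
  · refine Finset.prod_ne_zero_iff.2 fun i _ h => (h2 i z (sub i hz)).2 ?_
    rw [← (h2 i z (sub i hz)).1, h]; simp
  · refine Finset.prod_induction _ (fun r : ℝ => r = 1 ∨ r = -1) ?_ (Or.inl rfl) fun i _ => h3 i k p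
    rintro _ _ (rfl | rfl) (rfl | rfl) <;> simp
  · filter_upwards [hv, eventually_all.2 h4] with k hk hk' e he
    rw [gb_eray_prod, spinsOf, Finset.prod_image hk.injOn, ← Finset.prod_mul_distrib, ← Finset.prod_mul_distrib]
    exact Finset.prod_eq_one fun i _ => hk' i e (he.trans_le (hd i).2)
  · refine (tendsto_finsetProd Finset.univ fun i _ => h5 i z (sub i hz) p hp).congr' ?_
    filter_upwards [hv] with k hk
    rw [spinsOf, Finset.prod_image hk.injOn, Finset.prod_mul_distrib, Finset.prod_mul_distrib, Finset.prod_const,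
      Finset.card_univ, Fintype.card_fin, Real.sqrt_eq_rpow, ← ofReal_pow, ← Real.rpow_natCast,
      ← Real.rpow_mul (ha k).le, show 1 / 2 * (n : ℝ) = n / 2 by ring]
    push_cast
    rfl

end Crest.Agent.R165
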