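import Crest.Agent.R165.BC.BLim

/-! # R165/BC/M1 (owner helper57).  One real mode at a boundary point. -/

set_option autoImplicit false
noncomputable section
open Classical Filter Topology Metric ComplexConjugate

namespace Crest.Agent.R165

section m1a
variable {l : ℕ → ℕ} {E : ℕ → Set Edge} {ρ : ℕ → ℝ} {v : ℕ → Fin 0 → Site} {ν : ℂ}

theorem m1a_bsol (h : BSeq l E ρ v ν) {s : ℕ → Fn} {M : ℝ} (sol : ∀ k, SolOn (wOf (E k) ∅) (box 0 (50 * l k)) (s k))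
    (sb : ∀ k, SB (box 0 (50 * l k)) M (s k)) : ∃ Hw Hb, BSol l E v s Hw Hb :=
  exists_bsol h (fun k => by simpa [spinsOf] using sol k) fun _ _ => ⟨M, Eventually.of_forall fun k p hp _ α =>
    sb k p (box_sub (x := 0) (y := 0) (t := 0) (by simp [mem_box_iff, supd]) (by omega) hp) α⟩

theorem m1a_lim (h : BSeq l E ρ v ν) {s : ℕ → Fn} {M : ℝ} (sol : ∀ k, SolOn (wOf (E k) ∅) (box 0 (50 * l k)) (s k))
    (sb : ∀ k, SB (box 0 (50 * l k)) M (s k)) {g : ℂ → ℂ}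
    (hg : CLim (msh l) (HD ν 1) (fun k => gF (msh l k) (v k) (s k)) g) :
    ∃ (ψ : ℕ → ℕ) (H : ℂ → ℝ) (Hw Hb : ℕ → Site → ℝ) (A : ℂ), StrictMono ψ ∧ BSol l E v s Hw Hb ∧
      CLim (msh l ∘ ψ) (HD ν 1) (fun k => hF (msh l (ψ k)) (Hw (ψ k))) H ∧
      (∀ z ∈ HD ν 1, HasFDerivAt H (nre (g z ^ 2)) z) ∧
      (∀ ε > 0, ∃ C : ℝ, ∀ z ∈ HD ν 1, ε ≤ ‖z‖ → |H z| ≤ C * (z * conj ν).re) ∧
      (A * ν).im = 0 ∧ (∀ z ∈ HD ν 1, ‖g z ^ 2 - A‖ ≤ 2 * (2 * M) ^ 2 * ‖z‖) ∧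
      Tendsto (fun z => g z ^ 2) (𝓝[HD ν 1] 0) (𝓝 A) := by
  obtain ⟨Hw, Hb, hs⟩ := m1a_bsol h sol sb
  obtain ⟨ψ, g', H, hψ, hd, h1, h2, h3, h4, h5⟩ := bdry_lim h hs
  have ha : ∀ k, 0 < (msh l ∘ ψ) k := fun k => msh_pos h.pos _
  have ha0 : Tendsto (msh l ∘ ψ) atTop (𝓝 0) := (msh_lim h.lim).comp hψ.tendsto_atTop
  have he : Set.EqOn g g' (HD ν 1) := (hg.subseq (msh_pos h.pos) (msh_lim h.lim) hψ).unique ha ha0 h1
  have h4' : ∀ z ∈ HD ν 1, HasFDerivAt H (nre (g z ^ 2)) z := fun z hz => by simpa only [pow_zero, div_one, he hz] using h4 z hz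
  have hb : ∀ z ∈ HD ν 1, ‖g z ^ 2‖ ≤ (2 * M) ^ 2 := fun z hz => by
    obtain ⟨w, hw⟩ := exists_ptLim ha ha0 z
    have h6 := (h2 z hz w hw).norm
    simp only [pow_zero, div_one, ← he hz] at h6
    refine le_of_tendsto h6 ?_
    filter_upwards [hw.norm.eventually (gt_mem_nhds hz.1)] with k hk
    rw [norm_pow]
    exact pow_le_pow_left₀ (norm_nonneg _) (norm_fld_le (sb _ _ (mem_box_of_norm h.pos (c := 50)
      (hk.le.trans (by norm_num))))) 2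
  obtain ⟨A, hA, hA'⟩ := reflect_bd h.nu (F := fun z => g z ^ 2) (C₁ := (2 * M) ^ 2) (M := (2 * M) ^ 2)
    ((hd.congr he).pow 2) h4' h5 (fun z hz => (mul_le_of_le_one_right (norm_nonneg _) hz.1.le).trans (hb z hz))
    fun z hz _ => hb z hz
  refine ⟨ψ, H, Hw, Hb, A, hψ, hs, h3, h4', h5, hA, fun z hz => (hA' z hz).2, ?_⟩
  rw [tendsto_iff_norm_sub_tendsto_zero]
  refine squeeze_zero' (Eventually.of_forall fun _ => norm_nonneg _)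
    (eventually_mem_nhdsWithin.mono fun z hz => (hA' z hz).2) (tendsto_nhdsWithin_of_tendsto_nhds ?_)
  exact (continuous_const.mul continuous_norm).tendsto' 0 0 (by simp)

theorem m1a_neBot (hν : ‖ν‖ = 1) : (𝓝[HD ν 1] (0 : ℂ)).NeBot := by
  have : Tendsto (fun t : ℝ => (t : ℂ) * ν) (𝓝[>] 0) (𝓝[HD ν 1] 0) := by
    refine tendsto_nhdsWithin_iff.2 ⟨tendsto_nhdsWithin_of_tendsto_nhds
      ((Complex.continuous_ofReal.mul continuous_const).tendsto' 0 0 (by simp)), ?_⟩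
    filter_upwards [Ioo_mem_nhdsGT one_pos] with t ht
    refine ⟨by rw [norm_mul, hν, mul_one, Complex.norm_real, Real.norm_of_nonneg ht.1.le]; exact ht.2, ?_⟩
    rw [mul_assoc, Complex.mul_conj', hν]
    simpa using ht.1
  exact this.neBot

theorem m1a_comb {s₁ s₂ : ℕ → Fn} {g₁ g₂ : ℂ → ℂ} (h₁ : CLim (msh l) (HD ν 1) (fun k => gF (msh l k) (v k) (s₁ k)) g₁)
    (h₂ : CLim (msh l) (HD ν 1) (fun k => gF (msh l k) (v k) (s₂ k)) g₂) (c₁ c₂ : ℝ) :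
    CLim (msh l) (HD ν 1) (fun k => gF (msh l k) (v k) (c₁ • s₁ k + c₂ • s₂ k)) fun z => c₁ * g₁ z + c₂ * g₂ z :=
  fun z hz w hw => by
    simp only [gF_comb]
    exact ((h₁ z hz w hw).const_mul _).add ((h₂ z hz w hw).const_mul _)

end m1a

/-- part a.  `bdry_lim` successively for `s₁`, `s₂`, `s₁ + s₂` (limits `g₁`, `g₂`, `g₁ + g₂` by `gF_comb`, `CLim.unique`), `reflect_bd` gives the limits
`A`, `D`, `A'` of `g₁²`, `g₂²`, `(g₁ + g₂)²` at `0` inside `HD`; `B = (A' - A - D) / 2 = lim g₁ g₂`, `B² = A D`; `null_vec`.  Then `bdry_lim` for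
`s_c`: `F = (c₁ g₁ + c₂ g₂)²`, `‖F‖ ≤ 4`, its limit at `0` is `0`, so `‖F z‖ ≤ 8 ‖z‖`, `h_bound` with `r = 6 θ`, `bdry_transfer` with `z = 0`. -/
theorem bdry_seq : ∃ C : ℝ, ∀ {l : ℕ → ℕ} {E : ℕ → Set Edge} {ρ : ℕ → ℝ} {v : ℕ → Fin 0 → Site} {ν : ℂ} (s₁ s₂ : ℕ → Fn),
    BSeq l E ρ v ν → (∀ k, SolOn (wOf (E k) ∅) (box 0 (50 * l k)) (s₁ k) ∧ SolOn (wOf (E k) ∅) (box 0 (50 * l k)) (s₂ k) ∧
      SB (box 0 (50 * l k)) 1 (s₁ k) ∧ SB (box 0 (50 * l k)) 1 (s₂ k)) → ∀ θ > 0, θ ≤ 1 / 6 →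
    ∃ c₁ c₂ : ℝ, |c₁| + |c₂| = 1 ∧ ∃ᶠ k in atTop, ∀ p, ‖(msh l k : ℂ) * toC p‖ < θ → ∀ α,
      (c₁ • s₁ k + c₂ • s₂ k) (p, α) ^ 2 ≤ C * θ := by
  obtain ⟨C, hC⟩ := bdry_transfer
  refine ⟨C * 289, fun {l E ρ v ν} s₁ s₂ h hs θ hθ hθ' => ?_⟩
  have key : ∀ {l : ℕ → ℕ} {E : ℕ → Set Edge} {ρ : ℕ → ℝ} {v : ℕ → Fin 0 → Site} (s₁ s₂ : ℕ → Fn) (g₁ g₂ : ℂ → ℂ),
      BSeq l E ρ v ν → (∀ k, SolOn (wOf (E k) ∅) (box 0 (50 * l k)) (s₁ k) ∧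
        SolOn (wOf (E k) ∅) (box 0 (50 * l k)) (s₂ k) ∧
        SB (box 0 (50 * l k)) 1 (s₁ k) ∧ SB (box 0 (50 * l k)) 1 (s₂ k)) →
      CLim (msh l) (HD ν 1) (fun k => gF (msh l k) (v k) (s₁ k)) g₁ →
      CLim (msh l) (HD ν 1) (fun k => gF (msh l k) (v k) (s₂ k)) g₂ →
      ∃ c₁ c₂ : ℝ, |c₁| + |c₂| = 1 ∧ ∃ᶠ k in atTop, ∀ p, ‖(msh l k : ℂ) * toC p‖ < θ → ∀ α,
        (c₁ • s₁ k + c₂ • s₂ k) (p, α) ^ 2 ≤ C * 289 * θ := by
    intro l E ρ v s₁ s₂ g₁ g₂ h hs h₁ h₂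
    have := m1a_neBot h.nu
    obtain ⟨-, -, -, -, A, -, -, -, -, -, hA, -, tA⟩ := m1a_lim h (fun k => (hs k).1) (fun k => (hs k).2.2.1) h₁
    obtain ⟨-, -, -, -, D, -, -, -, -, -, hD, -, tD⟩ := m1a_lim h (fun k => (hs k).2.1) (fun k => (hs k).2.2.2) h₂
    have hc := fun c₁ c₂ : ℝ => m1a_lim h (fun k => (hs k).1.comb (hs k).2.1 c₁ c₂)
      (fun k => (hs k).2.2.1.comb (hs k).2.2.2 c₁ c₂) (m1a_comb h₁ h₂ c₁ c₂)
    obtain ⟨-, -, -, -, A', -, -, -, -, -, hA', -, tA'⟩ := hc 1 1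
    have tB : Tendsto (fun z => g₁ z * g₂ z) (𝓝[HD ν 1] 0) (𝓝 ((A' - A - D) / 2)) :=
      (((tA'.sub tA).sub tD).div_const 2).congr fun z => by push_cast; ring
    obtain ⟨c₁, c₂, hc1, hc0⟩ := null_vec (A := A) (B := (A' - A - D) / 2) (D := D) (ν := ν)
      (norm_ne_zero_iff.1 (by rw [h.nu]; exact one_ne_zero)) hA
      (by rw [div_mul_eq_mul_div, sub_mul, sub_mul, Complex.div_ofNat_im, Complex.sub_im, Complex.sub_im, hA, hA', hD]; simp)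
      (tendsto_nhds_unique (tB.pow 2) ((tA.mul tD).congr fun z => by ring))
    obtain ⟨ψ, H, Hw, Hb, A₀, hψ, hsol, hH, hH', hH0, -, hA₀, tA₀⟩ := hc c₁ c₂
    obtain rfl : A₀ = 0 := hc0 ▸ tendsto_nhds_unique tA₀
      ((((tA.const_mul ((c₁ : ℂ) ^ 2)).add (tB.const_mul (2 * (c₁ : ℂ) * c₂))).add (tD.const_mul ((c₂ : ℂ) ^ 2))).congr
        fun z => by ring)
    have hb := h_bound h.nu (r := 6 * θ) (M := 48 * θ) (by linarith) hH' hH0 fun z hz => by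
      have := hA₀ z ⟨hz.1.trans_le (by linarith), hz.2⟩
      rw [hc1, sub_zero] at this
      linarith [hz.1]
    refine ⟨c₁, c₂, hc1, hψ.tendsto_atTop.frequently (Eventually.frequently ?_)⟩
    filter_upwards [hC (h.subseq hψ) (hsol.subseq hψ) hH 0 θ (288 * θ ^ 2) (289 * θ ^ 2) ((|c₁| + |c₂|) * 1) hθ
      (by rw [norm_zero]; linarith) (fun h => absurd h (lt_irrefl _))
      (Eventually.of_forall fun k p hp => ((hs _).2.2.1.comb (hs _).2.2.2 c₁ c₂) p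
        (mem_box_of_norm h.pos (c := 50) (by
          have : ‖(msh l (ψ k) : ℂ) * toC p‖ < 6 * θ := dist_zero_right (E := ℂ) _ ▸ hp
          push_cast; linarith)))
      (fun w hw hw' => by
        rw [dist_zero_right] at hw'
        have h1 : (w * conj ν).re ≤ ‖w‖ := (Complex.re_le_norm _).trans_eq (by
          rw [norm_mul, Complex.norm_conj, h.nu, mul_one])
        have := hb w ⟨hw', hw.2⟩
        nlinarith) (by positivity) (by nlinarith)] with k hk p hp α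
    refine (hk p (by rw [dist_zero_right]; exact hp) α).trans_eq ?_
    field_simp
  obtain ⟨Hw, Hb, hsol⟩ := m1a_bsol h (fun k => (hs k).1) fun k => (hs k).2.2.1
  obtain ⟨ψ, g₁, -, hψ, -, h₁, -⟩ := bdry_lim h hsol
  have h' := h.subseq hψ
  obtain ⟨Hw', Hb', hsol'⟩ := m1a_bsol h' (s := fun k => s₂ (ψ k)) (fun k => (hs _).2.1) fun k => (hs _).2.2.2
  obtain ⟨ψ', g₂, -, hψ', -, h₂, -⟩ := bdry_lim h' hsol'
  obtain ⟨c₁, c₂, hc, hf⟩ := key (fun k => s₁ (ψ (ψ' k))) (fun k => s₂ (ψ (ψ' k))) g₁ g₂ (h'.subseq hψ') (fun k => hs _)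
    (h₁.subseq (msh_pos h'.pos) (msh_lim h'.lim) hψ') h₂
  exact ⟨c₁, c₂, hc, (hψ.comp hψ').tendsto_atTop.frequently hf⟩

/-- part b.  `L = 50 L'`, `l = L' r`, `θ` with `C θ ≤ η²`, `3 / 2 / L' < θ`; by contradiction (`K = k + 1`), `exists_bseq`, `bdry_seq` -/
theorem mode_bdry0 (η : ℝ) (hη : 0 < η) : ∃ L K : ℕ, 1 ≤ L ∧ ∀ (E : Set Edge) (ρ : ℝ) (r : ℕ) (s₁ s₂ : Fn),
    Reg E ρ → K ≤ r → (K * r : ℝ) ≤ ρ → BdryB E 0 →
    SolOn (wOf E ∅) (box 0 (L * r)) s₁ → SolOn (wOf E ∅) (box 0 (L * r)) s₂ →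
    SB (box 0 (L * r)) 1 s₁ → SB (box 0 (L * r)) 1 s₂ →
    ∃ c₁ c₂ : ℝ, |c₁| + |c₂| = 1 ∧ SB (box 0 r) η (c₁ • s₁ + c₂ • s₂) := by
  obtain ⟨C, hC⟩ := bdry_seq
  obtain ⟨θ, h0, h6, hθ⟩ : ∃ θ : ℝ, 0 < θ ∧ θ ≤ 1 / 6 ∧ C * θ ≤ η ^ 2 := by
    refine ⟨min (1 / 6) (η ^ 2 / (|C| + 1)), by positivity, min_le_left _ _, ?_⟩
    have h1 := (le_div_iff₀ (by positivity : 0 < |C| + 1)).1 (min_le_right (1 / 6) (η ^ 2 / (|C| + 1)))
    have h2 : 0 < min (1 / 6) (η ^ 2 / (|C| + 1)) := by positivity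
    nlinarith [le_abs_self C]
  obtain ⟨L, hL⟩ := exists_nat_gt (2 / θ)
  have hL0 : (0 : ℝ) < L := lt_trans (by positivity) hL
  have hL1 : 0 < L := by exact_mod_cast hL0
  rw [div_lt_iff₀ h0] at hL
  by_contra hn
  push Not at hn
  choose E ρ r s₁ s₂ hreg hr hρ hbd h1 h2 h3 h4 hneg using fun k : ℕ => hn (50 * L) (k + 1) (by omega)
  have hr0 : ∀ k, (0 : ℝ) < r k := fun k => by exact_mod_cast lt_of_lt_of_le (Nat.succ_pos k) (hr k)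
  obtain ⟨ψ, ν, -, hB⟩ := exists_bseq (l := fun k => L * r k) (v := fun _ => (Fin.elim0 : Fin 0 → Site))
    (fun k => Nat.mul_pos hL1 (lt_of_lt_of_le (Nat.succ_pos k) (hr k)))
    (tendsto_atTop_mono (fun k => (Nat.le_succ k).trans ((hr k).trans (Nat.le_mul_of_pos_left _ hL1))) tendsto_id)
    hreg (by
      refine tendsto_atTop_mono (fun k => ?_) (tendsto_natCast_atTop_atTop.atTop_div_const hL0)
      have := hρ k
      push_cast at this ⊢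
      rw [div_le_div_iff₀ hL0 (mul_pos hL0 (hr0 k))]
      nlinarith [mul_le_mul_of_nonneg_right this hL0.le, mul_pos hL0 (hr0 k)])
    hbd (fun _ i => i.elim0) (fun i => i.elim0)
  obtain ⟨c₁, c₂, hc, hf⟩ := hC (fun k => s₁ (ψ k)) (fun k => s₂ (ψ k)) hB (fun k => by
    simp only [← mul_assoc]
    exact ⟨h1 _, h2 _, h3 _, h4 _⟩) θ h0 h6
  obtain ⟨k, hk⟩ := hf.exists
  refine hneg (ψ k) c₁ c₂ hc fun p hp α => abs_le_of_sq_le_sq ((hk p ?_ α).trans hθ) hη.le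
  have h5 := dist_le_supd p 0
  have h7 : (supd p 0 : ℝ) ≤ r (ψ k) := by exact_mod_cast mem_box_iff.1 hp
  have h8 : toC 0 = 0 := by simp [toC, Complex.ext_iff]
  have h9 := mul_pos hL0 (hr0 (ψ k))
  rw [h8, sub_zero] at h5
  rw [norm_mul, Complex.norm_real, msh, norm_inv, Real.norm_natCast, Nat.cast_mul, inv_mul_lt_iff₀ h9]
  nlinarith [hr0 (ψ k)]

end Crest.Agent.R165
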