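import Crest.Agent.R165.BC.BLim

/-! # R165/BC/M2 (owner helper57).  One real mode at a branch point. -/

set_option autoImplicit false
noncomputable section
open Classical Filter Topology Metric ComplexConjugate

namespace Crest.Agent.R165

theorem m2a_toC_zero : toC 0 = 0 := by
  apply Complex.ext <;> simp [toC]

theorem m2a_norm {l : ℕ → ℕ} (pos : ∀ k, 0 < l k) (k : ℕ) (p : Site) :
    ‖toC p‖ = ‖(msh l k : ℂ) * toC p‖ * l k := by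
  have hl : (l k : ℝ) ≠ 0 := by exact_mod_cast (pos k).ne'
  rw [norm_mul, Complex.norm_real, Real.norm_eq_abs, abs_of_pos (msh_pos pos k), msh]
  field_simp

theorem m2a_fld {l : ℕ → ℕ} (pos : ∀ k, 0 < l k) {k : ℕ} {s : Fn} {M : ℝ} (hs : WB {0} (box 0 (l k)) (l k) M s)
    {p : Site} (hp : ‖(msh l k : ℂ) * toC p‖ ≤ 1) : ‖fld s p ^ 2‖ * ‖(msh l k : ℂ) * toC p‖ ≤ 6 * M ^ 2 := by
  have hl : (0 : ℝ) < l k := by exact_mod_cast pos k
  set τ := ‖(msh l k : ℂ) * toC p‖ with hτ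
  have hτ0 : 0 ≤ τ := norm_nonneg _
  rcases hτ0.eq_or_lt with h0 | h0
  · rw [← h0, mul_zero]; positivity
  have hb : p ∈ box 0 (l k) := by
    have := mem_box_of_norm pos (k := k) (c := 1) (p := p) (by rw [Nat.cast_one]; exact hp)
    rwa [one_mul] at this
  have hd : 2 / 3 * (τ * l k) ≤ dB {0} (l k) p := by
    refine le_dB (by nlinarith) fun v hv => ?_
    rw [Finset.mem_singleton.1 hv]
    have h1 := dist_le_supd p 0
    rw [m2a_toC_zero, sub_zero, m2a_norm pos k p, ← hτ] at h1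
    linarith
  have h1 : ∀ α, |s (p, α)| ≤ Real.sqrt (3 / 2 * M ^ 2 / τ) := by
    intro α
    refine Real.abs_le_sqrt ?_
    rw [le_div_iff₀ h0]
    have h2 := hs p hb α
    have h3 := mul_le_mul_of_nonneg_left hd (sq_nonneg (s (p, α)))
    have h4 : (s (p, α) ^ 2 * τ) * l k ≤ (3 / 2 * M ^ 2) * l k := by nlinarith
    exact le_of_mul_le_mul_right h4 hl
  have h2 := pow_le_pow_left₀ (norm_nonneg _) (norm_fld_le h1) 2
  rw [mul_pow, Real.sq_sqrt (by positivity)] at h2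
  rw [norm_pow, ← le_div_iff₀ h0]
  refine h2.trans (le_of_eq ?_)
  ring

theorem m2a_frame {l : ℕ → ℕ} (pos : ∀ k, 0 < l k) {s : ℕ → Fn} {M : ℝ}
    (hs : ∀ k, WB {0} (box 0 (l k)) (l k) M (s k)) {K : Set ℂ} (hK : IsCompact K) (hKU : K ⊆ ball 0 1 \ {0}) :
    ∃ C : ℝ, ∀ k, ∃ r < l k, {p | (msh l k : ℂ) * toC p ∈ K} ⊆ ↑(frame 0 r (l k)) ∧
      SB (frame 0 r (l k)) C (s k) := by
  obtain ⟨ε, hε, hε1, hKε⟩ : ∃ ε : ℝ, 0 < ε ∧ ε ≤ 1 ∧ ∀ z ∈ K, ε ≤ ‖z‖ := by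
    obtain ⟨ε, hε, h⟩ := Metric.isOpen_iff.1 hK.isClosed.isOpen_compl 0 fun h => (hKU h).2 rfl
    refine ⟨min ε 1, by positivity, min_le_right _ _, fun z hz => (min_le_left _ _).trans (not_lt.1 fun hlt => ?_)⟩
    exact h (mem_ball_zero_iff.2 hlt) hz
  refine ⟨Real.sqrt (2 * M ^ 2 / ε), fun k => ?_⟩
  have hl : (0 : ℝ) < l k := by exact_mod_cast pos k
  have hr := Nat.floor_le (a := ε * l k / 2) (by positivity)
  have hr' := Nat.lt_floor_add_one (ε * l k / 2)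
  refine ⟨⌊ε * l k / 2⌋₊, ?_, fun p hp => ?_, fun p hp α => ?_⟩
  · have : (⌊ε * l k / 2⌋₊ : ℝ) < l k := by nlinarith
    exact_mod_cast this
  · have h1 : ‖(msh l k : ℂ) * toC p‖ < 1 := mem_ball_zero_iff.1 (hKU hp).1
    have hb : p ∈ box 0 (l k) := by
      have := mem_box_of_norm pos (k := k) (c := 1) (p := p) (by simpa using h1.le)
      rwa [one_mul] at this
    refine Finset.mem_coe.2 (Finset.mem_sdiff.2 ⟨hb, fun h => ?_⟩)
    have h2 : (supd p 0 : ℝ) ≤ ⌊ε * l k / 2⌋₊ := by exact_mod_cast mem_box_iff.1 h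
    have h3 := dist_le_supd p 0
    rw [m2a_toC_zero, sub_zero, m2a_norm pos k p] at h3
    have h4 := mul_le_mul_of_nonneg_right (hKε _ hp) hl.le
    have h5 : 0 < ε * l k := by positivity
    linarith
  · obtain ⟨hb, hn⟩ := Finset.mem_sdiff.1 (Finset.mem_coe.1 hp)
    have h2 : (⌊ε * l k / 2⌋₊ : ℝ) < supd p 0 := by exact_mod_cast not_le.1 fun h => hn (mem_box_iff.2 h)
    have hd : ε * l k / 2 ≤ dB {0} (l k) p := by
      refine le_dB (by nlinarith) fun v hv => ?_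
      rw [Finset.mem_singleton.1 hv]
      linarith
    refine Real.abs_le_sqrt ?_
    rw [le_div_iff₀ hε]
    have h3 := hs k p hb α
    have h4 := mul_le_mul_of_nonneg_left hd (sq_nonneg (s k (p, α)))
    have h5 : (s k (p, α) ^ 2 * ε) * l k ≤ (2 * M ^ 2) * l k := by nlinarith
    exact le_of_mul_le_mul_right h5 hl

/-- part a.  `lim_bulk1` on `U = ball 0 1 \ {0}` with `v = 0`; `H` from `exists_H_box`, normalised by `Hw (l, l) = 0`, bounded on compact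
sets by `osc_frame` and `IsH.step_le`; `s² ≤ (3/2) M² l / ‖p‖` (`le_dB`, `dist_le_supd`), so `‖g z‖² = ‖F z‖ ‖z‖ ≤ 6 M²`; `branch_cx`. -/
theorem branch_lim {l : ℕ → ℕ} (pos : ∀ k, 0 < l k) (lim : Tendsto l atTop atTop) {s : ℕ → Fn} {M : ℝ} (hM : 0 ≤ M)
    (hs : ∀ k, SolOn (wOf Set.univ {0}) (box 0 (l k)) (s k) ∧ WB {0} (box 0 (l k)) (l k) M (s k)) :
    ∃ (ψ : ℕ → ℕ) (g : ℂ → ℂ) (A : ℂ), StrictMono ψ ∧
      CLim (msh l ∘ ψ) (ball 0 1 \ {0}) (fun k => gF (msh l (ψ k)) (fun _ : Fin 1 => 0) (s (ψ k))) g ∧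
      CLim (msh l ∘ ψ) (ball 0 1 \ {0}) (fun k p => fld (s (ψ k)) p ^ 2) (fun z => g z ^ 2 / z) ∧
      CLim (msh l ∘ ψ) (ball 0 1 \ {0}) (fun k p α => mas (s (ψ k)) (p, α)) (fun _ => 0) ∧
      (A ^ 2).im = 0 ∧ ∀ z ∈ ball (0 : ℂ) 1 \ {0}, ‖g z - A‖ ≤ 6 * M * ‖z‖ := by
  have hsp : spinsOf (fun _ : Fin 1 => (0 : Site)) = {0} := by
    ext v; simp [spinsOf]
  have hfb : ∀ k r, (↑(frame 0 r (l k)) : Set Site) ⊆ ↑(box 0 (l k)) := fun k r => Finset.coe_subset.2 Finset.sdiff_subset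
  have hU : IsOpen (ball (0 : ℂ) 1 \ {0}) := isOpen_ball.sdiff isClosed_singleton
  choose Hw Hb hH using fun k => exists_H_box _ (s k) 0 (l k) (hs k).1
  have hH' : ∀ k, IsH (wOf Set.univ {0}) (s k) (box 0 (l k)) (fun p => Hw k p - Hw k (l k, l k))
      fun p => Hb k p - Hw k (l k, l k) := fun k p hp α => by
    rw [← hH k p hp α]; ring
  obtain ⟨ψ, g, h, hψ, hg, c1, c2, c3, -, hh⟩ := lim_bulk1 (U := ball (0 : ℂ) 1 \ {0}) (a := msh l)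
    (v := fun _ _ => (0 : Site)) (x := fun _ : Fin 1 => (0 : ℂ)) (E := fun _ => Set.univ) (s := s) hU (msh_pos pos)
    (msh_lim lim) (Eventually.of_forall fun k => Function.injective_of_subsingleton _)
    (fun i => by simp [PtLim, m2a_toC_zero]) (fun i h => h.2 rfl)
    (fun K hK hKU => by
      obtain ⟨C, hC⟩ := m2a_frame pos (fun k => (hs k).2) hK hKU
      refine ⟨C, Eventually.of_forall fun k => ?_⟩
      obtain ⟨r, -, h1, h2⟩ := hC k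
      rw [hsp]
      exact ⟨fun _ _ _ => Set.mem_univ _, fun p hp => (hs k).1 p (hfb k r (h1 hp)), fun p hp => h2 p (h1 hp)⟩)
    (fun k p => Hw k p - Hw k (l k, l k)) (fun k p => Hb k p - Hw k (l k, l k))
    (fun K hK hKU => by
      obtain ⟨C, hC⟩ := m2a_frame pos (fun k => (hs k).2) hK hKU
      refine ⟨C ^ 2 * 16, Eventually.of_forall fun k => ?_⟩
      obtain ⟨r, hr, h1, h2⟩ := hC k
      rw [hsp]
      refine ⟨fun p hp => hH' k p (hfb k r (h1 hp)), fun p hp => ?_⟩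
      have hc : ((l k : ℤ), (l k : ℤ)) ∈ frame 0 r (l k) := by
        refine Finset.mem_sdiff.2 ⟨mem_box_iff.2 ?_, fun h => ?_⟩
        · simp [supd]
        · have := mem_box_iff.1 h
          simp [supd] at this
          omega
      have h3 := osc_frame (Hw k) 0 r (l k) (sq_nonneg C)
        (fun q hq j hq' => IsH.step_le (hH k) (hs k).1 (hfb k r) h2 (Finset.mem_coe.2 hq) (Finset.mem_coe.2 hq'))
        (Finset.mem_coe.1 (h1 hp)) hc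
      have hl : (0 : ℝ) < l k := by exact_mod_cast pos k
      rw [abs_mul, abs_of_pos (msh_pos pos k), msh, inv_mul_le_iff₀ hl]
      rw [Real.norm_eq_abs] at h3
      linarith)
  have hρ : ∀ z : ℂ, rhoX (fun _ : Fin 1 => (0 : ℂ)) z = z := fun z => by simp [rhoX]
  simp only [hρ] at c2 hh
  have hb : ∀ z ∈ ball (0 : ℂ) 1 \ {0}, ‖g z‖ ≤ 3 * M := by
    intro z hz
    obtain ⟨w, hw⟩ := exists_ptLim (a := msh l ∘ ψ) (fun k => msh_pos pos _)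
      ((msh_lim lim).comp hψ.tendsto_atTop) z
    have h1 := (c2 z hz w hw).norm.mul (Tendsto.norm hw)
    have h2 : ∀ᶠ k in atTop, ‖((msh l ∘ ψ) k : ℂ) * toC (w k)‖ < 1 :=
      (Tendsto.norm hw).eventually (gt_mem_nhds (mem_ball_zero_iff.1 hz.1))
    have h3 := le_of_tendsto h1 (h2.mono fun k hk => m2a_fld pos (hs (ψ k)).2 hk.le)
    have hz0 : ‖z‖ ≠ 0 := norm_ne_zero_iff.2 hz.2
    rw [norm_div, div_mul_cancel₀ _ hz0, norm_pow] at h3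
    exact le_of_sq_le_sq (by nlinarith) (by positivity)
  obtain ⟨A, hA, hA'⟩ := branch_cx hg hb hh
  exact ⟨ψ, g, A, hψ, c1, c2, c3, hA, fun z hz => (hA' z hz).trans (le_of_eq (by ring))⟩

/-- the limit of the rescaled field and its value at the branch point -/
def m2b_Lim (l : ℕ → ℕ) (s : ℕ → Fn) (g : ℂ → ℂ) (A : ℂ) (M : ℝ) : Prop :=
  CLim (msh l) (ball 0 1 \ {0}) (fun k => gF (msh l k) (fun _ : Fin 1 => 0) (s k)) g ∧
    ∀ z ∈ ball (0 : ℂ) 1 \ {0}, ‖g z - A‖ ≤ M * ‖z‖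

theorem m2b_sub {l : ℕ → ℕ} (pos : ∀ k, 0 < l k) (lim : Tendsto l atTop atTop) {s : ℕ → Fn} {g : ℂ → ℂ} {A : ℂ} {M : ℝ}
    (h : m2b_Lim l s g A M) {ψ : ℕ → ℕ} (hψ : StrictMono ψ) : m2b_Lim (fun k => l (ψ k)) (fun k => s (ψ k)) g A M :=
  ⟨h.1.subseq (msh_pos pos) (msh_lim lim) hψ, h.2⟩

theorem m2b_comb {l : ℕ → ℕ} (pos : ∀ k, 0 < l k) (lim : Tendsto l atTop atTop) {s₁ s₂ : ℕ → Fn} {g₁ g₂ g : ℂ → ℂ}
    {A₁ A₂ A : ℂ} {M₁ M₂ M c₁ c₂ : ℝ} (h₁ : m2b_Lim l s₁ g₁ A₁ M₁) (h₂ : m2b_Lim l s₂ g₂ A₂ M₂)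
    (h : m2b_Lim l (fun k => c₁ • s₁ k + c₂ • s₂ k) g A M) : A = c₁ * A₁ + c₂ * A₂ := by
  have h3 : CLim (msh l) (ball 0 1 \ {0}) (fun k => gF (msh l k) (fun _ : Fin 1 => 0) (c₁ • s₁ k + c₂ • s₂ k))
      fun z => c₁ * g₁ z + c₂ * g₂ z := fun z hz v hv => by
    simp only [gF_comb]
    exact ((h₁.1 z hz v hv).const_mul _).add ((h₂.1 z hz v hv).const_mul _)
  have he := h.1.unique (msh_pos pos) (msh_lim lim) h3
  have hb : ∀ t : ℝ, 0 < t → t < 1 → ‖A - (c₁ * A₁ + c₂ * A₂)‖ ≤ (M + |c₁| * M₁ + |c₂| * M₂) * t := by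
    intro t h0 h1
    have hn : ‖(t : ℂ)‖ = t := by rw [Complex.norm_real, Real.norm_of_nonneg h0.le]
    have hz : (t : ℂ) ∈ ball (0 : ℂ) 1 \ {0} :=
      ⟨mem_ball_zero_iff.2 (hn.trans_lt h1), fun e => h0.ne' (Complex.ofReal_eq_zero.1 e)⟩
    have e1 := h.2 _ hz
    have e2 := h₁.2 _ hz
    have e3 := h₂.2 _ hz
    rw [hn] at e1 e2 e3
    have e4 : A - (c₁ * A₁ + c₂ * A₂) = c₁ * (g₁ t - A₁) + c₂ * (g₂ t - A₂) - (g t - A) := by
      rw [he hz]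
      ring
    rw [e4]
    refine (norm_sub_le _ _).trans ((add_le_add (norm_add_le _ _) e1).trans ?_)
    rw [norm_mul, norm_mul, Complex.norm_real, Complex.norm_real, Real.norm_eq_abs, Real.norm_eq_abs]
    nlinarith [mul_le_mul_of_nonneg_left e2 (abs_nonneg c₁), mul_le_mul_of_nonneg_left e3 (abs_nonneg c₂)]
  have hl : Tendsto (fun t : ℝ => (M + |c₁| * M₁ + |c₂| * M₂) * t) (𝓝[>] 0) (𝓝 0) := by
    have : Tendsto (fun t : ℝ => (M + |c₁| * M₁ + |c₂| * M₂) * t) (𝓝 0) (𝓝 ((M + |c₁| * M₁ + |c₂| * M₂) * 0)) :=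
      tendsto_id.const_mul _
    rw [mul_zero] at this
    exact this.mono_left nhdsWithin_le_nhds
  refine sub_eq_zero.1 (norm_le_zero_iff.1 (ge_of_tendsto hl ?_))
  filter_upwards [Ioo_mem_nhdsGT one_pos] with t ht using hb t ht.1 ht.2

theorem m2b_seq {l : ℕ → ℕ} (pos : ∀ k, 0 < l k) (lim : Tendsto l atTop atTop) {s₁ s₂ : ℕ → Fn}
    (h₁ : ∀ k, SolOn (wOf Set.univ {0}) (box 0 (l k)) (s₁ k) ∧ WB {0} (box 0 (l k)) (l k) 1 (s₁ k))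
    (h₂ : ∀ k, SolOn (wOf Set.univ {0}) (box 0 (l k)) (s₂ k) ∧ WB {0} (box 0 (l k)) (l k) 1 (s₂ k))
    {K : Set ℂ} (hK : IsCompact K) (hKU : K ⊆ ball 0 1 \ {0}) {B : ℝ} (hB0 : 0 < B) (hB : ∀ z ∈ K, 36 * ‖z‖ ≤ B ^ 2) :
    ∃ c₁ c₂ : ℝ, |c₁| + |c₂| = 1 ∧
      ∃ᶠ k in atTop, SB {p | (msh l k : ℂ) * toC p ∈ K} (B + B) (c₁ • s₁ k + c₂ • s₂ k) := by
  have hc : ∀ (c₁ c₂ : ℝ) k, SolOn (wOf Set.univ {0}) (box 0 (l k)) (c₁ • s₁ k + c₂ • s₂ k) ∧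
      WB {0} (box 0 (l k)) (l k) ((|c₁| + |c₂|) * 1) (c₁ • s₁ k + c₂ • s₂ k) := fun c₁ c₂ k =>
    ⟨(h₁ k).1.comb (h₂ k).1 c₁ c₂, (h₁ k).2.comb (h₂ k).2 c₁ c₂⟩
  obtain ⟨ψ₁, g₁, A₁, p₁, a₁, -, -, i₁, b₁⟩ := branch_lim pos lim zero_le_one h₁
  have pos₁ := fun k => pos (ψ₁ k)
  have lim₁ : Tendsto (fun k => l (ψ₁ k)) atTop atTop := lim.comp p₁.tendsto_atTop
  have L₁ : m2b_Lim (fun k => l (ψ₁ k)) (fun k => s₁ (ψ₁ k)) g₁ A₁ _ := ⟨a₁, b₁⟩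
  obtain ⟨ψ₂, g₂, A₂, p₂, a₂, -, -, i₂, b₂⟩ := branch_lim pos₁ lim₁ zero_le_one fun k => h₂ (ψ₁ k)
  have pos₂ := fun k => pos₁ (ψ₂ k)
  have lim₂ : Tendsto (fun k => l (ψ₁ (ψ₂ k))) atTop atTop := lim₁.comp p₂.tendsto_atTop
  have L₂ : m2b_Lim (fun k => l (ψ₁ (ψ₂ k))) (fun k => s₂ (ψ₁ (ψ₂ k))) g₂ A₂ _ := ⟨a₂, b₂⟩
  replace L₁ := m2b_sub pos₁ lim₁ L₁ p₂
  obtain ⟨ψ₃, g₃, A₃, p₃, a₃, -, -, i₃, b₃⟩ := branch_lim pos₂ lim₂ (by positivity) fun k => hc 1 1 (ψ₁ (ψ₂ k))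
  have pos₃ := fun k => pos₂ (ψ₃ k)
  have lim₃ : Tendsto (fun k => l (ψ₁ (ψ₂ (ψ₃ k)))) atTop atTop := lim₂.comp p₃.tendsto_atTop
  replace L₁ := m2b_sub pos₂ lim₂ L₁ p₃
  replace L₂ := m2b_sub pos₂ lim₂ L₂ p₃
  have e₃ := m2b_comb pos₃ lim₃ L₁ L₂ ⟨a₃, b₃⟩
  obtain ⟨c₁, c₂, hc1, hc2⟩ := null_vec (A := A₁ ^ 2) (B := A₁ * A₂) (D := A₂ ^ 2) one_ne_zero (by rwa [mul_one])
    (by
      have e : A₃ ^ 2 = A₁ ^ 2 + 2 * (A₁ * A₂) + A₂ ^ 2 := by rw [e₃]; push_cast; ring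
      rw [e, Complex.add_im, Complex.add_im, i₁, i₂, two_mul, Complex.add_im] at i₃
      rw [mul_one]
      linarith) (by ring)
  have hA : (c₁ : ℂ) * A₁ + c₂ * A₂ = 0 := pow_eq_zero_iff (two_ne_zero) |>.1 (by rw [← hc2]; ring)
  obtain ⟨ψ₄, g₄, A₄, p₄, a₄, f₄, m₄, -, b₄⟩ :=
    branch_lim pos₃ lim₃ (by positivity) fun k => hc c₁ c₂ (ψ₁ (ψ₂ (ψ₃ k)))
  have pos₄ := fun k => pos₃ (ψ₄ k)
  have lim₄ : Tendsto (fun k => l (ψ₁ (ψ₂ (ψ₃ (ψ₄ k))))) atTop atTop := lim₃.comp p₄.tendsto_atTop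
  have e₄ := m2b_comb pos₄ lim₄ (m2b_sub pos₃ lim₃ L₁ p₄) (m2b_sub pos₃ lim₃ L₂ p₄) ⟨a₄, b₄⟩
  rw [hA] at e₄
  refine ⟨c₁, c₂, hc1, (((p₁.comp p₂).comp p₃).comp p₄).tendsto_atTop.frequently (Eventually.frequently ?_)⟩
  refine sb_of_clim (msh_pos pos₄) (msh_lim lim₄) f₄ m₄ hK hKU hB0.le (fun z hz => ?_) hB0
  have e1 := b₄ z (hKU hz)
  have e2 : 0 < ‖z‖ := norm_pos_iff.2 (hKU hz).2
  rw [e₄, sub_zero, hc1] at e1
  refine le_trans ?_ (hB z hz)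
  rw [norm_div, norm_pow, div_le_iff₀ e2]
  nlinarith [norm_nonneg (g₄ z)]

/-- part b.  By contradiction with `l = L r`, `K = k + 1`.  `branch_lim` for `s₁`, `s₂`, `s₁ + s₂`; `null_vec` (`ν = 1`, `A₁²`, `A₁ A₂`, `A₂²`) gives `c` with
`c₁ A₁ + c₂ A₂ = 0`; `branch_lim` for `s_c`: `‖g_c z‖ ≤ 6 ‖z‖`; `sb_of_clim` on `{1 / L ≤ ‖z‖ ≤ 6 / L}` gives
`SB (frame 0 r (4 r)) (η / C₀)`; `apriori_sup` with `reg_univ`. -/
theorem mode_branch0 (η : ℝ) (hη : 0 < η) : ∃ L K : ℕ, 1 ≤ L ∧ ∀ (r : ℕ) (s₁ s₂ : Fn), K ≤ r →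
    SolOn (wOf Set.univ {0}) (box 0 (L * r)) s₁ → SolOn (wOf Set.univ {0}) (box 0 (L * r)) s₂ →
    WB {0} (box 0 (L * r)) (L * r) 1 s₁ → WB {0} (box 0 (L * r)) (L * r) 1 s₂ →
    ∃ c₁ c₂ : ℝ, |c₁| + |c₂| = 1 ∧ WB {0} (box 0 r) r η (c₁ • s₁ + c₂ • s₂) := by
  obtain ⟨C, K₀, hC⟩ := apriori_sup
  set B : ℝ := η / (|C| + 1) / 2 with hB
  have hB0 : 0 < B := by positivity
  obtain ⟨L, hL⟩ := exists_nat_gt (7 + 216 / B ^ 2)
  have hL1 : (7 : ℝ) < L := lt_of_le_of_lt (le_add_of_nonneg_right (by positivity)) hL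
  have hL2 : 216 / B ^ 2 < L := lt_of_le_of_lt (le_add_of_nonneg_left (by positivity)) hL
  have hL3 : 7 < L := by exact_mod_cast hL1
  have hL0 : (0 : ℝ) < L := by linarith
  by_contra hno
  push Not at hno
  choose r s₁ s₂ hr h1 h2 h3 h4 h5 using fun k => hno L (k + 1) (by omega)
  have rlim : Tendsto r atTop atTop := tendsto_atTop_mono (fun k => (Nat.le_succ k).trans (hr k)) tendsto_id
  have rpos : ∀ k, 0 < r k := fun k => (Nat.succ_pos k).trans_le (hr k)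
  obtain ⟨c₁, c₂, hc, hf⟩ := m2b_seq (l := fun k => L * r k) (fun k => Nat.mul_pos (by omega) (rpos k))
    (tendsto_atTop_mono (fun k => Nat.le_mul_of_pos_left _ (by omega)) rlim) (fun k => ⟨h1 k, h3 k⟩)
    (fun k => ⟨h2 k, h4 k⟩) (K := closedBall 0 (6 / L) \ ball 0 (1 / L))
    ((isCompact_closedBall _ _).diff isOpen_ball) (fun z hz => ⟨mem_ball_zero_iff.2
      ((mem_closedBall_zero_iff.1 hz.1).trans_lt ((div_lt_one hL0).2 (by linarith))), fun e => hz.2 (by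
        rw [Set.mem_singleton_iff.1 e]
        exact mem_ball_self (by positivity))⟩) hB0 (fun z hz => by
      have e1 := mem_closedBall_zero_iff.1 hz.1
      rw [le_div_iff₀ hL0] at e1
      rw [div_lt_iff₀ (by positivity)] at hL2
      refine le_of_mul_le_mul_right ?_ hL0
      nlinarith)
  obtain ⟨k, hk, hK⟩ := (hf.and_eventually (rlim.eventually_ge_atTop K₀)).exists
  have hr0 : (0 : ℝ) < r k := by exact_mod_cast rpos k
  have hw := hC Set.univ (K₀ * r k) {0} 0 (r k) (c₁ • s₁ k + c₂ • s₂ k) (B + B) (reg_univ _) hK le_rfl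
    (fun x hx => (h1 k).comb (h2 k) c₁ c₂ x (box_mono 0 (Nat.mul_le_mul_right _ (by omega)) hx))
    (fun p hp => hk p (by
      obtain ⟨q1, q2⟩ := Finset.mem_sdiff.1 hp
      rw [mem_box_iff] at q1 q2
      have t0 : toC 0 = 0 := by simp [toC, Complex.ext_iff]
      have d1 := supd_le_dist p 0
      have d2 := dist_le_supd p 0
      rw [t0, sub_zero] at d1 d2
      have q3 : (supd p 0 : ℝ) ≤ 4 * r k := by exact_mod_cast q1
      have q4 : (r k : ℝ) ≤ supd p 0 := by exact_mod_cast (not_le.1 q2).le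
      have hn : ‖(msh (fun k => L * r k) k : ℂ) * toC p‖ = ‖toC p‖ / (L * r k) := by
        rw [norm_mul, Complex.norm_real, Real.norm_of_nonneg (by unfold msh; positivity), msh, Nat.cast_mul,
          inv_mul_eq_div]
      refine ⟨mem_closedBall_zero_iff.2 ?_, fun h => not_le.2 (mem_ball_zero_iff.1 h) ?_⟩
      · rw [hn, div_le_div_iff₀ (by positivity) hL0]
        nlinarith
      · rw [hn, div_le_div_iff₀ hL0 (by positivity)]
        nlinarith))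
  refine h5 k c₁ c₂ hc fun x hx α => (hw x (box_mono 0 (by omega) hx) α).trans ?_
  refine mul_le_mul_of_nonneg_right (sq_le_sq' ?_ ?_) hr0.le
  all_goals
    have e : (|C| + 1) * (B + B) = η := by rw [hB]; field_simp; ring
    nlinarith [le_abs_self C, neg_abs_le C]

end Crest.Agent.R165
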