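import Crest.Agent.R165.BC.BLim

/-! # R165/BC/M3 (owner helper57).  An even cluster of branch points. -/

set_option autoImplicit false
noncomputable section
open Classical Filter Topology Metric ComplexConjugate

namespace Crest.Agent.R165

theorem m3_le (p : Site) : (supd p 0 : ℝ) ≤ ‖toC p‖ ∧ ‖toC p‖ ≤ 3 / 2 * supd p 0 := by
  have h0 : toC 0 = 0 := by simp [toC, Complex.ext_iff]
  have h1 := supd_le_dist p 0
  have h2 := dist_le_supd p 0
  rw [h0, sub_zero] at h1 h2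
  exact ⟨h1, h2⟩

theorem m3_norm {l : ℕ → ℕ} (pos : ∀ k, 0 < l k) (k : ℕ) (p : Site) :
    ‖(msh l k : ℂ) * toC p‖ = ‖toC p‖ / l k := by
  rw [norm_mul, Complex.norm_real, Real.norm_of_nonneg (msh_pos pos k).le, msh, div_eq_inv_mul]

theorem m3_pt {S : Finset Site} {l r₀ : ℕ} {C : ℝ} {s : Fn} (h : WB S (box 0 (2 * l)) l C s)
    (hS : ∀ v ∈ S, v ∈ box 0 r₀) {p : Site} (hp : p ∈ box 0 (2 * l)) (h3 : 3 * (r₀ : ℝ) ≤ ‖toC p‖) (α : Fin 4) :
    s (p, α) ^ 2 * ‖toC p‖ ≤ 3 * C ^ 2 * l := by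
  have h1 := (m3_le p).2
  have h2 : (supd p 0 : ℝ) ≤ 2 * l := by exact_mod_cast mem_box_iff.1 hp
  have h4 : ‖toC p‖ / 3 ≤ dB S l p := le_dB (by linarith) fun v hv => by
    have h5 : (supd p 0 : ℝ) ≤ supd p v + r₀ := by
      exact_mod_cast (supd_triangle p v 0).trans (Nat.add_le_add_left (mem_box_iff.1 (hS v hv)) _)
    linarith
  have h5 := h p hp α
  have h6 := mul_le_mul_of_nonneg_left h4 (sq_nonneg (s (p, α)))
  linarith

theorem m3_seq {l r₀ : ℕ → ℕ} {S : ℕ → Finset Site} {s : ℕ → Fn} (hl : ∀ k, k + 1 ≤ l k)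
    (hr : ∀ k, (k + 1) * r₀ k ≤ l k) (hE : ∀ k, Even (S k).card) (hS : ∀ k, ∀ v ∈ S k, v ∈ box 0 (r₀ k))
    (hs : ∀ k, SolOn (wOf Set.univ (S k)) (box 0 (4 * l k)) (s k)) (hb : ∀ k, SB (frame 0 (l k) (4 * l k)) 1 (s k))
    {δ : ℝ} (hδ : 0 < δ) :
    ∃ᶠ k in atTop, ∀ p, δ * l k ≤ ‖toC p‖ → ‖toC p‖ ≤ 3 / 2 * l k → ∀ α, |s k (p, α)| ≤ 3 := by
  have pos : ∀ k, 0 < l k := fun k => (Nat.succ_pos k).trans_le (hl k)
  have lim : Tendsto l atTop atTop := tendsto_atTop_mono (fun k => (Nat.le_succ k).trans (hl k)) tendsto_id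
  have pos' : ∀ k, (0 : ℝ) < l k := fun k => Nat.cast_pos.2 (pos k)
  have ha := msh_pos pos
  have ha0 := msh_lim lim
  obtain ⟨C, K, hC⟩ := apriori_sup
  choose σ hσ hσ' using fun k => even_gauge (S k) 0 (r₀ k) (hE k) (hS k)
  -- the estimate away from the cluster
  have key : ∀ ε > 0, ∀ᶠ k in atTop, ∀ p, ε ≤ ‖(msh l k : ℂ) * toC p‖ → ‖(msh l k : ℂ) * toC p‖ ≤ 2 →
      (∀ α, opA (wOf Set.univ ∅) (gaugeF (σ k) (s k)) (p, α) = 0) ∧
      ∀ α, gaugeF (σ k) (s k) (p, α) ^ 2 * ‖(msh l k : ℂ) * toC p‖ ≤ 3 * C ^ 2 := by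
    intro ε hε
    obtain ⟨N, hN⟩ := exists_nat_ge (9 / ε)
    filter_upwards [eventually_ge_atTop N, eventually_ge_atTop K] with k hk hK p h1 h2
    have hp : p ∈ box 0 (2 * l k) := mem_box_of_norm pos (by exact_mod_cast h2)
    have h3 : 3 * (r₀ k : ℝ) + 6 ≤ ‖toC p‖ := by
      rw [m3_norm pos, le_div_iff₀ (pos' k)] at h1
      have a1 : ((k : ℝ) + 1) * r₀ k ≤ l k := by exact_mod_cast hr k
      have a2 : (k : ℝ) + 1 ≤ l k := by exact_mod_cast hl k
      have a3 : (N : ℝ) ≤ k := by exact_mod_cast hk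
      have a4 : 9 ≤ ε * (k + 1) := by
        rw [div_le_iff₀ hε] at hN
        nlinarith
      have a5 : (0 : ℝ) < k + 1 := by positivity
      refine le_trans (le_of_mul_le_mul_left ?_ a5) h1
      nlinarith [mul_le_mul_of_nonneg_right a4 (pos' k).le]
    refine ⟨SolOn.gauge (hσ k) (w := wOf Set.univ (S k)) (W := {p}) (fun x hx => ?_) (fun x hx α => ?_) p rfl,
      fun α => ?_⟩
    · rw [Set.mem_singleton_iff.1 hx]
      exact hs k p (mem_box_iff.2 ((mem_box_iff.1 hp).trans (by omega)))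
    · rw [Set.mem_singleton_iff.1 hx]
      have a1 : (edgeOf p α).1 ∉ box 0 (r₀ k + 1) := fun h => by
        have a2 : supd p 0 ≤ 1 + (r₀ k + 1) := (supd_triangle p (edgeOf p α).1 0).trans (Nat.add_le_add
          (supd_comm _ _ ▸ mem_box_iff.1 (edgeOf_fst_mem_box p α)) (mem_box_iff.1 h))
        have a3 : (supd p 0 : ℝ) ≤ 1 + (r₀ k + 1) := by exact_mod_cast a2
        have a4 := (m3_le p).2
        have a5 : (0 : ℝ) ≤ r₀ k := Nat.cast_nonneg _
        linarith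
      simp only [wOf, gaugeW, Set.mem_univ, if_true, eray_empty]
      rw [mul_left_comm, hσ' k _ a1]
    · have a1 := hC Set.univ (K * l k) (S k) 0 (l k) (s k) 1 (reg_univ _) (by have := hl k; omega) le_rfl (hs k) (hb k)
      have a2 := m3_pt a1 (hS k) hp (by linarith) α
      rw [← sq_abs, abs_gaugeF (hσ k), sq_abs, m3_norm pos, ← mul_div_assoc, div_le_iff₀ (pos' k)]
      simpa using a2
  have hU : IsOpen (ball (0 : ℂ) 2 \ {0}) := isOpen_ball.sdiff isClosed_singleton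
  have hB : BulkSeq (ball 0 2 \ {0}) (msh l) (fun _ => (Fin.elim0 : Fin 0 → Site)) (fun _ => Set.univ)
      fun k => gaugeF (σ k) (s k) := by
    intro K' hK' hKU
    obtain ⟨ε, hε, h1⟩ := hK'.exists_forall_le' continuous_norm.continuousOn (a := 0)
      fun z hz => norm_pos_iff.2 (hKU hz).2
    refine ⟨√(3 * C ^ 2 / ε), ?_⟩
    filter_upwards [key ε hε] with k hk
    have h2 := fun p (hp : (msh l k : ℂ) * toC p ∈ K') => hk p (h1 _ hp) (mem_ball_zero_iff.1 (hKU hp).1).le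
    refine ⟨fun _ _ _ => Set.mem_univ _, fun p hp => ?_, fun p hp α => ?_⟩
    · rw [spinsOf, Finset.univ_eq_empty, Finset.image_empty]
      exact (h2 p hp).1
    · refine Real.abs_le_sqrt ?_
      rw [le_div_iff₀ hε]
      exact (mul_le_mul_of_nonneg_left (h1 _ hp) (sq_nonneg _)).trans ((h2 p hp).2 α)
  obtain ⟨ψ, g, hψ, hg, -, h1, h2⟩ := lim_bulk0 (x := Fin.elim0) hU ha ha0
    (Eventually.of_forall fun _ => Function.injective_of_subsingleton _) (fun i => i.elim0) (fun i => i.elim0) hB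
  simp only [rhoX, Finset.univ_eq_empty, Finset.prod_empty, div_one] at h1
  have ha' : ∀ k, 0 < (msh l ∘ ψ) k := fun k => ha _
  have ha0' : Tendsto (msh l ∘ ψ) atTop (𝓝 0) := ha0.comp hψ.tendsto_atTop
  have h3 : ∀ z, z ≠ 0 → ‖z‖ ≤ 8 / 5 → ‖g z‖ ≤ 2 := by
    refine remov_max (C := 12 * C ^ 2) (by norm_num) (by norm_num) hg (fun z hz hz' => ?_) fun z hz => ?_
    · obtain ⟨v, hv⟩ := exists_ptLim ha' ha0' z
      have a0 := norm_pos_iff.2 hz
      have a1 := (h1 z ⟨mem_ball_zero_iff.2 (by linarith), hz⟩ v hv).norm.mul hv.norm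
      rw [norm_pow] at a1
      refine le_of_tendsto a1 ?_
      filter_upwards [hψ.tendsto_atTop.eventually (key (‖z‖ / 2) (by positivity)),
        hv.norm.eventually_const_le (show ‖z‖ / 2 < ‖z‖ by linarith),
        hv.norm.eventually_le_const (show ‖z‖ < 2 by linarith)] with k hk b1 b2
      have b0 : 0 < ‖(msh l (ψ k) : ℂ) * toC (v k)‖ := lt_of_lt_of_le (by positivity) b1
      have b3 := norm_fld_le (M := √(3 * C ^ 2 / ‖(msh l (ψ k) : ℂ) * toC (v k)‖)) fun α =>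
        Real.abs_le_sqrt ((le_div_iff₀ b0).2 ((hk _ b1 b2).2 α))
      have b4 := pow_le_pow_left₀ (norm_nonneg _) b3 2
      rw [mul_pow, Real.sq_sqrt (by positivity), ← mul_div_assoc, le_div_iff₀ b0] at b4
      rw [norm_pow]
      exact b4.trans_eq (by ring)
    · obtain ⟨v, hv⟩ := exists_ptLim ha' ha0' z
      have a1 := (h1 z ⟨mem_ball_zero_iff.2 (by linarith), norm_pos_iff.1 (by linarith)⟩ v hv).norm
      rw [norm_pow] at a1
      refine le_of_sq_le_sq (le_of_tendsto a1 ?_) zero_le_two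
      filter_upwards [hv.norm.eventually_const_lt (show 3 / 2 < ‖z‖ by linarith),
        hv.norm.eventually_le_const (show ‖z‖ < 2 by linarith)] with k b1 b2
      have b3 : v k ∈ box 0 (2 * l (ψ k)) := mem_box_of_norm pos (by exact_mod_cast b2)
      have b4 : v k ∈ frame 0 (l (ψ k)) (4 * l (ψ k)) := by
        refine Finset.mem_sdiff.2 ⟨mem_box_iff.2 ((mem_box_iff.1 b3).trans (by omega)), fun h => ?_⟩
        have b5 : (supd (v k) 0 : ℝ) ≤ l (ψ k) := by exact_mod_cast mem_box_iff.1 h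
        have b6 := (m3_le (v k)).2
        rw [Function.comp_apply, m3_norm pos, lt_div_iff₀ (pos' _)] at b1
        linarith
      have b5 := norm_fld_le (s := gaugeF (σ (ψ k)) (s (ψ k))) (M := 1) fun α => by
        rw [abs_gaugeF (hσ _)]
        exact hb _ _ b4 α
      rw [norm_pow]
      exact pow_le_pow_left₀ (norm_nonneg _) (b5.trans_eq (mul_one _)) 2
  have h4 := sb_of_clim ha' ha0' h1 h2 (K := closedBall 0 (3 / 2) \ ball 0 δ)
    ((isCompact_closedBall _ _).diff isOpen_ball) (fun z hz => ⟨closedBall_subset_ball (by norm_num) hz.1,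
      fun h => hz.2 (by rw [h]; exact mem_ball_self hδ)⟩) zero_le_two (fun z hz => by
        rw [norm_pow]
        refine pow_le_pow_left₀ (norm_nonneg _) (h3 z (fun h => hz.2 (by rw [h]; exact mem_ball_self hδ)) ?_) 2
        exact (mem_closedBall_zero_iff.1 hz.1).trans (by norm_num)) one_pos
  refine hψ.tendsto_atTop.frequently (h4.mono fun k hk p b1 b2 α => ?_).frequently
  rw [← abs_gaugeF (hσ _)]
  refine (hk p ⟨?_, ?_⟩ α).trans_eq (by norm_num)
  · rw [mem_closedBall_zero_iff, Function.comp_apply, m3_norm pos, div_le_iff₀ (pos' _)]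
    exact b2
  · rw [mem_ball_zero_iff, Function.comp_apply, m3_norm pos, not_lt, le_div_iff₀ (pos' _)]
    exact b1

/-- `C = 3`.  By contradiction with `l = L r`, `K = k + 1`.  `apriori_sup` (`reg_univ`) and `le_dB` bound `s² ≤ C l / ‖p‖` on `box 0 (2 l)` for
`‖p‖ ≥ ε l`.  Gauge with `even_gauge`; `lim_bulk0` (`n = 0`) on `ball 0 2 \ {0}`; `remov_max` with `r = 8/5` (the sphere lies in the
frame `1 < ‖·‖_∞ < 2` by `dist_le_supd`, there `‖fld‖ ≤ 2`); `sb_of_clim` on `{1 / L ≤ ‖z‖ ≤ 3/2}`. -/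
theorem mode_cluster0 : ∃ C : ℝ, ∀ L : ℕ, 1 ≤ L → ∃ K : ℕ, ∀ (S : Finset Site) (r r₀ : ℕ) (s : Fn), K ≤ r →
    K * r₀ ≤ r → Even S.card → (∀ v ∈ S, v ∈ box 0 r₀) → SolOn (wOf Set.univ S) (box 0 (4 * L * r)) s →
    SB (frame 0 (L * r) (4 * L * r)) 1 s → SB (frame 0 r (4 * L * r)) C s := by
  refine ⟨3, fun L hL => ?_⟩
  by_contra hne
  simp only [not_exists, not_forall, mul_assoc] at hne
  choose S r r₀ s h1 h2 h3 h4 h5 h6 h7 using fun k => hne (k + 1)
  have hL' : (0 : ℝ) < L := Nat.cast_pos.2 hL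
  obtain ⟨k, hk⟩ := (m3_seq (l := fun k => L * r k) (fun k => (h1 k).trans (Nat.le_mul_of_pos_left _ hL))
    (fun k => (h2 k).trans (Nat.le_mul_of_pos_left _ hL)) h3 h4 h5 h6 (δ := (L : ℝ)⁻¹) (inv_pos.2 hL')).exists
  refine h7 k fun p hp α => ?_
  obtain ⟨a1, a2⟩ := Finset.mem_sdiff.1 hp
  by_cases a3 : p ∈ box 0 (L * r k)
  · refine hk p ?_ ?_ α
    · have a4 : (r k : ℝ) ≤ supd p 0 := by exact_mod_cast (not_le.1 (mt mem_box_iff.2 a2)).le
      rw [Nat.cast_mul, inv_mul_cancel_left₀ hL'.ne']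
      exact a4.trans (m3_le p).1
    · have a4 : (supd p 0 : ℝ) ≤ (L * r k : ℕ) := by exact_mod_cast mem_box_iff.1 a3
      have a5 := (m3_le p).2
      linarith
  · exact (h6 k p (Finset.mem_sdiff.2 ⟨a1, a3⟩) α).trans (by norm_num)

end Crest.Agent.R165
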