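import Crest.Agent.R165.BC.BLim

/-! # R165/BC/M4 (owner helper57).  A branch point close to the boundary. -/

set_option autoImplicit false
noncomputable section
open Classical Filter Topology Metric ComplexConjugate

namespace Crest.Agent.R165

theorem m4a_norm {l : ℕ → ℕ} (pos : ∀ k, 0 < l k) (k : ℕ) (p : Site) :
    ‖(msh l k : ℂ) * toC p‖ * l k = ‖toC p‖ := by
  have : (0 : ℝ) < l k := Nat.cast_pos.2 (pos k)
  rw [norm_mul, Complex.norm_real, msh, Real.norm_of_nonneg (inv_nonneg.2 this.le)]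
  field_simp

theorem m4a_ne {ν z : ℂ} {R : ℝ} (hz : z ∈ HD ν R) : z ≠ 0 := by
  rintro rfl
  simpa using hz.2

/-- part a.  `bdry_lim` (`n = 1`), `F = g² / z`, `‖F z‖ ‖z‖ ≤ 4 C₁`; `reflect_bd` with `M = 8 C₁`; `h_bound`; pass to a subsequence with
`msh * p k → z`, `bdry_transfer` with `θ = ‖z‖ / 10`, `δ = 2 M ‖z‖`. -/
theorem bb_seq (C₁ : ℝ) : ∃ C : ℝ, ∀ {l : ℕ → ℕ} {E : ℕ → Set Edge} {ρ : ℕ → ℝ} {v : ℕ → Fin 1 → Site} {ν : ℂ}
    (s : ℕ → Fn), BSeq l E ρ v ν → (∀ k, SolOn (wOf (E k) {v k 0}) (box 0 (50 * l k)) (s k)) →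
    (∀ ε > 0, ∀ᶠ k in atTop, ∀ p ∈ box 0 (5 * l k), ε * l k ≤ ‖toC p‖ → ∀ α, s k (p, α) ^ 2 * ‖toC p‖ ≤ C₁ * l k) →
    ∀ ε > 0, ∀ p : ℕ → Site, (∀ k, ε * l k ≤ ‖toC (p k)‖ ∧ ‖toC (p k)‖ ≤ l k / 2) →
    ∃ᶠ k in atTop, ∀ α, |s k (p k, α)| ≤ C := by
  obtain ⟨Ct, hCt⟩ := bdry_transfer
  refine ⟨Real.sqrt (Ct * (10 * (16 * |C₁| + 1))), fun {l E ρ v ν} s hB hsol hb ε hε p hp => ?_⟩
  have hl : ∀ k, (0 : ℝ) < l k := fun k => Nat.cast_pos.2 (hB.pos k)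
  have hC := abs_nonneg C₁
  -- the rescaled form of the hypothesis
  have hb' : ∀ η > 0, ∀ᶠ k in atTop, ∀ q, η ≤ ‖(msh l k : ℂ) * toC q‖ → ‖(msh l k : ℂ) * toC q‖ ≤ 5 →
      ∀ α, |s k (q, α)| ≤ Real.sqrt (|C₁| / ‖(msh l k : ℂ) * toC q‖) := fun η hη => by
    filter_upwards [hb η hη] with k hk q h1 h2 α
    have h3 := m4a_norm hB.pos k q
    have h4 := hk q (mem_box_of_norm hB.pos (c := 5) (by exact_mod_cast h2))
      (by rw [← h3]; exact mul_le_mul_of_nonneg_right h1 (hl k).le) α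
    rw [← h3, ← mul_assoc] at h4
    exact Real.abs_le_sqrt ((le_div_iff₀ (hη.trans_le h1)).2
      ((le_of_mul_le_mul_right h4 (hl k)).trans (le_abs_self _)))
  have hsp : ∀ k, spinsOf (v k) = {v k 0} := fun k => by
    ext x
    simp [spinsOf]
  obtain ⟨Hw, Hb, hs⟩ := exists_bsol hB (s := s) (fun k => by rw [hsp]; exact hsol k) fun η hη =>
    ⟨Real.sqrt (|C₁| / η), by
      filter_upwards [hb η hη] with k hk q hq h1 α
      have h2 := (mul_le_mul_of_nonneg_left h1 (sq_nonneg (s k (q, α)))).trans (hk q hq h1 α)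
      rw [← mul_assoc] at h2
      exact Real.abs_le_sqrt ((le_div_iff₀ hη).2 ((le_of_mul_le_mul_right h2 (hl k)).trans (le_abs_self _)))⟩
  obtain ⟨ψ, g, h, hψ, hg, -, hF, hH, hh, h0⟩ := bdry_lim hB hs
  have hB' := hB.subseq hψ
  have h1 : ∀ z ∈ HD ν 1, ‖g z ^ 2 / z ^ 1‖ * ‖z‖ ≤ 4 * |C₁| := fun z hz => by
    obtain ⟨u, hu⟩ := exists_ptLim (msh_pos hB'.pos) (msh_lim hB'.lim) z
    have hz0 : 0 < ‖z‖ := norm_pos_iff.2 (m4a_ne hz)
    have hn : Tendsto (fun k => ‖(msh l (ψ k) : ℂ) * toC (u k)‖) atTop (𝓝 ‖z‖) := Tendsto.norm hu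
    refine le_of_tendsto ((hF z hz u hu).norm.mul hn) ?_
    filter_upwards [hψ.tendsto_atTop.eventually (hb' (‖z‖ / 2) (half_pos hz0)),
      hn.eventually (lt_mem_nhds (half_lt_self hz0)), hn.eventually (gt_mem_nhds hz.1)] with k h2 h3 h4
    have h5 := norm_fld_le (h2 (u k) h3.le (by linarith))
    have h6 : 0 < ‖(msh l (ψ k) : ℂ) * toC (u k)‖ := (half_pos hz0).trans h3
    rw [norm_pow, ← le_div_iff₀ h6]
    refine (pow_le_pow_left₀ (norm_nonneg _) h5 2).trans (le_of_eq ?_)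
    rw [mul_pow, Real.sq_sqrt (div_nonneg hC h6.le)]
    ring
  obtain ⟨A, -, hA⟩ := reflect_bd (F := fun z => g z ^ 2 / z ^ 1) (M := 8 * |C₁|) hB.nu
    ((hg.pow 2).div (differentiableOn_id.pow 1) fun z hz => pow_ne_zero _ (m4a_ne hz)) hh h0 h1 fun z hz h2 => by
      nlinarith [h1 z hz, norm_nonneg (g z ^ 2 / z ^ 1)]
  have h2 := h_bound (F := fun z => g z ^ 2 / z ^ 1) hB.nu le_rfl hh h0 fun z hz => (hA z hz).1
  have hK : IsCompact (closedBall (0 : ℂ) (1 / 2) ∩ {z | ε ≤ ‖z‖}) :=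
    (isCompact_closedBall _ _).inter_right (isClosed_le continuous_const continuous_norm)
  obtain ⟨z, ⟨hz1, hz2⟩, φ, hφ, hlim⟩ := hK.tendsto_subseq
    (x := fun k => (msh l (ψ k) : ℂ) * toC (p (ψ k))) fun k => by
      have h3 := m4a_norm hB.pos (ψ k) (p (ψ k))
      refine ⟨mem_closedBall_zero_iff.2 (le_of_mul_le_mul_right ?_ (hl (ψ k))),
        le_of_mul_le_mul_right ?_ (hl (ψ k))⟩
      · rw [h3]
        linarith [(hp (ψ k)).2]
      · rw [h3]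
        exact (hp (ψ k)).1
  rw [mem_closedBall_zero_iff] at hz1
  have hz0 : 0 < ‖z‖ := hε.trans_le hz2
  have h3 := hCt hB' (hs.subseq hψ) hH z (‖z‖ / 10) (16 * |C₁| * ‖z‖) ((16 * |C₁| + 1) * ‖z‖)
    (Real.sqrt (|C₁| / (‖z‖ / 4))) (by positivity) (by linarith) (fun _ => by linarith) (by
      filter_upwards [hψ.tendsto_atTop.eventually (hb' (‖z‖ / 4) (by positivity))] with k h4 q hq α
      have h5 : ‖(msh l (ψ k) : ℂ) * toC q - z‖ < 6 * (‖z‖ / 10) := by rw [← dist_eq_norm]; exact hq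
      have h6 := abs_le.1 (abs_norm_sub_norm_le ((msh l (ψ k) : ℂ) * toC q) z)
      have h7 : ‖z‖ / 4 ≤ ‖(msh l (ψ k) : ℂ) * toC q‖ := by linarith [h6.1]
      refine (h4 q h7 (by linarith [h6.2]) α).trans (Real.sqrt_le_sqrt ?_)
      exact div_le_div_of_nonneg_left hC (by positivity) h7)
    (fun w hw h4 => by
      have h5 : (w * conj ν).re ≤ ‖w‖ := (Complex.re_le_norm _).trans (by simp [hB.nu])
      have h6 := abs_le.1 (abs_norm_sub_norm_le w z)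
      rw [dist_eq_norm] at h4
      refine (h2 w hw).trans ?_
      nlinarith [h6.2]) (by positivity) (by linarith)
  refine (hψ.comp hφ).tendsto_atTop.frequently (Eventually.frequently ?_)
  filter_upwards [hφ.tendsto_atTop.eventually h3,
    (Metric.tendsto_nhds.1 hlim) (‖z‖ / 10) (by positivity)] with k h4 h5 α
  refine Real.abs_le_sqrt ((h4 _ h5 α).trans (le_of_eq ?_))
  field_simp

theorem m4b_toC_zero : toC 0 = 0 := by
  apply Complex.ext <;> simp [toC]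

theorem m4b_supd_le (p : Site) : (supd p 0 : ℝ) ≤ ‖toC p‖ := by
  simpa [m4b_toC_zero] using supd_le_dist p 0

theorem m4b_le_supd (p : Site) : ‖toC p‖ ≤ 3 / 2 * supd p 0 := by
  simpa [m4b_toC_zero] using dist_le_supd p 0

theorem m4b_apr : ∃ C₁ : ℝ, 0 ≤ C₁ ∧ ∃ K₀ : ℕ, ∀ (E : Set Edge) (ρ : ℝ) (v : Site) (m r₀ : ℕ) (s : Fn), Reg E ρ → K₀ ≤ m →
    (K₀ * m : ℝ) ≤ ρ → v ∈ box 0 r₀ → SolOn (wOf E {v}) (box 0 (4 * m)) s → SB (frame 0 m (4 * m)) 1 s →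
    ∀ p ∈ box 0 (2 * m), 2 * r₀ ≤ supd p 0 → ∀ α, s (p, α) ^ 2 * ‖toC p‖ ≤ C₁ * m := by
  obtain ⟨C₀, K₀, h⟩ := apriori_sup
  refine ⟨3 * C₀ ^ 2, by positivity, K₀, fun E ρ v m r₀ s hE h1 h2 hv hs hb p hp hp' α => ?_⟩
  have h3 := h E ρ {v} 0 m s 1 hE h1 h2 hs hb p hp α
  have hp1 : supd p 0 ≤ 2 * m := mem_box_iff.1 hp
  have hv1 : supd v 0 ≤ r₀ := mem_box_iff.1 hv
  have htri := supd_triangle p v 0
  have h4 : (supd p 0 : ℝ) / 2 ≤ dB {v} m p := by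
    refine le_dB ?_ fun w hw => ?_
    · have : (supd p 0 : ℝ) ≤ 2 * m := by exact_mod_cast hp1
      linarith
    · rw [Finset.mem_singleton.1 hw]
      have : (supd p 0 : ℝ) ≤ 2 * supd p v := by exact_mod_cast (by omega : supd p 0 ≤ 2 * supd p v)
      linarith
  have h5 := m4b_le_supd p
  have h6 : ‖toC p‖ ≤ 3 * dB {v} m p := by linarith
  calc s (p, α) ^ 2 * ‖toC p‖ ≤ s (p, α) ^ 2 * (3 * dB {v} m p) := mul_le_mul_of_nonneg_left h6 (sq_nonneg _)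
    _ = 3 * (s (p, α) ^ 2 * dB {v} m p) := by ring
    _ ≤ 3 * ((C₀ * 1) ^ 2 * m) := by linarith
    _ = 3 * C₀ ^ 2 * m := by ring

/-- part b.  `apriori_sup` at the scale `L r` and `le_dB`: `s² ‖p‖ ≤ C L r` on `box 0 (2 L r)` outside `box 0 (2 r₀)`.  With
`l = 4 L r / 50` this settles `‖p‖ ≥ l / 2`; otherwise contradiction (`K = k + 13`) with `exists_bseq`, `bb_seq`. -/
theorem mode_bdry_branch0 : ∃ C : ℝ, ∀ L : ℕ, 1 ≤ L → ∃ K : ℕ, ∀ (E : Set Edge) (ρ : ℝ) (v : Site) (r r₀ : ℕ) (s : Fn),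
    Reg E ρ → K ≤ r → (K * r : ℝ) ≤ ρ → K * r₀ ≤ r → BdryB E 0 → v ∈ box 0 r₀ →
    SolOn (wOf E {v}) (box 0 (4 * L * r)) s → SB (frame 0 (L * r) (4 * L * r)) 1 s →
    SB (frame 0 r (4 * L * r)) C s := by
  obtain ⟨C₁, hC₁, K₀, hapr⟩ := m4b_apr
  obtain ⟨C₂, hbb⟩ := bb_seq (25 * C₁)
  refine ⟨max (max 1 C₂) (50 * C₁ + 1), fun L hL => ?_⟩
  set C := max (max 1 C₂) (50 * C₁ + 1) with hC
  have hC1 : 1 ≤ C := (le_max_left _ _).trans (le_max_left _ _)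
  have hC2 : C₂ ≤ C := (le_max_right _ _).trans (le_max_left _ _)
  have hC3 : 50 * C₁ + 1 ≤ C := le_max_right _ _
  by_contra hcon
  have hex : ∀ k : ℕ, ∃ (E : Set Edge) (ρ : ℝ) (v : Site) (r r₀ : ℕ) (s : Fn) (p : Site) (α : Fin 4),
      Reg E ρ ∧ k + 25 + K₀ * L ≤ r ∧ ((k + 25 + K₀ * L : ℕ) * r : ℝ) ≤ ρ ∧ (k + 25 + K₀ * L) * r₀ ≤ r ∧ BdryB E 0 ∧
      v ∈ box 0 r₀ ∧ SolOn (wOf E {v}) (box 0 (4 * (L * r))) s ∧ SB (frame 0 (L * r) (4 * (L * r))) 1 s ∧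
      p ∈ frame 0 r (4 * (L * r)) ∧ C < |s (p, α)| := by
    intro k
    by_contra hk
    refine hcon ⟨k + 25 + K₀ * L, fun E ρ v r r₀ s h1 h2 h3 h4 h5 h6 h7 h8 p hp α => not_lt.1 fun h9 => hk ?_⟩
    rw [mul_assoc] at h7 h8 hp
    exact ⟨E, ρ, v, r, r₀, s, p, α, h1, h2, h3, h4, h5, h6, h7, h8, hp, h9⟩
  choose E ρ v r r₀ s p α hE hr hρ hr₀ hb hv hs hS hp hbig using hex
  set l : ℕ → ℕ := fun k => 4 * (L * r k) / 50 with hl
  have hrm : ∀ k, r k ≤ L * r k := fun k => Nat.le_mul_of_pos_left _ hL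
  have hl1 : ∀ k, 50 * l k ≤ 4 * (L * r k) := fun k => by simp only [hl]; omega
  have hl2 : ∀ k, L * r k ≤ 25 * l k := fun k => by
    have h1 := hrm k
    have h2 := hr k
    simp only [hl]
    omega
  have hpos : ∀ k, 0 < l k := fun k => by
    have h1 := hrm k
    have h2 := hr k
    have h3 := hl2 k
    omega
  have hkl : ∀ k, k ≤ 25 * l k := fun k => by
    have h1 := hrm k
    have h2 := hr k
    have h3 := hl2 k
    omega
  have hLpos : (0 : ℝ) < L := by exact_mod_cast hL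
  have hposR : ∀ k, (0 : ℝ) < l k := fun k => by exact_mod_cast hpos k
  have hA : ∀ k, ∀ q ∈ box 0 (2 * (L * r k)), 2 * r₀ k ≤ supd q 0 → ∀ β,
      s k (q, β) ^ 2 * ‖toC q‖ ≤ 25 * C₁ * l k := by
    intro k q hq hq' β
    have h1 : K₀ ≤ L * r k := by
      have h2 := hr k
      have h3 : K₀ ≤ K₀ * L := Nat.le_mul_of_pos_right _ hL
      have h4 := hrm k
      omega
    have h2 : (K₀ * (L * r k : ℕ) : ℝ) ≤ ρ k := by
      refine le_trans ?_ (hρ k)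
      have : K₀ * (L * r k) ≤ (k + 25 + K₀ * L) * r k := by
        rw [← mul_assoc]
        exact Nat.mul_le_mul_right _ (by omega)
      exact_mod_cast this
    have h3 := hapr (E k) (ρ k) (v k) (L * r k) (r₀ k) (s k) (hE k) h1 h2 (hv k) (hs k) (hS k) q hq hq' β
    have h4 : ((L * r k : ℕ) : ℝ) ≤ 25 * l k := by exact_mod_cast hl2 k
    calc _ ≤ C₁ * (L * r k : ℕ) := h3
      _ ≤ C₁ * (25 * l k) := mul_le_mul_of_nonneg_left h4 hC₁
      _ = 25 * C₁ * l k := by ring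
  have hp1 : ∀ k, r k < supd (p k) 0 ∧ supd (p k) 0 ≤ 4 * (L * r k) := fun k => by
    have := Finset.mem_sdiff.1 (hp k)
    exact ⟨not_le.1 fun h => this.2 (mem_box_iff.2 h), mem_box_iff.1 this.1⟩
  have hp2 : ∀ k, ‖toC (p k)‖ ≤ l k / 2 := fun k => by
    by_contra hlt
    rw [not_le] at hlt
    by_cases hin : supd (p k) 0 ≤ L * r k
    · have h1 : 2 * r₀ k ≤ supd (p k) 0 := by
        have h2 := hr₀ k
        have h3 := (hp1 k).1
        have h4 : 2 * r₀ k ≤ (k + 25 + K₀ * L) * r₀ k := Nat.mul_le_mul_right _ (by omega)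
        omega
      have h2 := hA k (p k) (mem_box_iff.2 (by omega)) h1 (α k)
      have h3 : s k (p k, α k) ^ 2 * (l k / 2) ≤ s k (p k, α k) ^ 2 * ‖toC (p k)‖ :=
        mul_le_mul_of_nonneg_left hlt.le (sq_nonneg _)
      have h4 : s k (p k, α k) ^ 2 ≤ 50 * C₁ := by
        have h5 : s k (p k, α k) ^ 2 * l k ≤ 50 * C₁ * l k := by linarith
        exact le_of_mul_le_mul_right h5 (hposR k)
      have h5 := hbig k
      have h6 : |s k (p k, α k)| ^ 2 = s k (p k, α k) ^ 2 := sq_abs _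
      nlinarith
    · have h1 : p k ∈ frame 0 (L * r k) (4 * (L * r k)) :=
        Finset.mem_sdiff.2 ⟨mem_box_iff.2 (hp1 k).2, fun h => hin (mem_box_iff.1 h)⟩
      have h2 := hS k (p k) h1 (α k)
      have h3 := hbig k
      linarith
  have hp3 : ∀ k, 1 / (L : ℝ) * l k ≤ ‖toC (p k)‖ := fun k => by
    have h1 : (l k : ℝ) ≤ L * supd (p k) 0 := by
      have h2 := hl1 k
      have h3 : L * r k ≤ L * supd (p k) 0 := Nat.mul_le_mul_left _ (hp1 k).1.le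
      exact_mod_cast (by omega : l k ≤ L * supd (p k) 0)
    refine le_trans ?_ (m4b_supd_le (p k))
    rw [div_mul_eq_mul_div, one_mul, div_le_iff₀ hLpos]
    linarith
  have hlim : Tendsto l atTop atTop := by
    refine tendsto_atTop.2 fun b => ?_
    filter_upwards [eventually_ge_atTop (25 * b)] with k hk
    have := hkl k
    omega
  have hrho : Tendsto (fun k => ρ k / l k) atTop atTop := by
    refine tendsto_atTop_mono (f := fun k : ℕ => (k : ℝ) / L) (fun k => ?_)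
      (tendsto_natCast_atTop_atTop.atTop_div_const hLpos)
    rw [div_le_div_iff₀ hLpos (hposR k)]
    have h1 : k * l k ≤ (k + 25 + K₀ * L) * r k * L := by
      have h2 := hl1 k
      calc k * l k ≤ (k + 25 + K₀ * L) * (L * r k) := Nat.mul_le_mul (by omega) (by omega)
        _ = _ := by ring
    have h2 : (k : ℝ) * l k ≤ ((k + 25 + K₀ * L : ℕ) * r k : ℝ) * L := by exact_mod_cast h1
    exact h2.trans (mul_le_mul_of_nonneg_right (hρ k) hLpos.le)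
  have hr0l : ∀ k, k * r₀ k ≤ 25 * l k := fun k => by
    have h1 := hr₀ k
    have h2 : k * r₀ k ≤ (k + 25 + K₀ * L) * r₀ k := Nat.mul_le_mul_right _ (by omega)
    have h3 := hrm k
    have h4 := hl2 k
    omega
  have hvl : PtLim (msh l) v 0 := by
    refine squeeze_zero_norm' (a := fun k : ℕ => (75 / 2 : ℝ) / k) ?_ (tendsto_const_div_atTop_nhds_zero_nat _)
    filter_upwards [eventually_gt_atTop 0] with k hk
    have hk' : (0 : ℝ) < k := by exact_mod_cast hk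
    have h1 : (supd (v k) 0 : ℝ) ≤ r₀ k := by exact_mod_cast mem_box_iff.1 (hv k)
    have h2 := m4b_le_supd (v k)
    have h3 : (k : ℝ) * r₀ k ≤ 25 * l k := by exact_mod_cast hr0l k
    rw [norm_mul, Complex.norm_real, msh, Real.norm_eq_abs, abs_of_pos (inv_pos.2 (hposR k)), inv_mul_eq_div,
      div_le_div_iff₀ (hposR k) hk']
    have h4 : ‖toC (v k)‖ * k ≤ 3 / 2 * r₀ k * k := mul_le_mul_of_nonneg_right (by linarith) hk'.le
    linarith
  obtain ⟨ψ, ν, hψ, hB⟩ := exists_bseq (n := 1) (v := fun k _ => v k) hpos hlim hE hrho hb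
    (fun k => Function.injective_of_subsingleton _) fun _ => hvl
  have hfin := hbb (fun k => s (ψ k)) hB
    (fun k x hx => hs (ψ k) x (box_mono 0 (hl1 (ψ k)) hx)) (fun ε hε => by
      filter_upwards [hψ.tendsto_atTop.eventually (eventually_ge_atTop ⌈75 / ε⌉₊)] with k hk q hq hq' β
      refine hA (ψ k) q (box_mono 0 (by have := hl1 (ψ k); omega) hq) ?_ β
      have h1 : 75 / ε ≤ (ψ k : ℝ) := (Nat.le_ceil _).trans (by exact_mod_cast hk)
      rw [div_le_iff₀ hε] at h1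
      have h2 : (ψ k : ℝ) * r₀ (ψ k) ≤ 25 * l (ψ k) := by exact_mod_cast hr0l (ψ k)
      have h3 := m4b_le_supd q
      have h4 : (75 : ℝ) * r₀ (ψ k) ≤ ψ k * ε * r₀ (ψ k) := mul_le_mul_of_nonneg_right h1 (Nat.cast_nonneg _)
      have h5 : ε * ((ψ k : ℝ) * r₀ (ψ k)) ≤ ε * (25 * l (ψ k)) := mul_le_mul_of_nonneg_left h2 hε.le
      have h6 : (2 : ℝ) * r₀ (ψ k) ≤ supd q 0 := by nlinarith
      exact_mod_cast h6)
    (1 / L) (by positivity) (fun k => p (ψ k)) fun k => ⟨hp3 (ψ k), hp2 (ψ k)⟩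
  obtain ⟨k, hk⟩ := hfin.exists
  have h1 := hk (α (ψ k))
  have h2 := hbig (ψ k)
  linarith

end Crest.Agent.R165
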