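import Crest.Agent.R165.BC.Shift
import Crest.Agent.R165.BC.M1
import Crest.Agent.R165.BC.M2
import Crest.Agent.R165.BC.M3
import Crest.Agent.R165.BC.M4

/-! # R165 block BC: discrete-to-continuum compactness and the four mode lemmas
(OWNER fills the sorries; statements FROZEN, add lemmas freely). Recipes: notes165/route.md §BC. -/

set_option autoImplicit false
noncomputable section
open Classical Filter Topology

namespace Crest.Agent.R165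

/-- **compactness in the bulk.** `U` avoids the limits `x i` of the branch points; other branch points leave every
compact subset of `U` and are not in `S k` (apply a gauge first), or `U` is disjoint from their cuts. -/
theorem lim_bulk {U : Set ℂ} (hU : IsOpen U) {a : ℕ → ℝ} (ha : ∀ k, 0 < a k) (ha0 : Tendsto a atTop (𝓝 0))
    {n : ℕ} (v : ℕ → Fin n → Site) (hv : ∀ᶠ k in atTop, Function.Injective (v k)) (x : Fin n → ℂ)
    (hx : ∀ i, PtLim a (fun k => v k i) (x i)) (hxU : ∀ i, x i ∉ U)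
    (E : ℕ → Set Edge) (s : ℕ → Fn) (Hw Hb : ℕ → Site → ℝ)
    (h : ∀ K, IsCompact K → K ⊆ U → ∃ C : ℝ, ∀ᶠ k in atTop,
      Crit (E k) {p | (a k : ℂ) * toC p ∈ K} ∧ SolOn (wOf (E k) (spinsOf (v k))) {p | (a k : ℂ) * toC p ∈ K} (s k) ∧
      SB {p | (a k : ℂ) * toC p ∈ K} C (s k) ∧
      IsH (wOf (E k) (spinsOf (v k))) (s k) {p | (a k : ℂ) * toC p ∈ K} (Hw k) (Hb k) ∧
      ∀ p, (a k : ℂ) * toC p ∈ K → |a k * Hw k p| ≤ C) :
    ∃ (ψ : ℕ → ℕ) (g : ℂ → ℂ) (h : ℂ → ℝ), StrictMono ψ ∧ DifferentiableOn ℂ g U ∧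
      CLim (a ∘ ψ) U (fun k p => ((a (ψ k) ^ ((n : ℝ) / 2) : ℝ) : ℂ) * gfld (spinsOf (v (ψ k))) (s (ψ k)) p) g ∧
      CLim (a ∘ ψ) U (fun k p => a (ψ k) * Hw (ψ k) p * (Real.sqrt 2 / (1 + tc ^ 2))) h ∧
      ∀ z ∈ U, HasFDerivAt h
        (Complex.reCLM.comp ((-(g z ^ 2 / rhoX x z)) • ContinuousLinearMap.id ℝ ℂ : ℂ →L[ℝ] ℂ)) z :=
  let ⟨ψ, g, H, h1, h2, h3, _, _, h4, h5⟩ := lim_bulk1 hU ha ha0 hv hx hxU
    (fun K hK hKU => (h K hK hKU).imp fun _ hC => hC.mono fun _ hk => ⟨hk.1, hk.2.1, hk.2.2.1⟩) Hw Hb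
    fun K hK hKU => (h K hK hKU).imp fun _ hC => hC.mono fun _ hk => hk.2.2.2
  ⟨ψ, g, H, h1, h2, h3, h4, h5⟩

/-- **one real mode at a boundary point** -/
theorem mode_bdry (η : ℝ) (hη : 0 < η) : ∃ L K : ℕ, 1 ≤ L ∧ ∀ (E : Set Edge) (ρ : ℝ) (S : Finset Site) (b : Site) (r : ℕ)
    (s₁ s₂ : Fn), Reg E ρ → K ≤ r → (K * r : ℝ) ≤ ρ → BdryB E b → (∀ v ∈ S, v ∉ box b (L * r + 2)) →
    SolOn (wOf E S) (box b (L * r)) s₁ → SolOn (wOf E S) (box b (L * r)) s₂ →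
    SB (box b (L * r)) 1 s₁ → SB (box b (L * r)) 1 s₂ →
    ∃ c₁ c₂ : ℝ, |c₁| + |c₂| = 1 ∧ SB (box b r) η (c₁ • s₁ + c₂ • s₂) := by
  obtain ⟨L, K, hL, H⟩ := mode_bdry0 η hη
  refine ⟨L, K, hL, fun E ρ S b r s₁ s₂ hE hK hρ hb hS h1 h2 h3 h4 => ?_⟩
  obtain ⟨σ, hσ, hg⟩ := exists_gauge S ∅ b (L * r + 1) fun v hv =>
    ⟨fun h => (hS v h hv).elim, fun h => absurd h (Finset.notMem_empty v)⟩
  have hw : ∀ x ∈ ((box b (L * r) : Finset Site) : Set Site), ∀ α,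
      wOf E ∅ (edgeOf x α) = gaugeW σ (wOf E S) (edgeOf x α) := fun x hx α => by
    have h0 : box x 1 ⊆ box b (L * r + 1) := box_sub hx le_rfl
    have h5 : (edgeOf x α).1 + uv (edgeOf x α).2 ∈ box x 1 := by
      fin_cases α <;> simp [edgeOf, uv, box] <;> omega
    have := hg (edgeOf x α) (h0 (edgeOf_fst_mem_box x α)) (h0 h5)
    simp only [wOf, gaugeW]
    split_ifs
    · rw [← this]; ring
    · rw [mul_zero]
  have hb' : ∀ {s : Fn} {W : Set Site} {M : ℝ}, SB W M (gaugeF σ s) ↔ SB W M s := by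
    intro s W M
    simp only [SB, abs_gaugeF hσ]
  have e : shS b ∅ = ∅ := Finset.image_empty _
  obtain ⟨c₁, c₂, hc, h5⟩ := H (shEs b E) ρ r _ _ (hE.sh b) hK hρ hb.sh (e ▸ (h1.gauge hσ hw).sh)
    (e ▸ (h2.gauge hσ hw).sh) (sb_box_sh.2 (hb'.2 h3)) (sb_box_sh.2 (hb'.2 h4))
  rw [← shift_comb, sb_box_sh, ← gaugeF_comb, hb'] at h5
  exact ⟨c₁, c₂, hc, h5⟩

/-- **one real mode at a branch point** (the natural size at scale `r` is `√L`) -/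
theorem mode_branch (η : ℝ) (hη : 0 < η) : ∃ L K : ℕ, 1 ≤ L ∧ ∀ (v : Site) (r : ℕ) (s₁ s₂ : Fn), K ≤ r →
    SolOn (wOf Set.univ {v}) (box v (L * r)) s₁ → SolOn (wOf Set.univ {v}) (box v (L * r)) s₂ →
    WB {v} (box v (L * r)) (L * r) 1 s₁ → WB {v} (box v (L * r)) (L * r) 1 s₂ →
    ∃ c₁ c₂ : ℝ, |c₁| + |c₂| = 1 ∧ WB {v} (box v r) r η (c₁ • s₁ + c₂ • s₂) := by
  obtain ⟨L, K, hL, H⟩ := mode_branch0 η hη
  refine ⟨L, K, hL, fun v r s₁ s₂ hK h1 h2 h3 h4 => ?_⟩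
  have h5 := h1.sh
  have h6 := h2.sh
  rw [shE_univ, shS_singleton, sub_self] at h5 h6
  obtain ⟨c₁, c₂, hc, h7⟩ := H r _ _ hK h5 h6 (wb_sh.2 h3) (wb_sh.2 h4)
  rw [← shift_comb, wb_sh] at h7
  exact ⟨c₁, c₂, hc, h7⟩

/-- **an even cluster of branch points is removable at large scales** -/
theorem mode_cluster : ∃ C : ℝ, ∀ L : ℕ, 1 ≤ L → ∃ K : ℕ, ∀ (S : Finset Site) (x : Site) (r r₀ : ℕ) (s : Fn), K ≤ r →
    K * r₀ ≤ r → Even S.card → (∀ v ∈ S, v ∈ box x r₀) → SolOn (wOf Set.univ S) (box x (4 * L * r)) s →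
    SB (frame x (L * r) (4 * L * r)) 1 s → SB (frame x r (4 * L * r)) C s := by
  obtain ⟨C, H⟩ := mode_cluster0
  refine ⟨C, fun L hL => (H L hL).imp fun K H S x r r₀ s hK hr hS hv h1 h2 => ?_⟩
  have h3 := h1.sh
  rw [shE_univ] at h3
  exact sb_frame_sh.1 (H (shS x S) r r₀ _ hK hr (by rwa [card_shS])
    (fun v h => bc_add_mem_box.1 (hv _ (mem_shS.1 h))) h3 (sb_frame_sh.2 h2))

/-- **a branch point close to the boundary is removable at large scales** -/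
theorem mode_bdry_branch : ∃ C : ℝ, ∀ L : ℕ, 1 ≤ L → ∃ K : ℕ, ∀ (E : Set Edge) (ρ : ℝ) (v b : Site) (r r₀ : ℕ) (s : Fn),
    Reg E ρ → K ≤ r → (K * r : ℝ) ≤ ρ → K * r₀ ≤ r → BdryB E b → v ∈ box b r₀ →
    SolOn (wOf E {v}) (box b (4 * L * r)) s → SB (frame b (L * r) (4 * L * r)) 1 s →
    SB (frame b r (4 * L * r)) C s := by
  obtain ⟨C, H⟩ := mode_bdry_branch0
  refine ⟨C, fun L hL => (H L hL).imp fun K H E ρ v b r r₀ s hE hK hρ hr hb hv h1 h2 => ?_⟩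
  have h3 := h1.sh
  rw [shS_singleton] at h3
  exact sb_frame_sh.1 (H (shEs b E) ρ (v - b) r r₀ _ (hE.sh b) hK hρ hr hb.sh
    (bc_add_mem_box.1 (by rwa [sub_add_cancel])) h3 (sb_frame_sh.2 h2))

end Crest.Agent.R165
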