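import Crest.Agent.R165.BC.Defs

/-! # R165/BC/Osc (owner helper57).  Oscillation along lattice paths; elementary geometry of boxes. -/

set_option autoImplicit false
noncomputable section
open Classical Filter Topology Metric ComplexConjugate

namespace Crest.Agent.R165

theorem mem_box_iff {x p : Site} {R : ℕ} : p ∈ box x R ↔ supd p x ≤ R := mem_box_supd

theorem box_sub {x y : Site} {r R t : ℕ} (h : y ∈ box x t) (h' : t + r ≤ R) : box y r ⊆ box x R :=
  box_subset_box h h'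

theorem toC_add (p q : Site) : toC (p + q) = toC p + toC q := by
  apply Complex.ext <;> simp [toC]

theorem toC_sub (p q : Site) : toC (p - q) = toC p - toC q := by
  apply Complex.ext <;> simp [toC]

theorem supd_le_dist (p q : Site) : (supd p q : ℝ) ≤ ‖toC p - toC q‖ := by
  have h1 := Complex.abs_re_le_norm (toC p - toC q)
  have h2 := Complex.abs_im_le_norm (toC p - toC q)
  simp only [supd, Nat.cast_max, Nat.cast_natAbs, Int.cast_abs, Int.cast_sub, max_le_iff]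
  exact ⟨by simpa [toC] using h1, by simpa [toC] using h2⟩

theorem dist_le_supd (p q : Site) : ‖toC p - toC q‖ ≤ 3 / 2 * supd p q := by
  have h := Complex.norm_le_sqrt_two_mul_max (toC p - toC q)
  have e : max |(toC p - toC q).re| |(toC p - toC q).im| = supd p q := by
    simp [supd, toC, Nat.cast_natAbs]
  have h2 : Real.sqrt 2 ≤ 3 / 2 := Real.sqrt_le_iff.2 ⟨by norm_num, by norm_num⟩
  rw [e] at h
  exact h.trans (by gcongr)

theorem exists_site (z : ℂ) : ∃ p : Site, ‖toC p - z‖ ≤ 1 := by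
  refine ⟨(round z.re, round z.im), (Complex.norm_le_abs_re_add_abs_im _).trans ?_⟩
  have h1 := abs_sub_round z.re
  have h2 := abs_sub_round z.im
  rw [abs_sub_comm] at h1 h2
  simp only [toC, Complex.sub_re, Complex.sub_im]
  linarith

theorem add_dv_mem_box1 (x : Site) (α : Fin 4) : x + dv α ∈ box x 1 := by
  fin_cases α <;> simp [box, dv] <;> omega

theorem edgeOf_fst_mem_box (x : Site) (α : Fin 4) : (edgeOf x α).1 ∈ box x 1 := by
  fin_cases α <;> simp [box, edgeOf] <;> omega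

theorem osca_line {β : Type} [NormedAddCommGroup β] (f : ℤ → β) {I : Set ℤ} (hI : I.OrdConnected) {M : ℝ}
    (h : ∀ a ∈ I, a + 1 ∈ I → ‖f (a + 1) - f a‖ ≤ M) {a b : ℤ} (ha : a ∈ I) (hb : b ∈ I) :
    ‖f a - f b‖ ≤ M * (a - b).natAbs := by
  have key : ∀ a ∈ I, ∀ n : ℕ, a + n ∈ I → ‖f (a + n) - f a‖ ≤ M * n := fun a ha n => by
    induction n with
    | zero => simp
    | succ n ih =>
      intro hn
      push_cast at hn ⊢
      rw [← add_assoc] at hn ⊢
      have h1 : a + n ∈ I := hI.out ha hn ⟨by omega, by omega⟩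
      have h2 := norm_sub_le_norm_sub_add_norm_sub (f (a + n + 1)) (f (a + n)) (f a)
      linarith [h _ h1 hn, ih h1]
  rcases le_total a b with hab | hab
  · obtain ⟨n, rfl⟩ := Int.le.dest hab
    rw [norm_sub_rev]
    simpa using key a ha n hb
  · obtain ⟨n, rfl⟩ := Int.le.dest hab
    simpa using key b hb n ha

/-- L-shaped path in a rectangle (first a row, then a column; induction on the number of steps) -/
theorem osc_rect {β : Type} [NormedAddCommGroup β] (u : Site → β) (I J : Finset ℤ) (hI : (I : Set ℤ).OrdConnected)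
    (hJ : (J : Set ℤ).OrdConnected) {M : ℝ}
    (h : ∀ p ∈ I ×ˢ J, ∀ j, p + uv j ∈ I ×ˢ J → ‖u (p + uv j) - u p‖ ≤ M) {p q : Site} (hp : p ∈ I ×ˢ J)
    (hq : q ∈ I ×ˢ J) : ‖u p - u q‖ ≤ M * ((p.1 - q.1).natAbs + (p.2 - q.2).natAbs) := by
  obtain ⟨p1, p2⟩ := p
  obtain ⟨q1, q2⟩ := q
  simp only [Finset.mem_product] at hp hq h
  have h1 := osca_line (fun a => u (a, p2)) hI (M := M)
    (fun a ha ha' => by simpa [uv] using h (a, p2) ⟨ha, hp.2⟩ 0 (by simpa [uv] using ⟨ha', hp.2⟩)) hp.1 hq.1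
  have h2 := osca_line (fun b => u (q1, b)) hJ (M := M)
    (fun b hb hb' => by simpa [uv] using h (q1, b) ⟨hq.1, hb⟩ 1 (by simpa [uv] using ⟨hq.1, hb'⟩)) hp.2 hq.2
  have h3 := norm_sub_le_norm_sub_add_norm_sub (u (p1, p2)) (u (q1, p2)) (u (q1, q2))
  rw [mul_add]
  exact h3.trans (add_le_add h1 h2)

theorem osc_box {β : Type} [NormedAddCommGroup β] (u : Site → β) (x : Site) (R : ℕ) {M : ℝ} (hM : 0 ≤ M)
    (h : ∀ p ∈ box x R, ∀ j, p + uv j ∈ box x R → ‖u (p + uv j) - u p‖ ≤ M) {p q : Site} (hp : p ∈ box x R)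
    (hq : q ∈ box x R) : ‖u p - u q‖ ≤ M * (2 * supd p q) := by
  refine (osc_rect u _ _ (by simpa using Set.ordConnected_Icc) (by simpa using Set.ordConnected_Icc) h hp hq).trans
    (mul_le_mul_of_nonneg_left ?_ hM)
  have : (p.1 - q.1).natAbs + (p.2 - q.2).natAbs ≤ 2 * supd p q := by
    unfold supd
    omega
  exact_mod_cast this

/-- a frame is the union of four rectangles (top, bottom, left, right strips); each contains the corner `x + (R, R)` or
`x - (R, R)`, and the left and the top strip join these corners through `x + (-R, R)` -/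
theorem osc_frame {β : Type} [NormedAddCommGroup β] (u : Site → β) (x : Site) (r R : ℕ) {M : ℝ} (hM : 0 ≤ M)
    (h : ∀ p ∈ frame x r R, ∀ j, p + uv j ∈ frame x r R → ‖u (p + uv j) - u p‖ ≤ M) {p q : Site}
    (hp : p ∈ frame x r R) (hq : q ∈ frame x r R) : ‖u p - u q‖ ≤ M * (16 * R) := by
  have hf : ∀ p : Site, p ∈ frame x r R ↔ (x.1 - R ≤ p.1 ∧ p.1 ≤ x.1 + R ∧ x.2 - R ≤ p.2 ∧ p.2 ≤ x.2 + R) ∧
      (p.1 < x.1 - r ∨ x.1 + r < p.1 ∨ p.2 < x.2 - r ∨ x.2 + r < p.2) := fun p => by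
    simp only [frame, box, Finset.mem_sdiff, Finset.mem_product, Finset.mem_Icc]
    omega
  have strip : ∀ a b c d : ℤ, x.1 - R ≤ a → b ≤ x.1 + R → x.2 - R ≤ c → d ≤ x.2 + R →
      (b < x.1 - r ∨ x.1 + r < a ∨ d < x.2 - r ∨ x.2 + r < c) → ∀ p q : Site, (a ≤ p.1 ∧ p.1 ≤ b) ∧ c ≤ p.2 ∧ p.2 ≤ d →
      (a ≤ q.1 ∧ q.1 ≤ b) ∧ c ≤ q.2 ∧ q.2 ≤ d → ‖u p - u q‖ ≤ M * (4 * R) := fun a b c d h1 h2 h3 h4 h5 p q hp hq => by
    have hs : ∀ p ∈ Finset.Icc a b ×ˢ Finset.Icc c d, p ∈ frame x r R := fun p hp => by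
      simp only [Finset.mem_product, Finset.mem_Icc] at hp
      rw [hf]
      omega
    refine (osc_rect u (Finset.Icc a b) (Finset.Icc c d) (by simpa using Set.ordConnected_Icc)
      (by simpa using Set.ordConnected_Icc) (fun p hp j hj => h p (hs _ hp) j (hs _ hj)) (by simpa using hp)
      (by simpa using hq)).trans (mul_le_mul_of_nonneg_left ?_ hM)
    have : (p.1 - q.1).natAbs + (p.2 - q.2).natAbs ≤ 4 * R := by omega
    exact_mod_cast this
  have hR : 0 ≤ M * (4 * R) := by positivity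
  have key : ∀ p ∈ frame x r R, ‖u p - u (x.1 - R, x.2 + R)‖ ≤ M * (4 * R) + M * (4 * R) := fun p hp => by
    rw [hf] at hp
    have hL := strip (x.1 - R) (x.1 - r - 1) (x.2 - R) (x.2 + R) le_rfl (by omega) le_rfl le_rfl (by omega)
    have hT := strip (x.1 - R) (x.1 + R) (x.2 + r + 1) (x.2 + R) le_rfl le_rfl (by omega) le_rfl (by omega)
    have hE := strip (x.1 + r + 1) (x.1 + R) (x.2 - R) (x.2 + R) (by omega) le_rfl le_rfl le_rfl (by omega)
    have hB := strip (x.1 - R) (x.1 + R) (x.2 - R) (x.2 - r - 1) le_rfl le_rfl le_rfl (by omega) (by omega)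
    obtain ⟨h0, h1 | h1 | h1 | h1⟩ := hp
    · exact (hL p _ (by omega) (by dsimp only; omega)).trans (le_add_of_nonneg_right hR)
    · exact (norm_sub_le_norm_sub_add_norm_sub _ (u (x.1 + R, x.2 + R)) _).trans (add_le_add
        (hE p _ (by omega) (by dsimp only; omega)) (hT _ _ (by dsimp only; omega) (by dsimp only; omega)))
    · exact (norm_sub_le_norm_sub_add_norm_sub _ (u (x.1 - R, x.2 - R)) _).trans (add_le_add
        (hB p _ (by omega) (by dsimp only; omega)) (hL _ _ (by dsimp only; omega) (by dsimp only; omega)))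
    · exact (hT p _ (by omega) (by dsimp only; omega)).trans (le_add_of_nonneg_right hR)
  have h1 := key p hp
  have h2 := key q hq
  rw [norm_sub_rev] at h2
  have h3 := norm_sub_le_norm_sub_add_norm_sub (u p) (u (x.1 - R, x.2 + R)) (u q)
  linarith

theorem abs_wOf_le (E : Set Edge) (S : Finset Site) (e : Edge) : |wOf E S e| ≤ 1 := by
  unfold wOf
  have := tc_pos
  split_ifs
  · rcases eray_sign S e with h | h <;> rw [h, abs_le] <;> constructor <;> linarith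
  · simp

theorem oscb_opp (s : Fn) (x : Site) (α : Fin 4) : |s (x + dv α, α + 2)| = |opp s x α| := by
  obtain ⟨a, b⟩ := x
  induction α using b1_fin4
  · rw [opp_0, add_dv_0]; rfl
  · rw [opp_1, add_dv_1]; rfl
  · rw [opp_2, add_dv_2, abs_neg]; rfl
  · rw [opp_3, add_dv_3, abs_neg]; rfl

/-- `IsH.white` with `dv 0 = uv 0`, `dv 1 = uv 1`; `opp s x α = ± s (x + dv α, _)` -/
theorem IsH.step_le {E : Set Edge} {S : Finset Site} {s : Fn} {W W' : Set Site} {Hw Hb : Site → ℝ} {M : ℝ}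
    (hH : IsH (wOf E S) s W Hw Hb) (hs : SolOn (wOf E S) W s) (hW : W' ⊆ W) (hM : SB W' M s) {p : Site} {j : Fin 2}
    (hp : p ∈ W') (hp' : p + uv j ∈ W') : |Hw (p + uv j) - Hw p| ≤ M ^ 2 := by
  obtain ⟨α, e⟩ : ∃ α, uv j = dv α := by
    fin_cases j
    exacts [⟨0, rfl⟩, ⟨1, rfl⟩]
  rw [e] at hp' ⊢
  have h1 := sq_le_sq' (abs_le.1 (hM p hp α)).1 (abs_le.1 (hM p hp α)).2
  have h2 : |opp s p α| ≤ M := oscb_opp s p α ▸ hM _ hp' _
  have h3 := sq_le_sq' (abs_le.1 h2).1 (abs_le.1 h2).2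
  have h4 := (sq_le_one_iff_abs_le_one _).2 (abs_wOf_le E S (edgeOf p α))
  rw [hH.white hs (hW hp) (hW hp'), abs_mul]
  refine (mul_le_mul (b := 1) (d := M ^ 2) ?_ ?_ (abs_nonneg _) zero_le_one).trans_eq (one_mul _) <;> rw [abs_le] <;>
    constructor <;> nlinarith [sq_nonneg (wOf E S (edgeOf p α)), sq_nonneg (opp s p α), sq_nonneg (s (p, α))]

/-- the corner value at `x` -/
theorem IsH.corner_le {E : Set Edge} {S : Finset Site} {s : Fn} {W : Set Site} {Hw Hb : Site → ℝ} {M : ℝ} {x : Site}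
    (hH : IsH (wOf E S) s W Hw Hb) (hx : x ∈ W) (hM : SB (box x 1) M s) (α : Fin 4) :
    |Hw x - Hb (cB x α)| ≤ 4 * M ^ 2 := by
  have h1 := hM x (self_mem_box x 1) α
  have h2 : |opp s x α| ≤ M := oscb_opp s x α ▸ hM _ (b1_add_dv_mem_box x α) _
  have h3 : |cP (wOf E S) s x α| ≤ 2 * M := by
    refine (abs_add_le _ _).trans ?_
    rw [abs_mul]
    nlinarith [abs_wOf_le E S (edgeOf x α), abs_nonneg (opp s x α)]
  rw [hH x hx α, abs_sq, ← sq_abs]
  nlinarith [abs_nonneg (cP (wOf E S) s x α)]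

theorem oscb_om : ‖om‖ = 1 := by
  rw [om, Complex.norm_exp]
  simp

theorem norm_fld_le {s : Fn} {p : Site} {M : ℝ} (h : ∀ α, |s (p, α)| ≤ M) : ‖fld s p‖ ≤ 2 * M := by
  have h1 : ‖∑ α : Fin 4, om ^ (α : ℕ) * (s (p, α) : ℂ)‖ ≤ ∑ α : Fin 4, M :=
    norm_sum_le_of_le _ fun α _ => by
      rw [norm_mul, norm_pow, oscb_om, one_pow, one_mul, Complex.norm_real]
      exact h α
  rw [fld, norm_mul]
  simp only [Finset.sum_const, Finset.card_univ, Fintype.card_fin, nsmul_eq_mul, Nat.cast_ofNat] at h1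
  simp only [one_div, norm_inv, Complex.norm_ofNat]
  linarith

theorem abs_le_fld_mas (s : Fn) (p : Site) (α : Fin 4) : |s (p, α)| ≤ ‖fld s p‖ + |mas s (p, α)| := by
  have h1 : |cSol (fld s p) (p, α)| ≤ ‖fld s p‖ := (Complex.abs_re_le_norm _).trans_eq (by
    rw [norm_mul, norm_pow, Complex.norm_conj, oscb_om, one_pow, mul_one])
  have h2 : s (p, α) = cSol (fld s p) (p, α) + mas s (p, α) := by simp [mas]
  calc |s (p, α)| = |cSol (fld s p) (p, α) + mas s (p, α)| := congrArg _ h2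
    _ ≤ _ := (abs_add_le _ _).trans (by linarith)

theorem fld_comb (c₁ c₂ : ℝ) (s₁ s₂ : Fn) (p : Site) : fld (c₁ • s₁ + c₂ • s₂) p = c₁ * fld s₁ p + c₂ * fld s₂ p := by
  simp only [fld, Fin.sum_univ_four, Pi.add_apply, Pi.smul_apply, smul_eq_mul]
  push_cast
  ring

theorem gF_comb {n : ℕ} (a : ℝ) (v : Fin n → Site) (c₁ c₂ : ℝ) (s₁ s₂ : Fn) (p : Site) :
    gF a v (c₁ • s₁ + c₂ • s₂) p = c₁ * gF a v s₁ p + c₂ * gF a v s₂ p := by
  simp only [gF, gfld, fld_comb]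
  ring

theorem SolOn.comb {w : Edge → ℝ} {W : Set Site} {s₁ s₂ : Fn} (h₁ : SolOn w W s₁) (h₂ : SolOn w W s₂) (c₁ c₂ : ℝ) :
    SolOn w W (c₁ • s₁ + c₂ • s₂) := by
  intro x hx α
  have e : opA w (c₁ • s₁ + c₂ • s₂) (x, α) = c₁ * opA w s₁ (x, α) + c₂ * opA w s₂ (x, α) := by
    simp only [opA, opp, sv, Pi.add_apply, Pi.smul_apply, smul_eq_mul]
    split_ifs <;> ring
  rw [e, h₁ x hx, h₂ x hx, mul_zero, mul_zero, add_zero]

theorem oscb_comb {a b M : ℝ} (c₁ c₂ : ℝ) (ha : |a| ≤ M) (hb : |b| ≤ M) : |c₁ * a + c₂ * b| ≤ (|c₁| + |c₂|) * M := by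
  refine (abs_add_le _ _).trans ?_
  rw [abs_mul, abs_mul, add_mul]
  gcongr

theorem SB.comb {W : Set Site} {s₁ s₂ : Fn} {M : ℝ} (h₁ : SB W M s₁) (h₂ : SB W M s₂) (c₁ c₂ : ℝ) :
    SB W ((|c₁| + |c₂|) * M) (c₁ • s₁ + c₂ • s₂) := by
  exact fun x hx α => oscb_comb c₁ c₂ (h₁ x hx α) (h₂ x hx α)

theorem WB.comb {S : Finset Site} {W : Set Site} {l : ℕ} {s₁ s₂ : Fn} {M : ℝ} (h₁ : WB S W l M s₁)
    (h₂ : WB S W l M s₂) (c₁ c₂ : ℝ) : WB S W l ((|c₁| + |c₂|) * M) (c₁ • s₁ + c₂ • s₂) := by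
  intro x hx α
  have hd : 0 ≤ dB S l x := Nat.cast_nonneg _
  have key : ∀ t : ℝ, |s₁ (x, α)| ≤ |t| → |s₂ (x, α)| ≤ |t| → t ^ 2 * dB S l x ≤ M ^ 2 * l →
      (c₁ * s₁ (x, α) + c₂ * s₂ (x, α)) ^ 2 * dB S l x ≤ ((|c₁| + |c₂|) * M) ^ 2 * l := fun t h1 h2 h3 => by
    have h4 := pow_le_pow_left₀ (abs_nonneg _) (oscb_comb c₁ c₂ h1 h2) 2
    rw [sq_abs, mul_pow, sq_abs] at h4
    calc _ ≤ (|c₁| + |c₂|) ^ 2 * t ^ 2 * dB S l x := mul_le_mul_of_nonneg_right h4 hd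
      _ ≤ _ := by
        rw [mul_pow, mul_assoc, mul_assoc]
        exact mul_le_mul_of_nonneg_left h3 (sq_nonneg _)
  rcases le_total |s₁ (x, α)| |s₂ (x, α)| with h | h
  exacts [key _ h le_rfl (h₂ x hx α), key _ le_rfl h (h₁ x hx α)]

/-- lower bound for `dB` (`Finset.le_fold_min`) -/
theorem le_dB {S : Finset Site} {l : ℕ} {p : Site} {t : ℝ} (h : t ≤ l) (h' : ∀ v ∈ S, t ≤ supd p v + 1) :
    t ≤ dB S l p := by
  exact Nat.ceil_le.1 ((Finset.le_fold_min _).2 ⟨Nat.ceil_le.2 h, fun v hv => Nat.ceil_le.2 (by exact_mod_cast h' v hv)⟩)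

theorem reg_univ (ρ : ℝ) : Reg Set.univ ρ := by
  have h : ∀ b, ¬ FrozenB Set.univ b := fun b ⟨e, he, _⟩ => he (Set.mem_univ e)
  exact ⟨fun b hb => (h b hb.1).elim, fun b hb => (h b hb.1).elim, fun b _ _ hb => (h b hb).elim,
    fun b _ hb => (h b hb).elim⟩

end Crest.Agent.R165
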