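import Crest.Agent.R165.BC.Osc

/-! # R165/BC/Shift (owner helper57).  Translation invariance. -/

set_option autoImplicit false
noncomputable section
open Classical Filter Topology Metric ComplexConjugate

namespace Crest.Agent.R165

def shEs (b : Site) (E : Set Edge) : Set Edge := {e | (e.1 + b, e.2) ∈ E}
def shS (b : Site) (S : Finset Site) : Finset Site := S.image (· - b)

theorem mem_shS {b v : Site} {S : Finset Site} : v ∈ shS b S ↔ v + b ∈ S := by
  simp only [shS, Finset.mem_image]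
  exact ⟨fun ⟨w, hw, e⟩ => by rwa [← e, sub_add_cancel], fun h => ⟨_, h, add_sub_cancel_right v b⟩⟩

theorem card_shS (b : Site) (S : Finset Site) : (shS b S).card = S.card := by
  exact Finset.card_image_of_injective _ (sub_left_injective)

theorem shS_singleton (b v : Site) : shS b {v} = {v - b} := by
  simp [shS]

theorem shE_univ (b : Site) : shEs b Set.univ = Set.univ := by
  rfl

theorem sh_supd (p q b : Site) : supd (p + b) (q + b) = supd p q := by
  simp [supd]

theorem sh_mem_box {p q b : Site} {R : ℕ} : p + b ∈ box (q + b) R ↔ p ∈ box q R := by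
  rw [mem_box_iff, mem_box_iff, sh_supd]

theorem sh_B0 (b : Site) (e : Edge) : edgeB0 (e.1 + b, e.2) = edgeB0 e + b := by
  obtain ⟨p, j⟩ := e
  fin_cases j <;> simp [edgeB0] <;> abel

theorem sh_B1 (b : Site) (e : Edge) : edgeB1 (e.1 + b, e.2) = edgeB1 e + b := by
  simp only [edgeB1]; abel

theorem sh_edgeOf (b x : Site) (α : Fin 4) : edgeOf (x + b) α = ((edgeOf x α).1 + b, (edgeOf x α).2) := by
  fin_cases α <;> simp [edgeOf] <;> abel

theorem sh_exists {P : Edge → Prop} (b : Site) : (∃ e, P e) ↔ ∃ e : Edge, P (e.1 + b, e.2) :=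
  ⟨fun ⟨e, h⟩ => ⟨(e.1 - b, e.2), by simpa using h⟩, fun ⟨_, h⟩ => ⟨_, h⟩⟩

theorem sh_frozen {E : Set Edge} {b c : Site} : FrozenB (shEs b E) c ↔ FrozenB E (c + b) := by
  unfold FrozenB
  rw [sh_exists b (P := fun e => e ∉ E ∧ _)]
  simp only [sh_B0, sh_B1, add_left_inj]
  rfl

theorem sh_bdry {E : Set Edge} {b c : Site} : BdryB (shEs b E) c ↔ BdryB E (c + b) := by
  unfold BdryB
  rw [sh_frozen, sh_exists b (P := fun e => e ∈ E ∧ _)]
  simp only [sh_supd]
  rfl

theorem sh_step {E : Set Edge} {W : Set Site} {b c c' : Site} :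
    FrozenStep (shEs b E) {p | p + b ∈ W} c c' ↔ FrozenStep E W (c + b) (c' + b) := by
  unfold FrozenStep
  rw [sh_exists b (P := fun e => e ∉ E ∧ _)]
  simp only [sh_B0, sh_B1, add_left_inj]
  rfl

theorem sh_path {E : Set Edge} {W : Set Site} {b c c' : Site}
    (h : Relation.ReflTransGen (FrozenStep E W) (c + b) (c' + b)) :
    Relation.ReflTransGen (FrozenStep (shEs b E) {p | p + b ∈ W}) c c' := by
  have := h.lift (p := FrozenStep (shEs b E) {p | p + b ∈ W}) (· - b) fun x y hxy =>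
    sh_step.2 (by simpa using hxy)
  simpa [Function.onFun] using this

theorem bc_add_mem_box {p b : Site} {R : ℕ} : p + b ∈ box b R ↔ p ∈ box 0 R := by
  rw [mem_box_iff, mem_box_iff, ← sh_supd p 0 b, zero_add]

theorem wOf_sh (b : Site) (E : Set Edge) (S : Finset Site) (e : Edge) :
    wOf (shEs b E) (shS b S) e = wOf E S (e.1 + b, e.2) := by
  have e1 : eray (shS b S) e = eray S (e.1 + b, e.2) := by
    unfold eray
    split_ifs with h
    · congr 1
      refine Finset.card_nbij' (· + b) (· - b) (fun v hv => ?_) (fun v hv => ?_) (fun v _ => by simp) fun v _ => by simp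
      · simp only [Finset.coe_filter, Set.mem_ofPred_eq, mem_shS, Prod.snd_add, Prod.fst_add] at hv ⊢
        exact ⟨hv.1, by omega, by omega⟩
      · simp only [Finset.coe_filter, Set.mem_ofPred_eq, mem_shS, Prod.snd_add, Prod.fst_add, Prod.snd_sub, Prod.fst_sub,
          sub_add_cancel] at hv ⊢
        exact ⟨hv.1, by omega, by omega⟩
    · rfl
  unfold wOf
  rw [e1]
  rfl

theorem Reg.sh {E : Set Edge} {ρ : ℝ} (h : Reg E ρ) (b : Site) : Reg (shEs b E) ρ := by
  have hd : ∀ (p : Site) (c : ℂ), dist (toC (p + b)) c = dist (toC p) (c - toC b) := fun p c => by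
    rw [toC_add, dist_eq_norm, dist_eq_norm]; congr 1; ring
  refine ⟨fun c hc => ?_, fun c hc => ?_, fun c c' r h1 h2 h3 h4 => ?_, fun c c' h1 h2 => ?_⟩
  · obtain ⟨z, h1, h2⟩ := h.ext _ (sh_bdry.1 hc)
    exact ⟨z - toC b, by rwa [← hd], fun e he => h2 (e.1 + b, e.2) (by rwa [hd])⟩
  · obtain ⟨z, h1, h2⟩ := h.int _ (sh_bdry.1 hc)
    exact ⟨z - toC b, by rwa [← hd], fun e he => h2 (e.1 + b, e.2) (by rwa [hd])⟩
  · have := sh_path (h.loc _ _ r (sh_frozen.1 h1) (sh_frozen.1 h2) (by rwa [sh_supd]) h4)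
    simpa only [Finset.mem_coe, sh_mem_box, Finset.setOfPred_mem] using this
  · exact sh_path (h.glob _ _ (sh_frozen.1 h1) (sh_frozen.1 h2))

theorem BdryB.sh {E : Set Edge} {b : Site} (h : BdryB E b) : BdryB (shEs b E) 0 := by
  exact sh_bdry.2 (by rwa [zero_add])

theorem SolOn.sh {E : Set Edge} {S : Finset Site} {b : Site} {R : ℕ} {s : Fn} (h : SolOn (wOf E S) (box b R) s) :
    SolOn (wOf (shEs b E) (shS b S)) (box 0 R) (shift b s) := by
  intro x hx α
  have := h (x + b) (bc_add_mem_box.2 hx) α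
  rw [← this]
  simp only [opA, opp, wOf_sh, sh_edgeOf, add_right_comm x b]
  rfl

theorem sb_box_sh {b : Site} {R : ℕ} {M : ℝ} {s : Fn} : SB (box 0 R) M (shift b s) ↔ SB (box b R) M s := by
  exact ⟨fun h x hx α => by simpa [shift] using h (x - b) ((bc_add_mem_box (b := b)).1 (by simpa using hx)) α,
    fun h x hx α => h _ (bc_add_mem_box.2 hx) α⟩

theorem sb_frame_sh {b : Site} {r R : ℕ} {M : ℝ} {s : Fn} : SB (frame 0 r R) M (shift b s) ↔ SB (frame b r R) M s := by
  have e : ∀ p, p + b ∈ frame b r R ↔ p ∈ frame 0 r R := fun p => by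
    simp only [frame, Finset.mem_sdiff, bc_add_mem_box]
  exact ⟨fun h x hx α => by simpa [shift] using h (x - b) ((e _).1 (by simpa using hx)) α,
    fun h x hx α => h _ ((e _).2 hx) α⟩

theorem wb_sh {b : Site} {R l : ℕ} {M : ℝ} {s : Fn} : WB {0} (box 0 R) l M (shift b s) ↔ WB {b} (box b R) l M s := by
  have e : ∀ p, dB {b} l (p + b) = dB {0} l p := fun p => by
    simp only [dB, Finset.fold_singleton]
    rw [← sh_supd p 0 b, zero_add]
  refine ⟨fun h x hx α => ?_, fun h x hx α => e x ▸ h _ (bc_add_mem_box.2 hx) α⟩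
  have := h (x - b) ((bc_add_mem_box (b := b)).1 (by simpa using hx)) α
  rw [← e] at this
  simpa [shift] using this

theorem shift_comb (b : Site) (c₁ c₂ : ℝ) (s₁ s₂ : Fn) :
    shift b (c₁ • s₁ + c₂ • s₂) = c₁ • shift b s₁ + c₂ • shift b s₂ := rfl

end Crest.Agent.R165
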